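import Vale.Agent.P159.T1.H112.QBox

/-!
The quarter box (P159, plan 115, row D.far): the final inequality.
-/

open MeasureTheory Filter Topology

namespace Vale.Agent.P159.T1.H112

open Vale.Agent.P159 Vale.Agent.P159.H353 Vale.Agent.P159.R2.H254 Vale.Agent.P159.R2.H729
  Vale.Agent.P159.T1.H934 Vale.Agent.P159.T1.D Vale.Agent.P159.T1.H532 Vale.Agent.P159.T1.H910

/-- the harmonic sum -/
lemma hs_ge {a L : ℕ} (h : a ≤ L) :
    Real.log (((L : ℝ) + 1) / ((a : ℝ) + 1)) ≤ hs a L := by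
  induction L, h using Nat.le_induction with
  | base =>
    rw [div_self (by positivity), Real.log_one]
    unfold hs
    exact Finset.sum_nonneg fun k _ => by split_ifs <;> positivity
  | succ n hn ih =>
    have h1 : hs a (n + 1) = hs a n + 1 / ((n : ℝ) + 1) := by
      unfold hs
      rw [Finset.sum_range_succ, if_pos hn]
    have p1 : (0 : ℝ) < (n : ℝ) + 1 := by positivity
    have p2 : (0 : ℝ) < (a : ℝ) + 1 := by positivity
    have h2 : Real.log ((((n + 1 : ℕ) : ℝ) + 1) / ((a : ℝ) + 1)) =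
        Real.log (((n : ℝ) + 1) / ((a : ℝ) + 1)) + Real.log ((((n : ℝ) + 1) + 1) / ((n : ℝ) + 1)) := by
      rw [← Real.log_mul (by positivity) (by positivity)]
      congr 1
      push_cast
      field_simp
    have h3 : Real.log ((((n : ℝ) + 1) + 1) / ((n : ℝ) + 1)) ≤ 1 / ((n : ℝ) + 1) := by
      refine (Real.log_le_sub_one_of_pos (by positivity)).trans (le_of_eq ?_)
      field_simp
      ring
    rw [h1, h2]
    linarith

lemma sum_SB' (L : ℕ) (f : Bnd → ℝ) (h0 : f e0 = 0) :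
    ∑ e : {e : Bnd // e ∈ SB' L}, f e.1 = ∑ e ∈ SQ L, f e := by
  rw [Finset.sum_coe_sort (SB' L) f]
  have h1 : e0 ∉ SQ L := by
    rw [mem_SQ, mem_bxQ]
    unfold e0
    simp
  unfold SB'
  rw [Finset.sum_insert h1, h0, zero_add]

/-- the flow avoids the deleted square -/
lemma fl_S {a L : ℕ} {δ : ℝ} (hL : 1 ≤ L) (e : {e : Bnd // e ∈ SB' L})
    (h : qs L e ∈ Sq L a ∨ qt L e ∈ Sq L a) : fl a δ e.1 = 0 := by
  obtain ⟨e, he⟩ := e
  obtain ⟨⟨h1, h2⟩, -⟩ := ends hL he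
  rw [mem_Sq_fc, mem_Sq_fc] at h
  unfold qs qt at h
  rw [fc_qv h1, fc_qv h2] at h
  obtain ⟨⟨x, y⟩, τ⟩ := e
  unfold fl
  cases τ
  · rw [rt_false, lf_false] at h
    simp only at h
    simp only [Bool.false_eq_true, if_false]
    rw [if_neg (by omega)]
  · rw [rt_true, lf_true] at h
    simp only at h
    simp only [if_true]
    rw [if_neg (by omega)]

lemma fl_abs {a : ℕ} {δ : ℝ} (hδ : 0 ≤ δ) (hδ' : δ ≤ 1) (e : Bnd) : |fl a δ e| ≤ 1 := by
  have key : ∀ k : ℤ, (a : ℤ) ≤ k → |-(δ / ((k : ℝ) + 1))| ≤ 1 := by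
    intro k hk
    have h1 : (0 : ℝ) ≤ k := by
      have : (0 : ℤ) ≤ k := le_trans (Int.natCast_nonneg a) hk
      exact_mod_cast this
    rw [abs_neg, abs_of_nonneg (by positivity), div_le_one (by positivity)]
    linarith
  unfold fl
  split_ifs with h1 h2 h2
  · exact key _ h2.2
  · simp
  · exact key _ h2.2
  · simp

/-- **The ratio `Z(0|2) / Z(0|0)` of the quarter annulus.** -/
theorem ratio_q {b c : ℝ} (hc : 0 < c) (hcb : c ≤ b) {a L : ℕ} (hL : 1 ≤ L) :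
    N02 (qs L) (qt L) (fun e => JQ b c e.1) (Lq L a) (Rq L a) (Sq L a) /
      ZD (qs L) (qt L) (fun e => JQ b c e.1) (Zq L) (Sq L a) (fun _ => True) ≤
      Real.exp (-(1 / (1 + 4 * b) * hs a L)) := by
  have hb : 0 < b := hc.trans_le hcb
  have hJ : ∀ e : Bnd, 0 ≤ JQ b c e := fun e => by
    unfold JQ
    split_ifs <;> linarith
  have hJb : ∀ e : Bnd, JQ b c e ≤ b := fun e => by
    unfold JQ
    split_ifs <;> linarith
  set δ : ℝ := 1 / (1 + 4 * b) with hδ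
  have hδ0 : 0 ≤ δ := by positivity
  have hδ1 : δ ≤ 1 := by
    rw [hδ, div_le_one (by positivity)]
    linarith
  have h1 := N02_le (s := qs L) (t := qt L) (J := fun e => JQ b c e.1) (fun e => hJ e.1)
    (Z := Zq L) (L := Lq L a) (R := Rq L a) (S := Sq L a) (RS_q hL) Z1_q (fun e => fl a δ e.1)
    (fun e he => fl_S hL e he) (Φ := 2 * δ * hs a L) (by
      intro h a1 a2 _
      have h2 := sum_SB' L (fun e => fl a δ e *
        ((h (qv L (lf e)) - h (qv L (rt e)) : ℤ) : ℝ)) (by rw [fl_e0, zero_mul])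
      rw [← flux a L δ (fun f => h (qv L f)) (fun k hk hk' => a1 _ ?_)
        (fun k hk hk' => a2 _ ?_), ← h2]
      · rfl
      · show (fc (qv L (-1, (k : ℤ)))).1 = -1 ∧ (a : ℤ) ≤ (fc (qv L (-1, (k : ℤ)))).2
        rw [fc_qv (inE_mk le_rfl (by omega) (by omega) (by omega))]
        exact ⟨rfl, by show (a : ℤ) ≤ (k : ℤ); exact_mod_cast hk⟩
      · show (a : ℤ) ≤ (fc (qv L ((k : ℤ), -1))).1 ∧ (fc (qv L ((k : ℤ), -1))).2 = -1
        rw [fc_qv (inE_mk (by omega) (by omega) le_rfl (by omega))]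
        exact ⟨by show (a : ℤ) ≤ (k : ℤ); exact_mod_cast hk, rfl⟩)
  refine h1.trans (Real.exp_le_exp.2 ?_)
  have h2 := sum_SB' L (fun e => JQ b c e * (Real.cosh (fl a δ e) - 1)) (by
    rw [fl_e0, Real.cosh_zero, sub_self, mul_zero])
  rw [h2]
  have h3 : ∑ e ∈ SQ L, JQ b c e * (Real.cosh (fl a δ e) - 1) ≤
      ∑ e ∈ SQ L, b * (2 * fl a δ e ^ 2) := by
    refine Finset.sum_le_sum fun e _ => ?_
    have h4 := H950.cosh_le2 (fl_abs (a := a) hδ0 hδ1 e)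
    have h5 := Real.one_le_cosh (fl a δ e)
    calc JQ b c e * (Real.cosh (fl a δ e) - 1) ≤ b * (Real.cosh (fl a δ e) - 1) :=
          mul_le_mul_of_nonneg_right (hJb e) (by linarith)
      _ ≤ b * (2 * fl a δ e ^ 2) := mul_le_mul_of_nonneg_left h4 hb.le
  rw [← Finset.mul_sum, ← Finset.mul_sum, energy] at h3
  have hH : 0 ≤ hs a L := by
    unfold hs
    exact Finset.sum_nonneg fun k _ => by split_ifs <;> positivity
  have h6 : 4 * b * δ ≤ 1 := by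
    rw [hδ, mul_one_div, div_le_one (by positivity)]
    linarith
  have h7 : 4 * b * δ * (δ * hs a L) ≤ 1 * (δ * hs a L) :=
    mul_le_mul_of_nonneg_right h6 (mul_nonneg hδ0 hH)
  nlinarith [h3, h7]

/-- the same with a power -/
theorem ratio_pow {b c : ℝ} (hc : 0 < c) (hcb : c ≤ b) {a L : ℕ} (ha : 1 ≤ a) (hL : a ≤ L) :
    N02 (qs L) (qt L) (fun e => JQ b c e.1) (Lq L a) (Rq L a) (Sq L a) /
      ZD (qs L) (qt L) (fun e => JQ b c e.1) (Zq L) (Sq L a) (fun _ => True) ≤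
      2 * ((a : ℝ) / L) ^ (1 / (1 + 4 * b)) := by
  have hb : 0 < b := hc.trans_le hcb
  refine (ratio_q hc hcb (a := a) (by omega)).trans ?_
  set δ : ℝ := 1 / (1 + 4 * b) with hδ
  have hδ0 : 0 < δ := by positivity
  have hδ1 : δ ≤ 1 := by
    rw [hδ, div_le_one (by positivity)]
    linarith
  have ha' : (1 : ℝ) ≤ a := by exact_mod_cast ha
  have hL' : (1 : ℝ) ≤ L := ha'.trans (by exact_mod_cast hL)
  have h1 := hs_ge hL
  have h2 : Real.exp (-(δ * hs a L)) ≤ (((a : ℝ) + 1) / ((L : ℝ) + 1)) ^ δ := by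
    rw [Real.rpow_def_of_pos (by positivity)]
    refine Real.exp_le_exp.2 ?_
    have h3 : Real.log (((a : ℝ) + 1) / ((L : ℝ) + 1)) =
        -Real.log (((L : ℝ) + 1) / ((a : ℝ) + 1)) := by
      rw [← Real.log_inv, inv_div]
    rw [h3]
    nlinarith [mul_le_mul_of_nonneg_left h1 hδ0.le]
  refine h2.trans ?_
  have h3 : ((a : ℝ) + 1) / ((L : ℝ) + 1) ≤ 2 * ((a : ℝ) / L) := by
    rw [div_le_iff₀ (by positivity), mul_comm (2 : ℝ), div_mul_eq_mul_div, div_mul_eq_mul_div,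
      le_div_iff₀ (by positivity)]
    nlinarith
  refine (Real.rpow_le_rpow (by positivity) h3 hδ0.le).trans ?_
  rw [Real.mul_rpow (by norm_num) (by positivity)]
  refine mul_le_mul_of_nonneg_right ?_ (by positivity)
  calc (2 : ℝ) ^ δ ≤ 2 ^ (1 : ℝ) := Real.rpow_le_rpow_of_exponent_le (by norm_num) hδ1
    _ = 2 := Real.rpow_one 2

lemma JQ_nonneg {b c : ℝ} (hc : 0 < c) (hcb : c ≤ b) (e : Bnd) : 0 ≤ JQ b c e := by
  have := hc.trans_le hcb
  unfold JQ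
  split_ifs <;> linarith

/-- nonnegative expectations -/
lemma div_q {b c : ℝ} (hc : 0 < c) (hcb : c ≤ b) (L : ℕ) (X : Set (QV L)) (f : (QV L → ℤ) → ℝ)
    (hf : ∀ h, 0 ≤ f h) :
    0 ≤ T1.H910.ZZ (qs L) (qt L) (fun e => JQ b c e.1) X f /
      T1.H910.ZZ (qs L) (qt L) (fun e => JQ b c e.1) X (fun _ => 1) := by
  have hJ' : ∀ e : {e : Bnd // e ∈ SB' L}, 0 ≤ JQ b c e.1 := fun e => JQ_nonneg hc hcb e.1
  exact div_nonneg (ZZ_nonneg (s := qs L) (t := qt L) hJ' X hf)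
    (ZZ_nonneg (s := qs L) (t := qt L) hJ' X (f := fun _ => 1) fun _ => zero_le_one)

/-- the dictionary for the ratios -/
lemma dict_q {b c : ℝ} (hJ : ∀ e : Bnd, 0 ≤ JQ b c e) {L : ℕ} {ρ : Z2 → ℝ}
    (hρ : ∀ f, f ∉ bxQ L → ρ f = 0) {U : Finset Z2} (hU : U ⊆ bxQ L) (n : ℕ) :
    T1.H910.ZZ (qs L) (qt L) (fun e => JQ b c e.1) (Pq L U)
        (fun h => (li (fun v => ρ (fc v)) h) ^ n) /
      T1.H910.ZZ (qs L) (qt L) (fun e => JQ b c e.1) (Pq L U) (fun _ => 1) =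
      FF (JQ b c) (SQ L) U (fun h => ch (bxQ L) ρ h ^ n) / FF (JQ b c) (SQ L) U (fun _ => 1) := by
  simp only [li_q hρ]
  rw [ZZ_q (JQ b c) hU (fun h => ch (bxQ L) ρ h ^ n), ZZ_q (JQ b c) hU (fun _ => 1),
    FF_e0 (JQ b c) hU, FF_e0 (JQ b c) hU]
  exact mul_div_mul_left _ _ (wI_zero_pos (hJ e0)).ne'

/-- the inequality on the graph, first case -/
lemma far_q1 {b c : ℝ} (hc : 0 < c) (hcb : c ≤ b) {a L : ℕ} (ha : 1 ≤ a) (hL : a + 2 ≤ L)
    {ρ : Z2 → ℝ} (hρ : ∀ f, f ∉ bxQ a → ρ f = 0) (hne : (Zq L).Nonempty) :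
    T1.H910.ZZ (qs L) (qt L) (fun e => JQ b c e.1) (Zq L)
        (fun h => (li (fun v => ρ (fc v)) h) ^ 2) /
      T1.H910.ZZ (qs L) (qt L) (fun e => JQ b c e.1) (Zq L) (fun _ => 1) ≤
    T1.H910.ZZ (qs L) (qt L) (fun e => JQ b c e.1) (Zq L ∪ Aq L)
        (fun h => (li (fun v => ρ (fc v)) h) ^ 2) /
      T1.H910.ZZ (qs L) (qt L) (fun e => JQ b c e.1) (Zq L ∪ Aq L) (fun _ => 1) +
    √(T1.H910.ZZ (qs L) (qt L) (fun e => JQ b c e.1) (Zq L)
        (fun h => (li (fun v => ρ (fc v)) h) ^ 4) /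
      T1.H910.ZZ (qs L) (qt L) (fun e => JQ b c e.1) (Zq L) (fun _ => 1) *
        (4 * ((a : ℝ) / L) ^ (1 / (1 + 4 * b)))) := by
  have hJ' : ∀ e : {e : Bnd // e ∈ SB' L}, 0 ≤ JQ b c e.1 := fun e => JQ_nonneg hc hcb e.1
  have hL1 : 1 ≤ L := by omega
  have hρ2 : ∀ v : QV L, v ∉ Bq L a → (fun v => ρ (fc v)) v = 0 := fun v hv => hρ _ fun h =>
    hv (Or.inl (mem_Sq_fc.2 ⟨(mem_bxQ.1 h).2.1, (mem_bxQ.1 h).2.2.2⟩))
  have h1 := far (s := qs L) (t := qt L) (conn_q hL1) hJ' hne (AB_q hL) (RS_q0 hL1) (RS_q hL1)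
      nb_q Z1_q RS_disj (cross_q ha hL) hρ2
  have h2 := ratio_pow hc hcb ha (by omega : a ≤ L)
  have h3 := div_q hc hcb L (Zq L) (fun h => (li (fun v => ρ (fc v)) h) ^ 4)
    (fun h => by positivity)
  refine h1.trans (add_le_add le_rfl (Real.sqrt_le_sqrt (mul_le_mul_of_nonneg_left ?_ h3)))
  linarith

/-- the inequality on the graph, second case -/
lemma far_q2 {b c : ℝ} (hc : 0 < c) (hcb : c ≤ b) {a L : ℕ} (hL1 : 1 ≤ L) (hL : L ≤ 2 * a)
    {ρ : Z2 → ℝ} (hne : (Zq L).Nonempty) :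
    T1.H910.ZZ (qs L) (qt L) (fun e => JQ b c e.1) (Zq L)
        (fun h => (li (fun v => ρ (fc v)) h) ^ 2) /
      T1.H910.ZZ (qs L) (qt L) (fun e => JQ b c e.1) (Zq L) (fun _ => 1) ≤
    T1.H910.ZZ (qs L) (qt L) (fun e => JQ b c e.1) (Zq L ∪ Aq L)
        (fun h => (li (fun v => ρ (fc v)) h) ^ 2) /
      T1.H910.ZZ (qs L) (qt L) (fun e => JQ b c e.1) (Zq L ∪ Aq L) (fun _ => 1) +
    √(T1.H910.ZZ (qs L) (qt L) (fun e => JQ b c e.1) (Zq L)
        (fun h => (li (fun v => ρ (fc v)) h) ^ 4) /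
      T1.H910.ZZ (qs L) (qt L) (fun e => JQ b c e.1) (Zq L) (fun _ => 1) *
        (4 * ((a : ℝ) / L) ^ (1 / (1 + 4 * b)))) := by
  have hb : 0 < b := hc.trans_le hcb
  have hJ' : ∀ e : {e : Bnd // e ∈ SB' L}, 0 ≤ JQ b c e.1 := fun e => JQ_nonneg hc hcb e.1
  have hL' : (1 : ℝ) ≤ L := by exact_mod_cast hL1
  have h1 := far_var (s := qs L) (t := qt L) (l := (Subtype.val : Aq L → QV L)) (conn_q hL1)
    hJ' (X := Zq L) (N := ∅) hne
    (ρ := fun v => ρ (fc v)) (fun v hv => absurd hv (Set.notMem_empty v))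
  rw [Subtype.range_coe] at h1
  have h3 := div_q hc hcb L (Zq L) (fun h => (li (fun v => ρ (fc v)) h) ^ 4)
    (fun h => by positivity)
  have h2 : 0 ≤ ZE (qs L) (qt L) (Subtype.val : Aq L → QV L) (fun e => JQ b c e.1) (Zq L) ∅
      (fun _ => 1) / T1.H910.ZZ (qs L) (qt L) (fun e => JQ b c e.1) (Zq L) (fun _ => 1) := by
    refine div_nonneg ?_ (ZZ_nonneg (s := qs L) (t := qt L) hJ' (Zq L) (f := fun _ => 1)
      fun _ => zero_le_one)
    unfold ZE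
    refine tsum_nonneg fun h => ?_
    split_ifs
    · exact mul_nonneg (W_nonneg hJ' _) zero_le_one
    · exact le_rfl
  refine h1.trans (add_le_add le_rfl (Real.sqrt_le_sqrt (mul_le_mul_of_nonneg_left ?_ h3)))
  have h4 : (1 : ℝ) / 2 ≤ (a : ℝ) / L := by
    rw [div_le_div_iff₀ (by norm_num) (by positivity)]
    have h5 : (L : ℝ) ≤ 2 * a := by exact_mod_cast hL
    linarith
  have hδ1 : 1 / (1 + 4 * b) ≤ (1 : ℝ) := by
    rw [div_le_one (by positivity)]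
    linarith
  have h5 : (1 : ℝ) / 2 ≤ ((a : ℝ) / L) ^ (1 / (1 + 4 * b)) := by
    calc (1 : ℝ) / 2 = (1 / 2) ^ (1 : ℝ) := (Real.rpow_one _).symm
      _ ≤ (1 / 2) ^ (1 / (1 + 4 * b)) :=
        Real.rpow_le_rpow_of_exponent_ge (by norm_num) (by norm_num) hδ1
      _ ≤ ((a : ℝ) / L) ^ (1 / (1 + 4 * b)) :=
        Real.rpow_le_rpow (by norm_num) h4 (by positivity)
  linarith

/-- **Far sides of the quarter box.** -/
theorem far_box {b c : ℝ} (hc : 0 < c) (hcb : c ≤ b) : ∃ C κ : ℝ, 0 < C ∧ 0 < κ ∧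
    ∀ (a L : ℕ) (ρ : Z2 → ℝ), 1 ≤ a → 2 * a ≤ L → (∀ f, f ∉ bxQ a → ρ f = 0) →
      FF (JQ b c) (SQ L) (bxQ L) (fun h => ch (bxQ L) ρ h ^ 2) /
          FF (JQ b c) (SQ L) (bxQ L) (fun _ => 1) ≤
        FF (JQ b c) (SQ L) (bxQ (L - 1)) (fun h => ch (bxQ L) ρ h ^ 2) /
            FF (JQ b c) (SQ L) (bxQ (L - 1)) (fun _ => 1) +
          √(FF (JQ b c) (SQ L) (bxQ L) (fun h => ch (bxQ L) ρ h ^ 4) /
            FF (JQ b c) (SQ L) (bxQ L) (fun _ => 1) * (C * ((a : ℝ) / L) ^ κ)) := by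
  have hb : 0 < b := hc.trans_le hcb
  have hJ : ∀ e : Bnd, 0 ≤ JQ b c e := fun e => by
    unfold JQ
    split_ifs <;> linarith
  refine ⟨4, 1 / (1 + 4 * b), by norm_num, by positivity, ?_⟩
  intro a L ρ ha hL hρ
  have hL1 : 1 ≤ L := by omega
  have hρ' : ∀ f, f ∉ bxQ L → ρ f = 0 := fun f hf => hρ f fun h => hf (by
    rw [mem_bxQ] at h ⊢
    omega)
  have hsub : bxQ (L - 1) ⊆ bxQ L := fun f hf => by
    rw [mem_bxQ] at hf ⊢
    omega
  have hZ : Pq L (bxQ L) = Zq L := rfl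
  have hZA : Pq L (bxQ (L - 1)) = Zq L ∪ Aq L := ZA_q.symm
  have hne : (Zq L).Nonempty := ⟨qv L (-1, -1), by
    show fc (qv L (-1, -1)) ∉ bxQ L
    rw [fc_qv (inE_mk le_rfl (by omega) le_rfl (by omega)), mem_bxQ]
    simp only
    omega⟩
  rw [← dict_q hJ hρ' (Finset.Subset.refl _) 2, ← dict_q hJ hρ' hsub 2,
    ← dict_q hJ hρ' (Finset.Subset.refl _) 4, hZ, hZA]
  by_cases hcase : a + 2 ≤ L
  · exact far_q1 hc hcb ha hcase hρ hne
  · exact far_q2 hc hcb hL1 (by omega) hne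

end Vale.Agent.P159.T1.H112
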