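import Vale.Agent.P159.T1.H112.Env
import Vale.Agent.P159.T1.H773.Conn

/-!
The environment lemma for the deletion of vertices (row (4.4) UNWCUT of plan 108).

A finite graph, heights `0` on `Z`, two disjoint sets of vertices `A`, `B`; `S` is a set of
vertices of `A` or `B` whose neighbours are all in `A` or all in `B`.  The probability that no path
of vertices of height `≠ 0` joins `A` to `B` is at least the corresponding probability in the graph
without the vertices of `S`.
-/

open MeasureTheory Filter Topology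

namespace Vale.Agent.P159.T1.H112

open Vale.Agent.P159 Vale.Agent.P159.H353 Vale.Agent.P159.R2.H254 Vale.Agent.P159.R2.H729
  Vale.Agent.P159.T1.H934 Vale.Agent.P159.T1.H773

section del

variable {V E : Type} [Fintype V] [DecidableEq V] [Fintype E] {s t : E → V}

open Classical in
/-- the sum over the heights which vanish on `Z`, with the vertices of `S` deleted (dummy height
`0`), restricted to the event `p` -/
noncomputable def ZD (s t : E → V) (J : E → ℝ) (Z : Set V) (S : Finset V)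
    (p : (V → ℤ) → Prop) : ℝ :=
  ∑' h : V → ℤ, if (∀ v, v ∈ Z ∨ v ∈ S → h v = 0) ∧ p h then
    T1.H773.wt s t (fun e => wI (J e)) S h else 0

/-- every vertex outside `S` is reached from `Z` outside `S` -/
def RS (s t : E → V) (Z : Set V) (S : Finset V) : Prop :=
  ∀ v, v ∉ S → ∃ z ∈ Z, z ∉ S ∧
    Relation.ReflTransGen (fun a b => adjG s t a b ∧ a ∉ S ∧ b ∉ S) z v

/-- the edges which do not touch `S` -/
abbrev E1 (s t : E → V) (S : Finset V) : Type := {e : E // s e ∉ S ∧ t e ∉ S}

/-- the edges which join `v` to another vertex outside `S` -/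
abbrev Ev (s t : E → V) (S : Finset V) (v : V) : Type :=
  {e : E // s e ∉ S ∧ t e ∉ S ∧ ((s e = v ∧ t e ≠ v) ∨ (t e = v ∧ s e ≠ v))}

/-- the other end point -/
def oth (s t : E → V) (S : Finset V) (v : V) (r : Ev s t S v) : V :=
  if s r.1 = v then t r.1 else s r.1

omit [Fintype V] in
lemma prod_sub {p : E → Prop} [DecidablePred p] (f : E → ℝ) :
    ∏ e, (if p e then f e else 1) = ∏ e : {e // p e}, f e.1 := by
  rw [← Finset.prod_filter]
  exact Finset.prod_subtype _ (by simp) f

/-- sources of the remaining edges -/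
def s1 (s t : E → V) (S : Finset V) (e : E1 s t S) : V := s e.1

/-- targets of the remaining edges -/
def t1 (s t : E → V) (S : Finset V) (e : E1 s t S) : V := t e.1

/-- the weight in the smaller graph -/
lemma wt_sub (J : E → ℝ) (S : Finset V) (h : V → ℤ) :
    T1.H773.wt s t (fun e => wI (J e)) S h =
      W (grd (s1 s t S) (t1 s t S)) (fun e : E1 s t S => J e.1) h := by
  classical
  unfold T1.H773.wt W
  have h1 := prod_sub (p := fun e => s e ∉ S ∧ t e ∉ S) (fun e => wI (J e) (h (t e) - h (s e)))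
  have h2 : ∏ e, (if s e ∉ S ∧ t e ∉ S then wI (J e) (h (t e) - h (s e)) else 1) =
      ∏ e, (if s e ∈ S ∨ t e ∈ S then 1 else wI (J e) (h (t e) - h (s e))) := by
    refine Finset.prod_congr rfl fun e _ => ?_
    by_cases a1 : s e ∈ S <;> by_cases a2 : t e ∈ S <;> simp [a1, a2]
  rw [← h2, h1]
  rfl

/-- the zero set of the smaller graph -/
def Z1 (Z : Set V) (S : Finset V) : Set V := {v | v ∈ Z ∨ v ∈ S}

open Classical in
lemma WZ_sub (J : E → ℝ) (Z : Set V) (S : Finset V) (h : V → ℤ) :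
    WZ (s1 s t S) (t1 s t S) (fun e : E1 s t S => J e.1) (Z1 Z S) h =
      if ∀ v, v ∈ Z ∨ v ∈ S → h v = 0 then T1.H773.wt s t (fun e => wI (J e)) S h else 0 := by
  unfold WZ
  rw [← wt_sub]
  by_cases h1 : ∀ v, v ∈ Z ∨ v ∈ S → h v = 0
  · have h2 : ∀ z ∈ Z1 Z S, h z = 0 := fun z hz => h1 z hz
    rw [if_pos h1, if_pos h2]
  · have h2 : ¬ ∀ z ∈ Z1 Z S, h z = 0 := fun h3 => h1 fun z hz => h3 z hz
    rw [if_neg h1, if_neg h2]

open Classical in
lemma ZD_eq (J : E → ℝ) (Z : Set V) (S : Finset V) (p : (V → ℤ) → Prop) :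
    ZD s t J Z S p = ∑' h, if p h then
      WZ (s1 s t S) (t1 s t S) (fun e : E1 s t S => J e.1) (Z1 Z S) h else 0 := by
  unfold ZD
  refine tsum_congr fun h => ?_
  rw [WZ_sub]
  by_cases a1 : ∀ v, v ∈ Z ∨ v ∈ S → h v = 0 <;> by_cases a2 : p h <;> simp [a1, a2]

lemma rchZ_sub {Z : Set V} {S : Finset V} (hS : RS s t Z S) :
    RchZ (s1 s t S) (t1 s t S) (Z1 Z S) := by
  intro v
  by_cases hv : v ∈ S
  · exact ⟨v, Or.inr hv, Relation.ReflTransGen.refl⟩
  · obtain ⟨z, hz, hzS, h1⟩ := hS v hv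
    refine ⟨z, Or.inl hz, Relation.ReflTransGen.mono ?_ _ _ h1⟩
    rintro a b ⟨⟨e, he⟩, ha, hb⟩
    rcases he with ⟨he1, he2⟩ | ⟨he1, he2⟩
    · exact ⟨⟨e, by rw [he1]; exact ha, by rw [he2]; exact hb⟩, Or.inl ⟨he1, he2⟩⟩
    · exact ⟨⟨e, by rw [he1]; exact hb, by rw [he2]; exact ha⟩, Or.inr ⟨he1, he2⟩⟩

/-- the event does not see the deletion -/
lemma KK_sub {S : Finset V} {A B : Set V} {h : V → ℤ} (h0 : ∀ v ∈ S, h v = 0) :
    KK (s1 s t S) (t1 s t S) A B h ↔ KK s t A B h := by
  unfold KK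
  have key : ∀ a b, (adjG (s1 s t S) (t1 s t S) a b ∧ a ∈ {v | h v ≠ 0} ∧ b ∈ {v | h v ≠ 0}) ↔
      (adjG s t a b ∧ a ∈ {v | h v ≠ 0} ∧ b ∈ {v | h v ≠ 0}) := by
    intro a b
    constructor
    · rintro ⟨⟨e, he⟩, h1, h2⟩
      exact ⟨⟨e.1, he⟩, h1, h2⟩
    · rintro ⟨⟨e, he⟩, h1, h2⟩
      have ha : a ∉ S := fun h => h1 (h0 a h)
      have hb : b ∉ S := fun h => h2 (h0 b h)
      refine ⟨?_, h1, h2⟩
      rcases he with ⟨he1, he2⟩ | ⟨he1, he2⟩
      · exact ⟨⟨e, by rw [he1]; exact ha, by rw [he2]; exact hb⟩, Or.inl ⟨he1, he2⟩⟩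
      · exact ⟨⟨e, by rw [he1]; exact hb, by rw [he2]; exact ha⟩, Or.inr ⟨he1, he2⟩⟩
  unfold Cn
  constructor
  · rintro hn ⟨x, hx, y, hy, hxy⟩
    exact hn ⟨x, hx, y, hy, Relation.ReflTransGen.mono (fun a b hab => (key a b).2 hab) _ _ hxy⟩
  · rintro hn ⟨x, hx, y, hy, hxy⟩
    exact hn ⟨x, hx, y, hy, Relation.ReflTransGen.mono (fun a b hab => (key a b).1 hab) _ _ hxy⟩

/-- the event does not depend on the height of a vertex inside `B` -/
lemma KK_update {S : Finset V} {A B : Set V} (hAB : Disjoint A B) {v : V} (hvB : v ∈ B)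
    (hn : ∀ u, adjG s t u v → u ∉ S → u ∈ B) {h : V → ℤ} (h0 : ∀ u ∈ S, h u = 0) :
    KK s t A B (Function.update h v 0) ↔ KK s t A B h := by
  set h' := Function.update h v 0 with hh'
  have hne : ∀ u, u ≠ v → h' u = h u := fun u hu => Function.update_of_ne hu _ _
  have hv0 : h' v = 0 := Function.update_self _ _ _
  constructor
  · intro hK hC
    apply hK
    obtain ⟨x, ⟨hx, hxA⟩, y, ⟨hy, hyB⟩, hxy⟩ := hC
    have hxv : x ≠ v := fun h => Set.disjoint_left.1 hAB hxA (h ▸ hvB)
    have key : ∀ w, Relation.ReflTransGen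
        (fun a b => adjG s t a b ∧ a ∈ {v | h v ≠ 0} ∧ b ∈ {v | h v ≠ 0}) x w →
        Cn (adjG s t) {v | h' v ≠ 0} A B ∨ (w ≠ v ∧ h w ≠ 0 ∧ Relation.ReflTransGen
          (fun a b => adjG s t a b ∧ a ∈ {v | h' v ≠ 0} ∧ b ∈ {v | h' v ≠ 0}) x w) := by
      intro w hw
      induction hw with
      | refl => exact Or.inr ⟨hxv, hx, Relation.ReflTransGen.refl⟩
      | @tail a b _ hab ih =>
        rcases ih with ih | ⟨hav, ha, ih⟩
        · exact Or.inl ih
        · have ha' : h' a ≠ 0 := by rw [hne a hav]; exact ha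
          by_cases hbv : b = v
          · have haB : a ∈ B := hn a (hbv ▸ hab.1) fun h => ha (h0 a h)
            have hx' : h' x ≠ 0 := by rw [hne x hxv]; exact hx
            exact Or.inl ⟨x, ⟨hx', hxA⟩, a, ⟨ha', haB⟩, ih⟩
          · refine Or.inr ⟨hbv, hab.2.2, ih.tail ⟨hab.1, ha', ?_⟩⟩
            show h' b ≠ 0
            rw [hne b hbv]
            exact hab.2.2
    rcases key y hxy with h1 | ⟨hyv, -, h1⟩
    · exact h1
    · have hx' : h' x ≠ 0 := by rw [hne x hxv]; exact hx
      have hy' : h' y ≠ 0 := by rw [hne y hyv]; exact hy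
      exact ⟨x, ⟨hx', hxA⟩, y, ⟨hy', hyB⟩, h1⟩
  · intro hK hC
    refine hK (hC.mono fun u hu => ?_)
    show h u ≠ 0
    have hu' : h' u ≠ 0 := hu
    by_cases huv : u = v
    · rw [huv] at hu'
      exact absurd hv0 hu'
    · rwa [← hne u huv]

/-- the weight of the loops at `v` -/
noncomputable def cl (s t : E → V) (J : E → ℝ) (v : V) : ℝ :=
  ∏ e, if s e = v ∧ t e = v then wI (J e) 0 else 1

lemma cl_pos {J : E → ℝ} (hJ : ∀ e, 0 ≤ J e) (v : V) : 0 < cl s t J v := by
  unfold cl
  refine Finset.prod_pos fun e _ => ?_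
  split_ifs
  · exact wI_zero_pos (hJ e)
  · exact one_pos

/-- the edges at `v` split off -/
lemma wt_insert (J : E → ℝ) {S : Finset V} {v : V} (hv : v ∉ S) (h : V → ℤ) :
    T1.H773.wt s t (fun e => wI (J e)) S h = cl s t J v *
      (T1.H773.wt s t (fun e => wI (J e)) (insert v S) (Function.update h v 0) *
        Psi (vals (oth s t S v)) (fun r => J r.1) (Function.update h v 0) (h v)) := by
  classical
  set h' := Function.update h v 0 with hh'
  have hne : ∀ u, u ≠ v → h' u = h u := fun u hu => Function.update_of_ne hu _ _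
  set pv : E → Prop := fun e => s e ∉ S ∧ t e ∉ S ∧
    ((s e = v ∧ t e ≠ v) ∨ (t e = v ∧ s e ≠ v)) with hpv
  have e1 : Psi (vals (oth s t S v)) (fun r : Ev s t S v => J r.1) h' (h v) =
      ∏ e, (if pv e then wI (J e) (h' (if s e = v then t e else s e) - h v) else 1) := by
    rw [prod_sub]
    rfl
  rw [e1]
  unfold T1.H773.wt cl
  rw [← Finset.prod_mul_distrib, ← Finset.prod_mul_distrib]
  refine Finset.prod_congr rfl fun e _ => ?_
  by_cases a1 : s e ∈ S
  · have b1 : s e ≠ v := fun hh => hv (hh ▸ a1)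
    have b2 : ¬ pv e := fun hh => hh.1 a1
    rw [if_pos (Or.inl a1), if_neg (fun hh => b1 hh.1),
      if_pos (Or.inl (Finset.mem_insert_of_mem a1)), if_neg b2]
    ring
  by_cases a2 : t e ∈ S
  · have b1 : t e ≠ v := fun hh => hv (hh ▸ a2)
    have b2 : ¬ pv e := fun hh => hh.2.1 a2
    rw [if_pos (Or.inr a2), if_neg (fun hh => b1 hh.2),
      if_pos (Or.inr (Finset.mem_insert_of_mem a2)), if_neg b2]
    ring
  have a3 : ¬ (s e ∈ S ∨ t e ∈ S) := fun hh => hh.elim a1 a2
  rw [if_neg a3]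
  by_cases c1 : s e = v
  · have d1 : s e ∈ insert v S ∨ t e ∈ insert v S := Or.inl (by rw [c1]; simp)
    rw [if_pos d1, one_mul]
    by_cases c2 : t e = v
    · have b2 : ¬ pv e := by
        rintro ⟨-, -, ⟨-, h2⟩ | ⟨-, h2⟩⟩
        · exact h2 c2
        · exact h2 c1
      rw [if_pos ⟨c1, c2⟩, if_neg b2, c1, c2, sub_self, mul_one]
    · have b2 : pv e := ⟨a1, a2, Or.inl ⟨c1, c2⟩⟩
      rw [if_neg (fun hh => c2 hh.2), if_pos b2, if_pos c1, hne _ c2, c1, one_mul]
  · by_cases c2 : t e = v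
    · have d1 : s e ∈ insert v S ∨ t e ∈ insert v S := Or.inr (by rw [c2]; simp)
      have b2 : pv e := ⟨a1, a2, Or.inr ⟨c2, c1⟩⟩
      rw [if_pos d1, if_neg (fun hh => c1 hh.1), if_pos b2, if_neg c1, hne _ c1, c2, one_mul,
        one_mul, ← wI_neg]
      congr 1
      ring
    · have d1 : ¬ (s e ∈ insert v S ∨ t e ∈ insert v S) := by
        rintro (hh | hh)
        · rcases Finset.mem_insert.1 hh with h1 | h1
          · exact c1 h1
          · exact a1 h1
        · rcases Finset.mem_insert.1 hh with h1 | h1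
          · exact c2 h1
          · exact a2 h1
      have b2 : ¬ pv e := by
        rintro ⟨-, -, ⟨h2, -⟩ | ⟨h2, -⟩⟩
        · exact c1 h2
        · exact c2 h2
      rw [if_neg d1, if_neg (fun hh => c1 hh.1), if_neg b2, hne _ c1, hne _ c2, one_mul, mul_one]

open Classical in
/-- the sum over the height of the deleted vertex split off -/
lemma ZD_free (J : E → ℝ) {Z : Set V} {S : Finset V} {v : V} (hv : v ∉ S) (hvZ : v ∉ Z)
    {p q : (V → ℤ) → Prop}
    (hpq : ∀ h, (∀ u ∈ S, h u = 0) → (p h ↔ q (Function.update h v 0))) :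
    ZD s t J Z S p = cl s t J v * ∑' x : (V → ℤ) × ℤ, if q x.1 then
      WZ (s1 s t (insert v S)) (t1 s t (insert v S))
        (fun e : E1 s t (insert v S) => J e.1) (Z1 Z (insert v S)) x.1 *
      Psi (vals (oth s t S v)) (fun r => J r.1) x.1 x.2 else 0 := by
  set F : (V → ℤ) × ℤ → ℝ := fun x => if q x.1 then
      WZ (s1 s t (insert v S)) (t1 s t (insert v S))
        (fun e : E1 s t (insert v S) => J e.1) (Z1 Z (insert v S)) x.1 *
      Psi (vals (oth s t S v)) (fun r => J r.1) x.1 x.2 else 0 with hF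
  set ι : (V → ℤ) → (V → ℤ) × ℤ := fun h => (Function.update h v 0, h v) with hι
  have hinj : Function.Injective ι := by
    intro a b hab
    simp only [hι, Prod.mk.injEq] at hab
    funext u
    by_cases hu : u = v
    · rw [hu]; exact hab.2
    · have := congrFun hab.1 u
      rwa [Function.update_of_ne hu, Function.update_of_ne hu] at this
  have hsupp : Function.support F ⊆ Set.range ι := by
    rintro ⟨h, k⟩ hx
    have h1 : F (h, k) ≠ 0 := hx
    have h2 : h v = 0 := by
      by_contra hne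
      apply h1
      have h4 : ¬ ∀ u, u ∈ Z ∨ u ∈ insert v S → h u = 0 := fun h3 =>
        hne (h3 v (Or.inr (Finset.mem_insert_self v S)))
      simp only [hF]
      rw [WZ_sub, if_neg h4, zero_mul, ite_self]
    refine ⟨Function.update h v k, ?_⟩
    simp only [hι, Prod.mk.injEq]
    refine ⟨?_, Function.update_self _ _ _⟩
    rw [Function.update_idem]
    funext u
    by_cases hu : u = v
    · rw [hu, Function.update_self, h2]
    · rw [Function.update_of_ne hu]
  rw [← hinj.tsum_eq hsupp, ← tsum_mul_left]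
  unfold ZD
  refine tsum_congr fun h => ?_
  simp only [hF, hι]
  rw [WZ_sub]
  have hz : (∀ u, u ∈ Z ∨ u ∈ insert v S → Function.update h v 0 u = 0) ↔
      ∀ u, u ∈ Z ∨ u ∈ S → h u = 0 := by
    constructor
    · intro h1 u hu
      have huv : u ≠ v := by
        rintro rfl
        exact hu.elim hvZ hv
      have := h1 u (hu.imp_right fun h => Finset.mem_insert_of_mem h)
      rwa [Function.update_of_ne huv] at this
    · intro h1 u hu
      by_cases huv : u = v
      · rw [huv, Function.update_self]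
      · rw [Function.update_of_ne huv]
        refine h1 u (hu.imp_right fun h => ?_)
        rcases Finset.mem_insert.1 h with h2 | h2
        · exact absurd h2 huv
        · exact h2
  by_cases c1 : ∀ u, u ∈ Z ∨ u ∈ S → h u = 0
  · have c2 := hpq h fun u hu => c1 u (Or.inr hu)
    by_cases c3 : p h
    · rw [if_pos ⟨c1, c3⟩, if_pos (c2.1 c3), if_pos (hz.2 c1), wt_insert J hv]
    · rw [if_neg (fun hh => c3 hh.2), if_neg (fun hh => c3 (c2.2 hh)), mul_zero]
  · rw [if_neg (fun hh => c1 hh.1), if_neg (fun hh => c1 (hz.1 hh)), zero_mul, ite_self,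
      mul_zero]

open Classical in
/-- the deleted vertex has height `0` -/
lemma ZD_zero (J : E → ℝ) {Z : Set V} {S : Finset V} {v : V} (hv : v ∉ S) (hvZ : v ∈ Z)
    (p : (V → ℤ) → Prop) :
    ZD s t J Z S p = cl s t J v * ∑' h : V → ℤ, if p h then
      WZ (s1 s t (insert v S)) (t1 s t (insert v S))
        (fun e : E1 s t (insert v S) => J e.1) (Z1 Z (insert v S)) h *
      Psi (vals (oth s t S v)) (fun r => J r.1) h 0 else 0 := by
  rw [← tsum_mul_left]
  unfold ZD
  refine tsum_congr fun h => ?_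
  rw [WZ_sub]
  have hz : (∀ u, u ∈ Z ∨ u ∈ insert v S → h u = 0) ↔ ∀ u, u ∈ Z ∨ u ∈ S → h u = 0 := by
    constructor
    · intro h1 u hu
      exact h1 u (hu.imp_right fun h => Finset.mem_insert_of_mem h)
    · intro h1 u hu
      rcases hu with hu | hu
      · exact h1 u (Or.inl hu)
      · rcases Finset.mem_insert.1 hu with h2 | h2
        · exact h1 u (Or.inl (h2 ▸ hvZ))
        · exact h1 u (Or.inr h2)
  by_cases c1 : ∀ u, u ∈ Z ∨ u ∈ S → h u = 0
  · by_cases c3 : p h
    · have hv0 : h v = 0 := c1 v (Or.inl hvZ)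
      have hup : Function.update h v 0 = h := by
        funext u
        by_cases hu : u = v
        · rw [hu, Function.update_self, hv0]
        · rw [Function.update_of_ne hu]
      rw [if_pos ⟨c1, c3⟩, if_pos c3, if_pos (hz.2 c1), wt_insert J hv, hup, hv0]
    · rw [if_neg (fun hh => c3 hh.2), if_neg c3, mul_zero]
  · rw [if_neg (fun hh => c1 hh.1), if_neg (fun hh => c1 (hz.1 hh)), zero_mul, ite_self,
      mul_zero]

/-- **One vertex.** -/
theorem del_one {J : E → ℝ} (hJ : ∀ e, 0 ≤ J e) {Z A B : Set V} (hAB : Disjoint A B)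
    {S : Finset V} {v : V} (hv : v ∉ S) (hc : RS s t Z (insert v S)) (hvB : v ∈ B)
    (hn : ∀ u, adjG s t u v → u ∈ B)
    (hr : v ∈ Z ∨ ∃ u, u ∉ insert v S ∧ adjG s t u v) :
    ZD s t J Z S (fun _ => True) * ZD s t J Z (insert v S) (KK s t A B) ≤
      ZD s t J Z S (KK s t A B) * ZD s t J Z (insert v S) (fun _ => True) := by
  classical
  have hc1 := rchZ_sub hc
  have hJ1 : ∀ e : E1 s t (insert v S), 0 ≤ J e.1 := fun e => hJ e.1
  have hy : ∀ r : Ev s t S v, oth s t S v r ∈ B := by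
    rintro ⟨e, h1, h2, h3⟩
    unfold oth
    rcases h3 with ⟨h4, h5⟩ | ⟨h4, h5⟩
    · rw [if_pos h4]
      exact hn _ ⟨e, Or.inr ⟨h4, rfl⟩⟩
    · rw [if_neg h5]
      exact hn _ ⟨e, Or.inl ⟨rfl, h4⟩⟩
  have hb : ∀ r : Ev s t S v, 0 ≤ J r.1 := fun r => hJ r.1
  have hcl := cl_pos (s := s) (t := t) hJ v
  have hK1 : ZD s t J Z (insert v S) (KK s t A B) = ∑' h, if
      KK (s1 s t (insert v S)) (t1 s t (insert v S)) A B h then
      WZ (s1 s t (insert v S)) (t1 s t (insert v S))
        (fun e : E1 s t (insert v S) => J e.1) (Z1 Z (insert v S)) h else 0 := by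
    rw [ZD_eq]
    refine tsum_congr fun h => ?_
    by_cases h1 : ∀ u, u ∈ Z ∨ u ∈ insert v S → h u = 0
    · have h2 := KK_sub (s := s) (t := t) (A := A) (B := B) (S := insert v S) (h := h)
        fun u hu => h1 u (Or.inr hu)
      exact if_congr h2.symm rfl rfl
    · rw [WZ_sub, if_neg h1, ite_self, ite_self]
  have hT1 : ZD s t J Z (insert v S) (fun _ => True) = ∑' h,
      WZ (s1 s t (insert v S)) (t1 s t (insert v S))
        (fun e : E1 s t (insert v S) => J e.1) (Z1 Z (insert v S)) h := by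
    rw [ZD_eq]
    exact tsum_congr fun h => if_pos trivial
  have fin : ∀ a b c d : ℝ, a * b ≤ c * d → cl s t J v * a * b ≤ cl s t J v * c * d := by
    intro a b c d h
    have := mul_le_mul_of_nonneg_left h hcl.le
    linarith
  by_cases hvZ : v ∈ Z
  · rw [ZD_zero J hv hvZ, ZD_zero J hv hvZ, hK1, hT1]
    have h2 := env_step_zero (A := A) hJ1 hc1 (oth s t S v) hy hb
    refine fin _ _ _ _ ?_
    have e1 : ∑' h : V → ℤ, (if KK s t A B h then
        WZ (s1 s t (insert v S)) (t1 s t (insert v S))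
        (fun e : E1 s t (insert v S) => J e.1) (Z1 Z (insert v S)) h *
        Psi (vals (oth s t S v)) (fun r => J r.1) h 0 else 0) =
        ∑' h : V → ℤ, (if KK (s1 s t (insert v S)) (t1 s t (insert v S)) A B h then
        WZ (s1 s t (insert v S)) (t1 s t (insert v S))
        (fun e : E1 s t (insert v S) => J e.1) (Z1 Z (insert v S)) h *
        Psi (vals (oth s t S v)) (fun r => J r.1) h 0 else 0) := by
      refine tsum_congr fun h => ?_
      by_cases h1 : ∀ u, u ∈ Z ∨ u ∈ insert v S → h u = 0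
      · have h2 := KK_sub (s := s) (t := t) (A := A) (B := B) (S := insert v S) (h := h)
          fun u hu => h1 u (Or.inr hu)
        exact if_congr h2.symm rfl rfl
      · rw [WZ_sub, if_neg h1, zero_mul, ite_self, ite_self]
    rw [e1]
    simp only [if_true]
    exact h2
  · have hR : Nonempty (Ev s t S v) := by
      rcases hr with h1 | ⟨u, hu, e, he⟩
      · exact absurd h1 hvZ
      · have huS : u ∉ S := fun h => hu (Finset.mem_insert_of_mem h)
        have huv : u ≠ v := fun h => hu (h ▸ Finset.mem_insert_self _ _)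
        rcases he with ⟨h1, h2⟩ | ⟨h1, h2⟩
        · exact ⟨⟨e, by rw [h1]; exact huS, by rw [h2]; exact hv,
            Or.inr ⟨h2, by rw [h1]; exact huv⟩⟩⟩
        · exact ⟨⟨e, by rw [h1]; exact hv, by rw [h2]; exact huS,
            Or.inl ⟨h1, by rw [h2]; exact huv⟩⟩⟩
    rw [ZD_free J hv hvZ (p := fun _ => True) (q := fun _ => True) (fun _ _ => Iff.rfl),
      ZD_free J hv hvZ (p := KK s t A B)
        (q := KK (s1 s t (insert v S)) (t1 s t (insert v S)) A B) (fun h hh => by
          rw [KK_sub (fun u hu => ?_)]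
          · exact (KK_update hAB hvB (fun u hu _ => hn u hu) hh).symm
          · rcases Finset.mem_insert.1 hu with h2 | h2
            · rw [h2, Function.update_self]
            · by_cases h3 : u = v
              · rw [h3, Function.update_self]
              · rw [Function.update_of_ne h3]
                exact hh u h2), hK1, hT1]
    have h2 := env_step_free (A := A) hJ1 hc1 (oth s t S v) hy hb hR
    refine fin _ _ _ _ ?_
    simp only [if_true]
    exact h2

omit [Fintype V] [DecidableEq V] [Fintype E] in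
lemma Cn_symm' {adj : V → V → Prop} (hs : ∀ a b, adj a b → adj b a) {S X Y : Set V}
    (h : Cn adj S X Y) : Cn adj S Y X := by
  obtain ⟨x, hx, y, hy, hxy⟩ := h
  refine ⟨y, hy, x, hx, ?_⟩
  clear hy
  induction hxy with
  | refl => exact Relation.ReflTransGen.refl
  | tail _ hab ih => exact Relation.ReflTransGen.head ⟨hs _ _ hab.1, hab.2.2, hab.2.1⟩ ih

omit [Fintype V] [DecidableEq V] [Fintype E] in
lemma adjG_symm' {a b : V} (h : adjG s t a b) : adjG s t b a := by
  obtain ⟨e, he⟩ := h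
  exact ⟨e, he.symm⟩

omit [Fintype V] [DecidableEq V] [Fintype E] in
lemma KK_symm {A B : Set V} : KK s t A B = KK s t B A := by
  funext h
  unfold KK
  exact propext (not_congr ⟨fun h => Cn_symm' (fun _ _ => adjG_symm') h,
    fun h => Cn_symm' (fun _ _ => adjG_symm') h⟩)

omit [Fintype V] [DecidableEq V] [Fintype E] in
lemma KK_zero (A B : Set V) : KK s t A B (0 : V → ℤ) := by
  rintro ⟨x, ⟨hx, -⟩, -⟩
  exact hx rfl

lemma ZD_pos {J : E → ℝ} (hJ : ∀ e, 0 ≤ J e) {Z : Set V} {S : Finset V} (hc : RS s t Z S)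
    {p : (V → ℤ) → Prop} (hp : p 0) : 0 < ZD s t J Z S p := by
  classical
  rw [ZD_eq]
  exact WZ_tsum_pos (fun e : E1 s t S => hJ e.1) (rchZ_sub hc) hp

lemma ZD_nonneg {J : E → ℝ} (hJ : ∀ e, 0 ≤ J e) {Z : Set V} {S : Finset V}
    (p : (V → ℤ) → Prop) : 0 ≤ ZD s t J Z S p := by
  classical
  rw [ZD_eq]
  refine tsum_nonneg fun h => ?_
  split_ifs
  · exact WZ_nonneg (fun e : E1 s t S => hJ e.1) _ _
  · exact le_rfl

/-- there is a vertex which can be put back -/
lemma exists_back {Z : Set V} (h0 : RS s t Z ∅) {S : Finset V} (hS : RS s t Z S)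
    (hne : S.Nonempty) : ∃ v ∈ S, RS s t Z (S.erase v) ∧
      (v ∈ Z ∨ ∃ u, u ∉ S ∧ adjG s t u v) := by
  have mono : ∀ v, ∀ a b, Relation.ReflTransGen (fun a b => adjG s t a b ∧ a ∉ S ∧ b ∉ S) a b →
      Relation.ReflTransGen (fun a b => adjG s t a b ∧ a ∉ S.erase v ∧ b ∉ S.erase v) a b :=
    fun v a b h => Relation.ReflTransGen.mono (fun a b hab => ⟨hab.1,
      fun hh => hab.2.1 (Finset.mem_of_mem_erase hh),
      fun hh => hab.2.2 (Finset.mem_of_mem_erase hh)⟩) _ _ h
  by_cases hZ : ∃ v ∈ S, v ∈ Z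
  · obtain ⟨v, hv, hvZ⟩ := hZ
    refine ⟨v, hv, fun w hw => ?_, Or.inl hvZ⟩
    by_cases hwv : w = v
    · exact ⟨v, hvZ, Finset.notMem_erase v S, hwv ▸ Relation.ReflTransGen.refl⟩
    · have hwS : w ∉ S := fun h => hw (Finset.mem_erase.2 ⟨hwv, h⟩)
      obtain ⟨z, hz, hzS, h1⟩ := hS w hwS
      exact ⟨z, hz, fun h => hzS (Finset.mem_of_mem_erase h), mono v _ _ h1⟩
  · push Not at hZ
    obtain ⟨v1, hv1⟩ := hne
    obtain ⟨z, hz, -, h1⟩ := h0 v1 (Finset.notMem_empty v1)
    have hzS : z ∉ S := fun h => hZ z h hz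
    have key : ∀ w, Relation.ReflTransGen
        (fun a b => adjG s t a b ∧ a ∉ (∅ : Finset V) ∧ b ∉ (∅ : Finset V)) z w → w ∈ S →
        ∃ a b, a ∉ S ∧ b ∈ S ∧ adjG s t a b := by
      intro w hw
      induction hw with
      | refl => exact fun h => absurd h hzS
      | @tail a b _ hab ih =>
        intro hb
        by_cases ha : a ∈ S
        · exact ih ha
        · exact ⟨a, b, ha, hb, hab.1⟩
    obtain ⟨a, b, ha, hb, hab⟩ := key v1 h1 hv1
    refine ⟨b, hb, fun w hw => ?_, Or.inr ⟨a, ha, hab⟩⟩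
    by_cases hwv : w = b
    · obtain ⟨z', hz', hz'S, h2⟩ := hS a ha
      refine ⟨z', hz', fun h => hz'S (Finset.mem_of_mem_erase h), ?_⟩
      rw [hwv]
      exact (mono b _ _ h2).tail ⟨hab, fun h => ha (Finset.mem_of_mem_erase h),
        Finset.notMem_erase b S⟩
    · have hwS : w ∉ S := fun h => hw (Finset.mem_erase.2 ⟨hwv, h⟩)
      obtain ⟨z', hz', hz'S, h2⟩ := hS w hwS
      exact ⟨z', hz', fun h => hz'S (Finset.mem_of_mem_erase h), mono b _ _ h2⟩

/-- **UNWCUT.**  The vertices of `S` lie in `A` or in `B`, their neighbours too.  Then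
`P_G (no path of heights ≠ 0 from A to B) ≥ P_(G - S) (no path of heights ≠ 0 from A to B)`. -/
theorem unwcut {J : E → ℝ} (hJ : ∀ e, 0 ≤ J e) {Z A B : Set V} (hAB : Disjoint A B)
    (h0 : RS s t Z ∅) {S : Finset V} (hS : RS s t Z S)
    (hn : ∀ v ∈ S, (v ∈ B ∧ ∀ u, adjG s t u v → u ∈ B) ∨ (v ∈ A ∧ ∀ u, adjG s t u v → u ∈ A)) :
    ZD s t J Z ∅ (fun _ => True) * ZD s t J Z S (KK s t A B) ≤
      ZD s t J Z ∅ (KK s t A B) * ZD s t J Z S (fun _ => True) := by
  induction hk : S.card generalizing S with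
  | zero =>
    rw [Finset.card_eq_zero] at hk
    rw [hk]
    exact (mul_comm _ _).le
  | succ k ih =>
    have hne : S.Nonempty := Finset.card_pos.1 (by omega)
    obtain ⟨v, hv, hR, hr⟩ := exists_back h0 hS hne
    have hins : insert v (S.erase v) = S := Finset.insert_erase hv
    have h1 := ih hR (fun u hu => hn u (Finset.mem_of_mem_erase hu))
      (by rw [Finset.card_erase_of_mem hv]; omega)
    have hr' : v ∈ Z ∨ ∃ u, u ∉ insert v (S.erase v) ∧ adjG s t u v := by rwa [hins]
    have hS' : RS s t Z (insert v (S.erase v)) := by rwa [hins]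
    have h2 : ZD s t J Z (S.erase v) (fun _ => True) * ZD s t J Z S (KK s t A B) ≤
        ZD s t J Z (S.erase v) (KK s t A B) * ZD s t J Z S (fun _ => True) := by
      rcases hn v hv with ⟨hvB, hu⟩ | ⟨hvA, hu⟩
      · have := del_one hJ hAB (Finset.notMem_erase v S) hS' hvB hu hr'
        rwa [hins] at this
      · have := del_one hJ hAB.symm (Finset.notMem_erase v S) hS' hvA hu hr'
        rw [hins] at this
        rwa [KK_symm (A := A) (B := B)]
    have p1 := ZD_pos (p := fun _ => True) hJ hR trivial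
    have p2 := ZD_nonneg hJ (Z := Z) (S := S) (s := s) (t := t) (fun _ => True)
    have p3 := ZD_nonneg hJ (Z := Z) (S := (∅ : Finset V)) (s := s) (t := t) (fun _ => True)
    refine le_of_mul_le_mul_right ?_ p1
    calc ZD s t J Z ∅ (fun _ => True) * ZD s t J Z S (KK s t A B) *
          ZD s t J Z (S.erase v) (fun _ => True)
        = ZD s t J Z ∅ (fun _ => True) * (ZD s t J Z (S.erase v) (fun _ => True) *
          ZD s t J Z S (KK s t A B)) := by ring
      _ ≤ ZD s t J Z ∅ (fun _ => True) * (ZD s t J Z (S.erase v) (KK s t A B) *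
          ZD s t J Z S (fun _ => True)) := mul_le_mul_of_nonneg_left h2 p3
      _ = (ZD s t J Z ∅ (fun _ => True) * ZD s t J Z (S.erase v) (KK s t A B)) *
          ZD s t J Z S (fun _ => True) := by ring
      _ ≤ (ZD s t J Z ∅ (KK s t A B) * ZD s t J Z (S.erase v) (fun _ => True)) *
          ZD s t J Z S (fun _ => True) := mul_le_mul_of_nonneg_right h1 p2
      _ = _ := by ring

end del

end Vale.Agent.P159.T1.H112
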