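import Vale.Agent.P159.T1.H934.Markov
import Vale.Agent.P159.T1.H532.Bes

/-!
The environment lemma: integer heights on a finite graph, heights `0` on a set `Z`, two sets of
vertices `A`, `B`.  The probability that no path of vertices of height `≠ 0` joins `A` to `B` does
not decrease if further vertices are attached to vertices of `B` (or of `A`).
-/

open MeasureTheory Filter Topology

namespace Vale.Agent.P159.T1.H112

open Vale.Agent.P159 Vale.Agent.P159.H353 Vale.Agent.P159.R2.H254 Vale.Agent.P159.R2.H729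
  Vale.Agent.P159.T1.H934

/-! ### large couplings -/

lemma wI_sub_le {b : ℝ} (hb : 0 < b) (n : ℕ) :
    wI b 0 - wI b n ≤ (n * (n + 1) / b) * wI b 0 := by
  induction n with
  | zero => simp
  | succ k ih =>
    have h1 := T1.H532.wI_rec hb.le ((k : ℤ) + 1)
    have e1 : ((k : ℤ) + 1 - 1) = (k : ℤ) := by ring
    have e2 : ((k : ℤ) + 1 + 1) = (k : ℤ) + 2 := by ring
    rw [e1, e2] at h1
    have h2 : wI b ((k : ℤ) + 2) ≤ wI b ((k : ℤ) + 1) := wI_anti hb.le (by
      rw [abs_of_nonneg (by omega), abs_of_nonneg (by omega)]; omega)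
    have h3 : wI b ((k : ℤ) + 1) ≤ wI b 0 := wI_anti hb.le (by simp)
    have h4 : wI b (k : ℤ) - wI b ((k : ℤ) + 1) ≤ (2 * (k + 1) / b) * wI b 0 := by
      have h5 : wI b (k : ℤ) - wI b ((k : ℤ) + 2) = (2 * (k + 1) / b) * wI b ((k : ℤ) + 1) := by
        have hb' := hb.ne'
        push_cast at h1
        field_simp
        field_simp at h1
        linarith
      have h6 : (2 * ((k : ℝ) + 1) / b) * wI b ((k : ℤ) + 1) ≤ (2 * (k + 1) / b) * wI b 0 :=
        mul_le_mul_of_nonneg_left h3 (by positivity)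
      linarith
    have h7 : wI b 0 - wI b ((k + 1 : ℕ) : ℤ) =
        (wI b 0 - wI b (k : ℤ)) + (wI b (k : ℤ) - wI b ((k : ℤ) + 1)) := by
      push_cast; ring
    rw [h7]
    refine (add_le_add ih h4).trans (le_of_eq ?_)
    push_cast
    ring

lemma ratio_tendsto (n : ℤ) :
    Tendsto (fun a : ℕ => wI (a : ℝ) n / wI (a : ℝ) 0) atTop (𝓝 1) := by
  have h0 : Tendsto (fun a : ℕ => 1 - ((n.natAbs : ℝ) * (n.natAbs + 1)) / (a : ℝ)) atTop
      (𝓝 1) := by
    have := tendsto_const_div_atTop_nhds_zero_nat ((n.natAbs : ℝ) * (n.natAbs + 1))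
    simpa using this.const_sub 1
  refine tendsto_of_tendsto_of_tendsto_of_le_of_le' h0 tendsto_const_nhds ?_ ?_
  · filter_upwards [eventually_gt_atTop 0] with a ha
    have ha' : (0 : ℝ) < a := by exact_mod_cast ha
    have hp := wI_zero_pos ha'.le
    have h1 := wI_sub_le ha' n.natAbs
    have h2 : wI (a : ℝ) (n.natAbs : ℤ) = wI (a : ℝ) n := by
      rcases Int.natAbs_eq n with h | h
      · rw [← h]
      · conv_rhs => rw [h]
        rw [wI_neg]
    rw [h2] at h1
    rw [le_div_iff₀ hp]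
    linarith
  · filter_upwards [eventually_gt_atTop 0] with a ha
    have ha' : (0 : ℝ) < a := by exact_mod_cast ha
    have hp := wI_zero_pos ha'.le
    rw [div_le_one hp]
    exact wI_anti ha'.le (by simp)

/-! ### pinning a set of values increases the expectation of an environment -/

section mono0

variable {H : Type} [AddCommGroup H] {E R : Type} [Fintype E] [Fintype R]

/-- the same with the additional face at height `0` -/
theorem mono_Psi0 {D : H →+ (E → ℤ)} (hD : Function.Injective D) {J K : E → ℝ}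
    (hJ : ∀ e, 0 ≤ J e) (hK : ∀ e, 0 ≤ K e) (ρ : H →+ (R → ℤ)) {b : R → ℝ} (hb : ∀ y, 0 ≤ b y) :
    (∑' h, W D (J + K) h * Psi ρ b h 0) * (∑' h, W D J h) ≤
      (∑' h, W D J h * Psi ρ b h 0) * ∑' h, W D (J + K) h := by
  have hJK : ∀ e, 0 ≤ (J + K) e := fun e => add_nonneg (hJ e) (hK e)
  have : Countable H := hD.countable
  have hA := (W_summable (D := D) hD hJK).abs
  have hB := (W_summable (D := D) hD hJ).abs
  have e : ∀ {A : H → ℝ} (_ : Summable fun h => |A h|), ∑' h, A h * Psi ρ b h 0 =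
      ∫ x : R → T, gG b x * FM 0 x * (∑' h, A h * (uu ρ h x).re) ∂muR R := by
    intro A hA
    rw [← fejer_integral ρ hb hA 0]
    refine tsum_congr fun h => ?_
    simp
  rw [e hA, e hB, ← integral_mul_const, ← integral_mul_const]
  have hcA : ∀ {A : H → ℝ} (_ : Summable fun h => |A h|),
      Continuous fun x : R → T => ∑' h, A h * (uu ρ h x).re := by
    intro A hA
    refine continuous_tsum (fun h => continuous_const.mul
      (Complex.continuous_re.comp (uu_cont ρ h))) hA fun h x => ?_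
    rw [Real.norm_eq_abs, abs_mul]
    refine mul_le_of_le_one_right (abs_nonneg _) ?_
    have := Complex.abs_re_le_norm (uu ρ h x)
    rwa [uu_norm] at this
  have hI : ∀ {A : H → ℝ} (_ : Summable fun h => |A h|) (c : ℝ), Integrable
      (fun x : R → T => gG b x * FM 0 x * (∑' h, A h * (uu ρ h x).re) * c) (muR R) := fun hA c =>
    ((((gG_cont b).mul (FM_cont 0)).mul (hcA hA)).mul
      continuous_const).integrable_of_hasCompactSupport (HasCompactSupport.of_compactSpace _)
  refine integral_mono (hI hA _) (hI hB _) fun x => ?_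
  obtain ⟨l, hl⟩ := uu_cos ρ x
  have h0 : 0 ≤ gG b x * FM 0 x := mul_nonneg (gG_nonneg b x) (Complex.normSq_nonneg _)
  have h1 := mul_le_mul_of_nonneg_left (mono_cos hD hJ hK l) h0
  simp only [hl]
  rw [mul_assoc, mul_assoc (gG b x * FM 0 x)]
  exact h1

end mono0

section pin

variable {H : Type} [AddCommGroup H] {E R X : Type} [Fintype E] [Fintype R] [Fintype X]

/-- the pair of two families of values -/
def pairH (D : H →+ (E → ℤ)) (τ : H →+ (X → ℤ)) : H →+ (E ⊕ X → ℤ) where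
  toFun h := Sum.elim (D h) (τ h)
  map_zero' := by
    funext x
    rcases x with x | x <;> simp
  map_add' a b := by
    funext x
    rcases x with x | x <;> simp

lemma W_pairH (D : H →+ (E → ℤ)) (τ : H →+ (X → ℤ)) (J : E → ℝ) (a : X → ℝ) (h : H) :
    W (pairH D τ) (Sum.elim J a) h = W D J h * ∏ x, wI (a x) (τ h x) := by
  unfold W
  rw [Fintype.prod_sum_type]
  rfl

lemma prod_zero_ind (τ : H →+ (X → ℤ)) (h : H) [Decidable (τ h = 0)] :
    ∏ x, wI 0 (τ h x) = if τ h = 0 then 1 else 0 := by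
  split_ifs with hc
  · rw [hc]
    exact Finset.prod_eq_one fun x _ => by rw [Pi.zero_apply, wI_zero_left, if_pos rfl]
  · obtain ⟨x, hx⟩ : ∃ x, τ h x ≠ 0 := by
      by_contra hn
      push Not at hn
      exact hc (funext hn)
    refine Finset.prod_eq_zero (Finset.mem_univ x) ?_
    rw [wI_zero_left, if_neg hx]

open Classical in
/-- the general form: `g` is an environment whose expectation decreases with the couplings -/
theorem pin_mono_of {D : H →+ (E → ℤ)} (hD : Function.Injective D) {J : E → ℝ}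
    (hJ : ∀ e, 0 ≤ J e) (τ : H →+ (X → ℤ)) {Q : Type} {G : H → Q → ℝ}
    (hG0 : ∀ h q, 0 ≤ G h q)
    (hs : Summable fun x : H × Q => W D J x.1 * G x.1 x.2)
    (hm : ∀ a : ℝ, 0 ≤ a →
      (∑' x : H × Q, W (pairH D τ) (Sum.elim J 0 + Sum.elim (0 : E → ℝ) (fun _ => a)) x.1 * G x.1 x.2) *
        (∑' h, W (pairH D τ) (Sum.elim J 0) h) ≤
      (∑' x : H × Q, W (pairH D τ) (Sum.elim J 0) x.1 * G x.1 x.2) *
        ∑' h, W (pairH D τ) (Sum.elim J 0 + Sum.elim (0 : E → ℝ) (fun _ => a)) h) :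
    (∑' x : H × Q, W D J x.1 * G x.1 x.2) * (∑' h, if τ h = 0 then W D J h else 0) ≤
      (∑' x : H × Q, if τ x.1 = 0 then W D J x.1 * G x.1 x.2 else 0) * ∑' h, W D J h := by
  have hW := W_summable (D := D) hD hJ
  have e0 : ∀ h, W (pairH D τ) (Sum.elim J 0) h = if τ h = 0 then W D J h else 0 := by
    intro h
    have h1 := W_pairH D τ J 0 h
    have h2 : ∏ x, wI ((0 : X → ℝ) x) (τ h x) = if τ h = 0 then 1 else 0 :=
      prod_zero_ind τ h
    rw [h1, h2]
    split_ifs <;> simp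
  have ea : ∀ (a : ℝ) h, W (pairH D τ) (Sum.elim J 0 + Sum.elim (0 : E → ℝ) (fun _ => a)) h =
      W D J h * ∏ x, wI a (τ h x) := by
    intro a h
    have h1 : (Sum.elim J 0 + Sum.elim (0 : E → ℝ) (fun _ => a) : E ⊕ X → ℝ) = Sum.elim J fun _ => a := by
      funext x
      rcases x with x | x <;> simp
    rw [h1, W_pairH]
  simp only [e0, ea] at hm
  -- the normalised inequality
  set c : ℕ → H → ℝ := fun a h => ∏ x : X, (wI (a : ℝ) (τ h x) / wI (a : ℝ) 0) with hc
  have hc0 : ∀ a h, 0 ≤ c a h := fun a h => Finset.prod_nonneg fun x _ =>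
    div_nonneg (wI_nonneg a.cast_nonneg _) (wI_nonneg a.cast_nonneg _)
  have hc1 : ∀ a h, c a h ≤ 1 := fun a h => Finset.prod_le_one
    (fun x _ => div_nonneg (wI_nonneg a.cast_nonneg _) (wI_nonneg a.cast_nonneg _))
    (fun x _ => (div_le_one (wI_zero_pos a.cast_nonneg)).2 (wI_anti a.cast_nonneg (by simp)))
  have hct : ∀ h, Tendsto (fun a => c a h) atTop (𝓝 1) := by
    intro h
    have := tendsto_finsetProd (Finset.univ : Finset X)
      (f := fun x (a : ℕ) => wI (a : ℝ) (τ h x) / wI (a : ℝ) 0) (a := fun _ => (1 : ℝ))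
      (x := atTop) (fun x _ => ratio_tendsto (τ h x))
    simpa [hc] using this
  have hcp : ∀ (a : ℕ) h, ∏ x, wI (a : ℝ) (τ h x) = c a h * wI (a : ℝ) 0 ^ Fintype.card X := by
    intro a h
    simp only [hc]
    rw [Finset.prod_div_distrib, Finset.prod_const, Finset.card_univ, div_mul_cancel₀]
    exact (pow_pos (wI_zero_pos a.cast_nonneg) _).ne'
  have l1 : Tendsto (fun a : ℕ => ∑' x : H × Q, W D J x.1 * c a x.1 * G x.1 x.2) atTop
      (𝓝 (∑' x : H × Q, W D J x.1 * G x.1 x.2)) := by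
    refine tendsto_tsum_of_dominated_convergence hs (fun x => ?_)
      (Eventually.of_forall fun a x => ?_)
    · have := ((hct x.1).const_mul (W D J x.1)).mul_const (G x.1 x.2)
      rwa [mul_one] at this
    · rw [Real.norm_eq_abs, abs_of_nonneg (mul_nonneg (mul_nonneg (W_nonneg hJ _) (hc0 a _))
        (hG0 _ _))]
      refine mul_le_mul_of_nonneg_right ?_ (hG0 _ _)
      exact mul_le_of_le_one_right (W_nonneg hJ _) (hc1 a _)
  have l2 : Tendsto (fun a : ℕ => ∑' h, W D J h * c a h) atTop (𝓝 (∑' h, W D J h)) := by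
    refine tendsto_tsum_of_dominated_convergence hW (fun x => ?_)
      (Eventually.of_forall fun a x => ?_)
    · have := (hct x).const_mul (W D J x)
      rwa [mul_one] at this
    · rw [Real.norm_eq_abs, abs_of_nonneg (mul_nonneg (W_nonneg hJ _) (hc0 a _))]
      exact mul_le_of_le_one_right (W_nonneg hJ _) (hc1 a _)
  have hfin : ∀ a : ℕ, (∑' x : H × Q, W D J x.1 * c a x.1 * G x.1 x.2) *
      (∑' h, if τ h = 0 then W D J h else 0) ≤
      (∑' x : H × Q, (if τ x.1 = 0 then W D J x.1 else 0) * G x.1 x.2) *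
        ∑' h, W D J h * c a h := by
    intro a
    have h1 := hm (a : ℝ) a.cast_nonneg
    have p0 : 0 < wI (a : ℝ) 0 ^ Fintype.card X := pow_pos (wI_zero_pos a.cast_nonneg) _
    have e1 : ∑' x : H × Q, W D J x.1 * (∏ y, wI (a : ℝ) (τ x.1 y)) * G x.1 x.2 =
        (∑' x : H × Q, W D J x.1 * c a x.1 * G x.1 x.2) * wI (a : ℝ) 0 ^ Fintype.card X := by
      rw [← tsum_mul_right]
      refine tsum_congr fun x => ?_
      rw [hcp]
      ring
    have e2 : ∑' h, W D J h * (∏ y, wI (a : ℝ) (τ h y)) =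
        (∑' h, W D J h * c a h) * wI (a : ℝ) 0 ^ Fintype.card X := by
      rw [← tsum_mul_right]
      refine tsum_congr fun x => ?_
      rw [hcp]
      ring
    rw [e1, e2] at h1
    have h2 : ((∑' x : H × Q, W D J x.1 * c a x.1 * G x.1 x.2) *
        (∑' h, if τ h = 0 then W D J h else 0)) * wI (a : ℝ) 0 ^ Fintype.card X ≤
        ((∑' x : H × Q, (if τ x.1 = 0 then W D J x.1 else 0) * G x.1 x.2) *
        ∑' h, W D J h * c a h) * wI (a : ℝ) 0 ^ Fintype.card X := by
      linarith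
    exact le_of_mul_le_mul_right h2 p0
  have hl := le_of_tendsto_of_tendsto' (l1.mul_const (∑' h, if τ h = 0 then W D J h else 0))
    (l2.const_mul (∑' x : H × Q, (if τ x.1 = 0 then W D J x.1 else 0) * G x.1 x.2)) hfin
  refine hl.trans (le_of_eq ?_)
  congr 1
  refine tsum_congr fun x => ?_
  split_ifs <;> simp


open Classical in
/-- pinning the values `τ` to `0`: an attached vertex -/
theorem pin_mono_free {D : H →+ (E → ℤ)} (hD : Function.Injective D) {J : E → ℝ}
    (hJ : ∀ e, 0 ≤ J e) (τ : H →+ (X → ℤ)) (ρ : H →+ (R → ℤ)) {b : R → ℝ} (hb : ∀ y, 0 ≤ b y)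
    (hR : Nonempty R) :
    (∑' x : H × ℤ, W D J x.1 * Psi ρ b x.1 x.2) * (∑' h, if τ h = 0 then W D J h else 0) ≤
      (∑' x : H × ℤ, if τ x.1 = 0 then W D J x.1 * Psi ρ b x.1 x.2 else 0) * ∑' h, W D J h := by
  refine pin_mono_of hD hJ τ (fun h q => Psi_nonneg hb h q) (summable_Psi hJ _ hb hD hR)
    fun a ha => ?_
  have hD' : Function.Injective (pairH D τ) := by
    intro x y hxy
    apply hD
    funext e
    exact congrFun hxy (Sum.inl e)
  exact mono_Psi (D := pairH D τ) hD' (J := Sum.elim J 0)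
    (K := Sum.elim (0 : E → ℝ) (fun _ => a)) (by rintro (e | e) <;> simp [hJ])
    (by rintro (e | e) <;> simp [ha]) ρ hb hR

open Classical in
/-- pinning the values `τ` to `0`: an attached vertex of height `0` -/
theorem pin_mono_zero {D : H →+ (E → ℤ)} (hD : Function.Injective D) {J : E → ℝ}
    (hJ : ∀ e, 0 ≤ J e) (τ : H →+ (X → ℤ)) (ρ : H →+ (R → ℤ)) {b : R → ℝ} (hb : ∀ y, 0 ≤ b y) :
    (∑' x : H × Unit, W D J x.1 * Psi ρ b x.1 0) * (∑' h, if τ h = 0 then W D J h else 0) ≤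
      (∑' x : H × Unit, if τ x.1 = 0 then W D J x.1 * Psi ρ b x.1 0 else 0) *
        ∑' h, W D J h := by
  have hW := W_summable (D := D) hD hJ
  have hPsi1 : ∀ h, Psi ρ b h 0 ≤ ∏ y, wI (b y) 0 := fun h =>
    Finset.prod_le_prod (fun y _ => wI_nonneg (hb y) _) fun y _ => wI_anti (hb y) (by simp)
  have hs : Summable fun x : H × Unit => W D J x.1 * Psi ρ b x.1 0 := by
    have h1 : Summable fun h : H => W D J h * Psi ρ b h 0 :=
      Summable.of_nonneg_of_le (fun h => mul_nonneg (W_nonneg hJ _) (Psi_nonneg hb _ _))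
        (fun h => mul_le_mul_of_nonneg_left (hPsi1 h) (W_nonneg hJ _)) (hW.mul_right _)
    exact (Equiv.prodPUnit H).summable_iff.2 h1
  refine pin_mono_of (G := fun h (_ : Unit) => Psi ρ b h 0) hD hJ τ
    (fun h q => Psi_nonneg hb h 0) hs fun a ha => ?_
  have hD' : Function.Injective (pairH D τ) := by
    intro x y hxy
    apply hD
    funext e
    exact congrFun hxy (Sum.inl e)
  have h2 := mono_Psi0 (D := pairH D τ) hD' (J := Sum.elim J 0)
    (K := Sum.elim (0 : E → ℝ) (fun _ => a)) (by rintro (e | e) <;> simp [hJ])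
    (by rintro (e | e) <;> simp [ha]) ρ hb
  have e1 : ∀ f : H → ℝ, ∑' x : H × Unit, f x.1 = ∑' h, f h := fun f =>
    (Equiv.prodPUnit H).tsum_eq f
  rw [e1 fun h => W (pairH D τ) (Sum.elim J 0 + Sum.elim (0 : E → ℝ) (fun _ => a)) h *
    Psi ρ b h 0, e1 fun h => W (pairH D τ) (Sum.elim J 0) h * Psi ρ b h 0]
  exact h2

end pin

/-! ### the exploration -/

section step

variable {V E : Type} {s t : E → V} {Q : Type}

/-- every vertex is reached from `Z` -/
def RchZ (s t : E → V) (Z : Set V) : Prop := ∀ v, ∃ z ∈ Z, Relation.ReflTransGen (adjG s t) z v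

/-- no path of vertices of height `≠ 0` joins `A` to `B` -/
def KK (s t : E → V) (A B : Set V) (h : V → ℤ) : Prop := ¬ Cn (adjG s t) {v | h v ≠ 0} A B

lemma grdL_inj' {A : Type} {l : A → V} (hc : RchZ s t (Set.range l)) :
    Function.Injective (grdL s t l) := by
  rw [injective_iff_map_eq_zero]
  intro h h0
  have h1 : ∀ e, h (t e) - h (s e) = 0 := fun e => congrFun h0 (Sum.inl e)
  have h2 : ∀ y, h (l y) = 0 := fun y => congrFun h0 (Sum.inr y)
  funext v
  obtain ⟨z, ⟨y, rfl⟩, hz⟩ := hc v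
  show h v = 0
  induction hz with
  | refl => exact h2 y
  | @tail a b _ hab ih =>
    obtain ⟨e, ⟨he1, he2⟩ | ⟨he1, he2⟩⟩ := hab
    · have := h1 e
      rw [he1, he2, ih] at this
      omega
    · have := h1 e
      rw [he1, he2, ih] at this
      omega

variable [Fintype E]

open Classical in
/-- the weight of the heights which vanish on `Z` -/
noncomputable def WZ (s t : E → V) (J : E → ℝ) (Z : Set V) (h : V → ℤ) : ℝ :=
  if ∀ z ∈ Z, h z = 0 then W (grd s t) J h else 0

lemma WZ_nonneg {J : E → ℝ} (hJ : ∀ e, 0 ≤ J e) (Z : Set V) (h : V → ℤ) : 0 ≤ WZ s t J Z h := by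
  unfold WZ
  split_ifs
  · exact W_nonneg hJ _
  · exact le_rfl

variable [Fintype V]

open Classical in
lemma W_grdL_Z (J : E → ℝ) (Z : Set V) (h : V → ℤ) :
    W (grdL s t (Subtype.val : Z → V)) (Sum.elim J 0) h = WZ s t J Z h := by
  rw [W_grdL]
  unfold Psi WZ vals
  simp only [AddMonoidHom.coe_mk, ZeroHom.coe_mk, sub_zero, Pi.zero_apply]
  split_ifs with h1
  · rw [Finset.prod_eq_one, mul_one]
    intro y _
    rw [h1 y.1 y.2, wI_zero_left, if_pos rfl]
  · obtain ⟨z, hz, hz0⟩ : ∃ z ∈ Z, h z ≠ 0 := by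
      by_contra hn
      push Not at hn
      exact h1 hn
    rw [Finset.prod_eq_zero (Finset.mem_univ (⟨z, hz⟩ : Z)), mul_zero]
    rw [wI_zero_left, if_neg hz0]

lemma summable_WZ {J : E → ℝ} (hJ : ∀ e, 0 ≤ J e) {Z : Set V} (hc : RchZ s t Z) :
    Summable (WZ s t J Z) := by
  classical
  have h1 : RchZ s t (Set.range (Subtype.val : Z → V)) := by rwa [Subtype.range_coe]
  have h2 := W_summable (D := grdL s t (Subtype.val : Z → V)) (grdL_inj' h1)
    (J := Sum.elim J 0) (by rintro (e | y) <;> simp [hJ])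
  exact h2.congr fun h => W_grdL_Z J Z h

lemma WZ_tsum_pos {J : E → ℝ} (hJ : ∀ e, 0 ≤ J e) {Z : Set V} (hc : RchZ s t Z)
    {p : (V → ℤ) → Prop} (hp : p 0) [DecidablePred p] :
    0 < ∑' h, if p h then WZ s t J Z h else 0 := by
  have h0 : ∀ h, 0 ≤ if p h then WZ s t J Z h else 0 := fun h => by
    split_ifs
    · exact WZ_nonneg hJ Z h
    · exact le_rfl
  have hs : Summable fun h => if p h then WZ s t J Z h else 0 :=
    Summable.of_nonneg_of_le h0 (fun h => by
      split_ifs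
      · exact le_rfl
      · exact WZ_nonneg hJ Z h) (summable_WZ hJ hc)
  refine hs.tsum_pos h0 0 ?_
  rw [if_pos hp]
  unfold WZ
  rw [if_pos fun z _ => Pi.zero_apply z]
  exact W0_pos hJ

open Classical in
/-- **Exploration step.** -/
theorem env_step_of {J : E → ℝ} (hJ : ∀ e, 0 ≤ J e) {Z A B : Set V} (hc : RchZ s t Z)
    {G : (V → ℤ) → Q → ℝ} (hG0 : ∀ h q, 0 ≤ G h q)
    (hGd : ∀ S : Finset V, (∀ v ∈ B, v ∉ S) →
      ∀ h h' q, (∀ v, v ∉ S → h v = h' v) → G h q = G h' q)
    (hGs : Summable fun x : (V → ℤ) × Q => WZ s t J Z x.1 * G x.1 x.2)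
    (hpm : ∀ X : Set V, (∑' x : (V → ℤ) × Q, WZ s t J Z x.1 * G x.1 x.2) *
        (∑' h, if ∀ v ∈ X, h v = 0 then WZ s t J Z h else 0) ≤
      (∑' x : (V → ℤ) × Q, if ∀ v ∈ X, x.1 v = 0 then WZ s t J Z x.1 * G x.1 x.2 else 0) *
        ∑' h, WZ s t J Z h) :
    (∑' x : (V → ℤ) × Q, WZ s t J Z x.1 * G x.1 x.2) *
        (∑' h, if KK s t A B h then WZ s t J Z h else 0) ≤
      (∑' x : (V → ℤ) × Q, if KK s t A B x.1 then WZ s t J Z x.1 * G x.1 x.2 else 0) *
        ∑' h, WZ s t J Z h := by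
  set l : ↥(A ∪ Z) → V := Subtype.val with hl
  have hW0 : ∀ h, 0 ≤ WZ s t J Z h := WZ_nonneg hJ Z
  have hWs := summable_WZ hJ hc
  -- one explored set
  have one : ∀ S : Finset V, (∀ v ∈ B ∪ Z, v ∉ S) → ∃ n1 n2 : ℝ,
      HasSum (fun h : V → ℤ => if Ex s t l h = S then W (grd s t) J h else 0) n1 ∧
      HasSum (fun x : (V → ℤ) × Q => if Ex s t l x.1 = S then
        W (grd s t) J x.1 * G x.1 x.2 else 0) n2 ∧
      (∑' x : (V → ℤ) × Q, WZ s t J Z x.1 * G x.1 x.2) * n1 ≤
        n2 * ∑' h, WZ s t J Z h := by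
    intro S hS
    by_cases hL : LC s t l S
    · have hZT : ∀ z ∈ Z, TT s t l S z := fun z hz => by
        by_cases h : z ∈ S
        · exact Or.inl h
        · exact Or.inr ⟨h, Or.inl ⟨⟨z, Or.inr hz⟩, rfl⟩⟩
      have hcond : ∀ h : V → ℤ, ((∀ v ∈ S, h v = 0) ∧ ∀ v, Bd s t l S v → h v = 0) ↔
          ∀ v ∈ {v | TT s t l S v}, h v = 0 := fun h =>
        ⟨fun h1 v hv => hv.elim (h1.1 v) (h1.2 v),
          fun h1 => ⟨fun v hv => h1 v (Or.inl hv), fun v hv => h1 v (Or.inr hv)⟩⟩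
      have hWW : ∀ h : V → ℤ, (∀ v ∈ {v | TT s t l S v}, h v = 0) →
          W (grd s t) J h = WZ s t J Z h := fun h h1 => by
        unfold WZ
        rw [if_pos fun z hz => h1 z (hZT z hz)]
      have hU : Summable (US s t J S) := by
        refine Summable.of_nonneg_of_le (US_nonneg hJ S) (fun h => ?_) hWs
        unfold US
        split_ifs with h1
        · unfold WZ
          rw [if_pos fun z hz => h1.1 z (hS z (Or.inr hz))]
        · exact hW0 h
      have eV : ∀ {Q' : Type} (G' : (V → ℤ) → Q' → ℝ) (x : (V → ℤ) × Q'),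
          VS s t l J S G' x = if ∀ v ∈ {v | TT s t l S v}, x.1 v = 0 then
            WZ s t J Z x.1 * G' x.1 x.2 else 0 := by
        intro Q' G' x
        unfold VS
        by_cases h1 : ∀ v ∈ {v | TT s t l S v}, x.1 v = 0
        · rw [if_pos ((hcond x.1).2 h1), if_pos h1, hWW _ h1]
        · rw [if_neg fun h2 => h1 ((hcond x.1).1 h2), if_neg h1]
      have hV2 : Summable (VS s t l J S G) := by
        refine Summable.of_nonneg_of_le (VS_nonneg hJ S hG0) (fun x => ?_) hGs
        rw [eV]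
        split_ifs
        · exact le_rfl
        · exact mul_nonneg (hW0 _) (hG0 _ _)
      have hV1 : Summable (VS s t l J S (fun (_ : V → ℤ) (_ : Unit) => (1 : ℝ))) := by
        refine Summable.of_nonneg_of_le (VS_nonneg hJ S fun _ _ => zero_le_one) (fun x => ?_)
          ((Equiv.prodPUnit (V → ℤ)).summable_iff.2 hWs)
        rw [eV]
        split_ifs
        · rw [mul_one]; exact le_rfl
        · exact hW0 _
      have m1 := markov hJ hL (G := fun (_ : V → ℤ) (_ : Unit) => (1 : ℝ))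
        (fun _ _ => zero_le_one) (fun _ _ _ _ => rfl) hU hV1
      have m2 := markov hJ hL (G := G) hG0 (hGd S fun v hv => hS v (Or.inl hv)) hU hV2
      have e1 : ∑' x, VS s t l J S (fun (_ : V → ℤ) (_ : Unit) => (1 : ℝ)) x =
          ∑' h, if ∀ v ∈ {v | TT s t l S v}, h v = 0 then WZ s t J Z h else 0 := by
        rw [← (Equiv.prodPUnit (V → ℤ)).tsum_eq]
        refine tsum_congr fun x => ?_
        rw [eV, mul_one]
        rfl
      have e2 : ∑' x, VS s t l J S G x = ∑' x : (V → ℤ) × Q,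
          if ∀ v ∈ {v | TT s t l S v}, x.1 v = 0 then WZ s t J Z x.1 * G x.1 x.2 else 0 :=
        tsum_congr fun x => eV G x
      refine ⟨(W (grd s t) J 0)⁻¹ * ((∑' h, US s t J S h) *
        ∑' x, VS s t l J S (fun (_ : V → ℤ) (_ : Unit) => (1 : ℝ)) x), _, ?_, m2, ?_⟩
      · have h2 := (Equiv.prodPUnit (V → ℤ)).symm.hasSum_iff.2 m1
        have h4 : (fun h : V → ℤ => if Ex s t l h = S then W (grd s t) J h else 0) =
            (fun x : (V → ℤ) × Unit => if Ex s t l x.1 = S then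
              W (grd s t) J x.1 * 1 else 0) ∘ (Equiv.prodPUnit (V → ℤ)).symm := by
          funext h
          simp only [Function.comp, Equiv.prodPUnit_symm_apply, mul_one]
        rw [h4]
        exact h2
      · rw [e1, e2]
        have hm := hpm {v | TT s t l S v}
        have hu0 : 0 ≤ (W (grd s t) J 0)⁻¹ * ∑' h, US s t J S h :=
          mul_nonneg (inv_nonneg.2 (W_nonneg hJ _)) (tsum_nonneg fun h => US_nonneg hJ S h)
        have h3 := mul_le_mul_of_nonneg_left hm hu0
        linarith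
    · have h0 : ∀ h : V → ℤ, Ex s t l h ≠ S := fun h hE => hL (hE ▸ LC_Ex h)
      refine ⟨0, 0, ?_, ?_, by simp⟩
      · simp only [h0, if_false]
        exact hasSum_zero
      · simp only [h0, if_false]
        exact hasSum_zero
  -- the sum over the explored sets
  set F : Finset (Finset V) := Finset.univ.filter fun S => ∀ v ∈ B ∪ Z, v ∉ S with hF
  have key : ∀ S : Finset V, ∃ m : ℝ × ℝ, S ∈ F →
      HasSum (fun h : V → ℤ => if Ex s t l h = S then W (grd s t) J h else 0) m.1 ∧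
      HasSum (fun x : (V → ℤ) × Q => if Ex s t l x.1 = S then
        W (grd s t) J x.1 * G x.1 x.2 else 0) m.2 ∧
      (∑' x : (V → ℤ) × Q, WZ s t J Z x.1 * G x.1 x.2) * m.1 ≤
        m.2 * ∑' h, WZ s t J Z h := by
    intro S
    by_cases hS : S ∈ F
    · obtain ⟨n1, n2, h⟩ := one S (Finset.mem_filter.1 hS).2
      exact ⟨(n1, n2), fun _ => h⟩
    · exact ⟨0, fun h => absurd h hS⟩
  choose m hm using key
  have hmem : ∀ h : V → ℤ, Ex s t l h ∈ F ↔ (∀ z ∈ Z, h z = 0) ∧ KK s t A B h := by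
    intro h
    rw [hF, Finset.mem_filter]
    simp only [Finset.mem_univ, true_and]
    constructor
    · intro h1
      constructor
      · intro z hz
        by_contra hne
        exact h1 z (Or.inr hz) (mem_Ex.2 (Cn_single.2
          ⟨z, ⟨hne, ⟨⟨z, Or.inr hz⟩, rfl⟩⟩, hne, Relation.ReflTransGen.refl⟩))
      · rintro ⟨x, ⟨hx, hxA⟩, y, ⟨hy, hyB⟩, hxy⟩
        exact h1 y (Or.inl hyB) (mem_Ex.2 (Cn_single.2
          ⟨x, ⟨hx, ⟨⟨x, Or.inl hxA⟩, rfl⟩⟩, hy, hxy⟩))
    · rintro ⟨h1, h2⟩ v hv hvE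
      rw [mem_Ex, Cn_single] at hvE
      obtain ⟨x, ⟨hx, ⟨x', hx'⟩⟩, hv0, hxv⟩ := hvE
      have hxm : x ∈ A ∪ Z := hx' ▸ x'.2
      have hxA : x ∈ A := by
        rcases hxm with h3 | h3
        · exact h3
        · exact absurd (h1 x h3) hx
      rcases hv with hvB | hvZ
      · exact h2 ⟨x, ⟨hx, hxA⟩, v, ⟨hv0, hvB⟩, hxv⟩
      · exact hv0 (h1 v hvZ)
  have sum_ind : ∀ (h : V → ℤ) (c : ℝ),
      ∑ S ∈ F, (if Ex s t l h = S then c else 0) =
        if (∀ z ∈ Z, h z = 0) ∧ KK s t A B h then c else 0 := by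
    intro h c
    rw [Finset.sum_ite_eq]
    exact if_congr (hmem h) rfl rfl
  have h1 := hasSum_sum (s := F) (f := fun S (h : V → ℤ) =>
    if Ex s t l h = S then W (grd s t) J h else 0) (a := fun S => (m S).1) fun S hS => (hm S hS).1
  have h2 := hasSum_sum (s := F) (f := fun S (x : (V → ℤ) × Q) =>
    if Ex s t l x.1 = S then W (grd s t) J x.1 * G x.1 x.2 else 0)
    (a := fun S => (m S).2) fun S hS => (hm S hS).2.1
  simp only [sum_ind] at h1 h2
  have e1 : ∑' h, (if KK s t A B h then WZ s t J Z h else 0) = ∑ S ∈ F, (m S).1 := by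
    rw [← h1.tsum_eq]
    refine tsum_congr fun h => ?_
    unfold WZ
    by_cases a1 : ∀ z ∈ Z, h z = 0 <;> by_cases a2 : KK s t A B h <;> simp [a1, a2]
  have e2 : ∑' x : (V → ℤ) × Q, (if KK s t A B x.1 then WZ s t J Z x.1 * G x.1 x.2 else 0) =
      ∑ S ∈ F, (m S).2 := by
    rw [← h2.tsum_eq]
    refine tsum_congr fun x => ?_
    unfold WZ
    by_cases a1 : ∀ z ∈ Z, x.1 z = 0 <;> by_cases a2 : KK s t A B x.1 <;> simp [a1, a2]
  rw [e1, e2, Finset.mul_sum, Finset.sum_mul]
  exact Finset.sum_le_sum fun S hS => (hm S hS).2.2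

variable {R : Type} [Fintype R]

lemma vals_eq_zero (X : Set V) (h : V → ℤ) :
    vals (Subtype.val : X → V) h = 0 ↔ ∀ v ∈ X, h v = 0 := by
  constructor
  · intro h1 v hv
    exact congrFun h1 ⟨v, hv⟩
  · intro h1
    funext v
    exact h1 v.1 v.2

lemma Psi_off {y : R → V} {b : R → ℝ} {B : Set V} (hy : ∀ r, y r ∈ B) (S : Finset V)
    (hS : ∀ v ∈ B, v ∉ S) (h h' : V → ℤ) (q : ℤ) (hh : ∀ v, v ∉ S → h v = h' v) :
    Psi (vals y) b h q = Psi (vals y) b h' q := by
  unfold Psi vals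
  refine Finset.prod_congr rfl fun r _ => ?_
  simp only [AddMonoidHom.coe_mk, ZeroHom.coe_mk]
  rw [hh (y r) (hS _ (hy r))]

open Classical in
/-- **Environment lemma**, one vertex with free height attached to vertices of `B`. -/
theorem env_step_free {J : E → ℝ} (hJ : ∀ e, 0 ≤ J e) {Z A B : Set V} (hc : RchZ s t Z)
    (y : R → V) (hy : ∀ r, y r ∈ B) {b : R → ℝ} (hb : ∀ r, 0 ≤ b r) (hR : Nonempty R) :
    (∑' x : (V → ℤ) × ℤ, WZ s t J Z x.1 * Psi (vals y) b x.1 x.2) *
        (∑' h, if KK s t A B h then WZ s t J Z h else 0) ≤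
      (∑' x : (V → ℤ) × ℤ, if KK s t A B x.1 then
        WZ s t J Z x.1 * Psi (vals y) b x.1 x.2 else 0) * ∑' h, WZ s t J Z h := by
  have h1 : RchZ s t (Set.range (Subtype.val : Z → V)) := by rwa [Subtype.range_coe]
  have hD := grdL_inj' h1
  have hJ' : ∀ e, 0 ≤ (Sum.elim J 0 : E ⊕ Z → ℝ) e := by rintro (e | e) <;> simp [hJ]
  refine env_step_of hJ hc (fun h q => Psi_nonneg hb h q)
    (fun S hS h h' q hh => Psi_off hy S hS h h' q hh) ?_ fun X => ?_
  · exact (summable_Psi hJ' (vals y) hb hD hR).congr fun x => by rw [W_grdL_Z]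
  · have h2 := pin_mono_free hD hJ' (vals (Subtype.val : X → V)) (vals y) hb hR
    simp only [W_grdL_Z, vals_eq_zero] at h2
    exact h2

open Classical in
/-- **Environment lemma**, one vertex of height `0` attached to vertices of `B`. -/
theorem env_step_zero {J : E → ℝ} (hJ : ∀ e, 0 ≤ J e) {Z A B : Set V} (hc : RchZ s t Z)
    (y : R → V) (hy : ∀ r, y r ∈ B) {b : R → ℝ} (hb : ∀ r, 0 ≤ b r) :
    (∑' h : V → ℤ, WZ s t J Z h * Psi (vals y) b h 0) *
        (∑' h, if KK s t A B h then WZ s t J Z h else 0) ≤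
      (∑' h : V → ℤ, if KK s t A B h then WZ s t J Z h * Psi (vals y) b h 0 else 0) *
        ∑' h, WZ s t J Z h := by
  have h1 : RchZ s t (Set.range (Subtype.val : Z → V)) := by rwa [Subtype.range_coe]
  have hD := grdL_inj' h1
  have hJ' : ∀ e, 0 ≤ (Sum.elim J 0 : E ⊕ Z → ℝ) e := by rintro (e | e) <;> simp [hJ]
  have hPsi1 : ∀ h, Psi (vals y) b h 0 ≤ ∏ r, wI (b r) 0 := fun h =>
    Finset.prod_le_prod (fun r _ => wI_nonneg (hb r) _) fun r _ => wI_anti (hb r) (by simp)
  have hs : Summable fun x : (V → ℤ) × Unit => WZ s t J Z x.1 * Psi (vals y) b x.1 0 := by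
    have h1 : Summable fun h : V → ℤ => WZ s t J Z h * Psi (vals y) b h 0 :=
      Summable.of_nonneg_of_le (fun h => mul_nonneg (WZ_nonneg hJ Z _) (Psi_nonneg hb _ _))
        (fun h => mul_le_mul_of_nonneg_left (hPsi1 h) (WZ_nonneg hJ Z _))
        ((summable_WZ hJ hc).mul_right _)
    exact (Equiv.prodPUnit _).summable_iff.2 h1
  have h3 := env_step_of (Q := Unit) (G := fun h _ => Psi (vals y) b h 0) (A := A) (B := B)
    hJ hc (fun h q => Psi_nonneg hb h 0)
    (fun S hS h h' q hh => Psi_off hy S hS h h' 0 hh) hs fun X => by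
      have h2 := pin_mono_zero hD hJ' (vals (Subtype.val : X → V)) (vals y) hb
      simp only [W_grdL_Z, vals_eq_zero] at h2
      exact h2
  have e1 : ∀ f : (V → ℤ) → ℝ, ∑' x : (V → ℤ) × Unit, f x.1 = ∑' h, f h := fun f =>
    (Equiv.prodPUnit _).tsum_eq f
  rw [e1 fun h => WZ s t J Z h * Psi (vals y) b h 0,
    e1 fun h => if KK s t A B h then WZ s t J Z h * Psi (vals y) b h 0 else 0] at h3
  exact h3

end step

end Vale.Agent.P159.T1.H112
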