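import Vale.Agent.P159.T1.H112.QFar
import Vale.Agent.P159.T1.H910.Far

/-!
The far sides of the quarter box (P159, plan 115, row D.far), in the form used for D.V.
-/

namespace Vale.Agent.P159.T1.H112

open Vale.Agent.P159.T1.H910

theorem farBox {b c : ℝ} (hc : 0 < c) (hcb : c ≤ b) : FarBox b c := by
  obtain ⟨C, κ, h1, h2, h3⟩ := far_box hc hcb
  exact ⟨C, κ, h1, h2, fun a L ρ ha => h3 a L ρ (by omega)⟩

theorem farBox_half {b : ℝ} (hb : 0 < b) : FarBox b (b / 2) :=
  farBox (half_pos hb) (half_le_self hb.le)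

end Vale.Agent.P159.T1.H112
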