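import Vale.Agent.P159.T1.H112.Env
import Vale.Agent.P159.R2.H729.Unit
import Vale.Agent.P159.R2.H729.Dbl

/-!
The isolated ring: heights on a finite graph, `0` on the feet `L` and `R`.  If every path from `A`
to `B` meets every path from `L` to `R`, the sum over the heights for which a path of vertices of
height `≠ 0` joins `A` to `B` is at most `2 Z(0|2)` up to the error of the steps of size `≥ 2`.
-/

open MeasureTheory Filter Topology

namespace Vale.Agent.P159.T1.H112

open Vale.Agent.P159 Vale.Agent.P159.H353 Vale.Agent.P159.R2.H254 Vale.Agent.P159.R2.H729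
  Vale.Agent.P159.T1.H934

section two

variable {V E : Type} {s t : E → V}

/-- the heights which vanish on `Z` as a subgroup -/
def HZ (V : Type) (Z : Set V) : AddSubgroup (V → ℤ) where
  carrier := {h | ∀ z ∈ Z, h z = 0}
  zero_mem' := fun _ _ => rfl
  add_mem' := fun {a b} ha hb z hz => by
    show a z + b z = 0
    rw [ha z hz, hb z hz, add_zero]
  neg_mem' := fun {a} ha z hz => by
    show -a z = 0
    rw [ha z hz, neg_zero]

open Classical in
lemma tsum_HZ (Z : Set V) (f : (V → ℤ) → ℝ) :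
    ∑' h : HZ V Z, f h.1 = ∑' h : V → ℤ, if ∀ z ∈ Z, h z = 0 then f h else 0 := by
  have h1 := tsum_subtype ((HZ V Z : AddSubgroup (V → ℤ)) : Set (V → ℤ)) f
  refine h1.trans (tsum_congr fun h => ?_)
  rw [Set.indicator_apply]
  exact if_congr Iff.rfl rfl rfl

variable [Fintype E]

open Classical in
/-- **large steps of the heights are rare** -/
theorem two_le_Z {Z : Set V} (hc : RchZ s t Z) {J : E → ℝ} (hJ : ∀ e, 0 ≤ J e) :
    ∑' h : V → ℤ, (if ∃ e, 2 ≤ |h (t e) - h (s e)| then WZ s t J Z h else 0) ≤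
      (∑ e, J e ^ 2 / 4) * ∑' h : V → ℤ, WZ s t J Z h := by
  set Γ : AddSubgroup (E → ℤ) := (HZ V Z).map (grd s t) with hΓ
  have hinj : ∀ h : V → ℤ, (∀ z ∈ Z, h z = 0) → grd s t h = 0 → h = 0 := by
    intro h h1 h2
    have h3 : RchZ s t (Set.range (Subtype.val : Z → V)) := by rwa [Subtype.range_coe]
    apply grdL_inj' h3
    rw [map_zero]
    funext x
    rcases x with e | z
    · exact congrFun h2 e
    · exact h1 z.1 z.2
  set φ : HZ V Z → Γ := fun h => ⟨grd s t h.1, ⟨h.1, h.2, rfl⟩⟩ with hφ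
  have hb : Function.Bijective φ := by
    constructor
    · intro a b hab
      have h1 : grd s t a.1 = grd s t b.1 := congrArg Subtype.val hab
      have h2 := hinj (a.1 - b.1) (fun z hz => by
        show a.1 z - b.1 z = 0
        rw [a.2 z hz, b.2 z hz, sub_zero]) (by rw [map_sub, h1, sub_self])
      exact Subtype.ext (sub_eq_zero.1 h2)
    · rintro ⟨_, h, hh, rfl⟩
      exact ⟨⟨h, hh⟩, rfl⟩
  have h1 := two_le_sub Γ hJ
  rw [← (Equiv.ofBijective φ hb).tsum_eq, ← (Equiv.ofBijective φ hb).tsum_eq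
    (fun γ : Γ => T1.H532.Gw J γ)] at h1
  have e1 : ∑' h : HZ V Z, T1.H532.Gw J (Equiv.ofBijective φ hb h).1 =
      ∑' h : V → ℤ, WZ s t J Z h := tsum_HZ Z (fun h => W (grd s t) J h)
  have e2 : ∑' h : HZ V Z, (if ∃ e, 2 ≤ |(Equiv.ofBijective φ hb h).1 e| then
      T1.H532.Gw J (Equiv.ofBijective φ hb h).1 else 0) =
      ∑' h : V → ℤ, (if ∃ e, 2 ≤ |h (t e) - h (s e)| then WZ s t J Z h else 0) := by
    have h2 := tsum_HZ Z (fun h => if ∃ e, 2 ≤ |h (t e) - h (s e)| then
      W (grd s t) J h else 0)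
    refine h2.trans (tsum_congr fun h => ?_)
    unfold WZ
    split_ifs <;> rfl
  rw [e1, e2] at h1
  exact h1

end two

/-! ### the reflection at level one -/

section refl

variable {V E : Type} {s t : E → V} {L R D A B : Set V}

/-- unit steps -/
def UnitS (s t : E → V) (h : V → ℤ) : Prop := ∀ e, |h (t e) - h (s e)| ≤ 1

/-- the cluster of `{h ≤ 0}` of `L` -/
def CL (s t : E → V) (L : Set V) (h : V → ℤ) (v : V) : Prop :=
  Cn (adjG s t) {u | h u ≤ 0} L {v}

open Classical in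
/-- reflection at level one outside the cluster -/
noncomputable def rfl1 (s t : E → V) (L D : Set V) (h : V → ℤ) (v : V) : ℤ :=
  if v ∈ D ∨ CL s t L h v then h v else 2 - h v

lemma rfl1_pos {h : V → ℤ} {v : V} (hv : v ∈ D ∨ CL s t L h v) : rfl1 s t L D h v = h v :=
  if_pos hv

lemma rfl1_neg {h : V → ℤ} {v : V} (hv : ¬ (v ∈ D ∨ CL s t L h v)) :
    rfl1 s t L D h v = 2 - h v := if_neg hv

lemma UnitS.adj {h : V → ℤ} (hu : UnitS s t h) {a b : V} (hab : adjG s t a b) :
    |h b - h a| ≤ 1 := by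
  obtain ⟨e, ⟨rfl, rfl⟩ | ⟨rfl, rfl⟩⟩ := hab
  · exact hu e
  · rw [abs_sub_comm]
    exact hu e

lemma UnitS.neg {h : V → ℤ} (hu : UnitS s t h) : UnitS s t (-h) := by
  intro e
  have := hu e
  rw [Pi.neg_apply, Pi.neg_apply, ← neg_sub', abs_neg]
  exact this

lemma CL_le {h : V → ℤ} {v : V} (hv : CL s t L h v) : h v ≤ 0 := by
  obtain ⟨x, hx, y, ⟨hy, rfl⟩, -⟩ := hv
  exact hy

lemma CL_start {h : V → ℤ} {v : V} (hv : v ∈ L) (h0 : h v ≤ 0) : CL s t L h v :=
  ⟨v, ⟨h0, hv⟩, v, ⟨h0, rfl⟩, Relation.ReflTransGen.refl⟩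

lemma CL_step {h : V → ℤ} {u v : V} (hu : CL s t L h u) (huv : adjG s t u v) (hv : h v ≤ 0) :
    CL s t L h v := by
  have hu0 := CL_le hu
  obtain ⟨x, hx, y, ⟨hy, rfl⟩, h1⟩ := hu
  exact ⟨x, hx, v, ⟨hv, rfl⟩, h1.tail ⟨huv, hu0, hv⟩⟩

lemma CL_bd {h : V → ℤ} (hU : UnitS s t h) {u v : V} (hu : CL s t L h u)
    (hv : ¬ CL s t L h v) (huv : adjG s t u v) : h u = 0 ∧ h v = 1 := by
  have h1 := CL_le hu
  have h2 : ¬ h v ≤ 0 := fun h2 => hv (CL_step hu huv h2)
  have h3 := abs_le.1 (hU.adj huv)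
  constructor <;> omega

lemma CL_rfl1 (hD : ∀ a b, adjG s t a b → b ∉ D) {h : V → ℤ} (hU : UnitS s t h)
    (hL : ∀ v ∈ L, h v = 0) (v : V) : CL s t L (rfl1 s t L D h) v ↔ CL s t L h v := by
  classical
  constructor
  · rintro ⟨x, ⟨hx, hxL⟩, y, ⟨hy, rfl⟩, hxy⟩
    have key : ∀ w, Relation.ReflTransGen (fun a b => adjG s t a b ∧
        a ∈ {u | rfl1 s t L D h u ≤ 0} ∧ b ∈ {u | rfl1 s t L D h u ≤ 0}) x w →
        CL s t L h w := by
      intro w hw
      induction hw with
      | refl => exact CL_start hxL (hL x hxL).le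
      | @tail a b _ hab ih =>
        by_contra hb
        obtain ⟨-, h2⟩ := CL_bd hU ih hb hab.1
        have h3 : rfl1 s t L D h b ≤ 0 := hab.2.2
        unfold rfl1 at h3
        rw [if_neg (not_or.2 ⟨hD a b hab.1, hb⟩), h2] at h3
        omega
    exact key y hxy
  · rintro ⟨x, ⟨hx, hxL⟩, y, ⟨hy, rfl⟩, hxy⟩
    have hin : ∀ w, CL s t L h w → rfl1 s t L D h w = h w := fun w hw => by
      unfold rfl1
      rw [if_pos (Or.inr hw)]
    have key : ∀ w, Relation.ReflTransGen (fun a b => adjG s t a b ∧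
        a ∈ {u | h u ≤ 0} ∧ b ∈ {u | h u ≤ 0}) x w →
        CL s t L h w ∧ CL s t L (rfl1 s t L D h) w := by
      intro w hw
      induction hw with
      | refl =>
        have h1 := CL_start (s := s) (t := t) hxL hx
        refine ⟨h1, CL_start hxL ?_⟩
        rw [hin x h1]
        exact hx
      | @tail a b _ hab ih =>
        have h1 := CL_step ih.1 hab.1 hab.2.2
        refine ⟨h1, CL_step ih.2 hab.1 ?_⟩
        rw [hin b h1]
        exact hab.2.2
    exact (key y hxy).2

lemma rfl1_rfl1 (hD : ∀ a b, adjG s t a b → b ∉ D) {h : V → ℤ} (hU : UnitS s t h)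
    (hL : ∀ v ∈ L, h v = 0) : rfl1 s t L D (rfl1 s t L D h) = h := by
  classical
  funext v
  by_cases hv : v ∈ D ∨ CL s t L h v
  · have h1 : v ∈ D ∨ CL s t L (rfl1 s t L D h) v := hv.imp_right (CL_rfl1 hD hU hL v).2
    rw [rfl1_pos h1, rfl1_pos hv]
  · have h1 : ¬ (v ∈ D ∨ CL s t L (rfl1 s t L D h) v) := fun h =>
      hv (h.imp_right (CL_rfl1 hD hU hL v).1)
    rw [rfl1_neg h1, rfl1_neg hv]
    ring

lemma W_rfl1 [Fintype E] (J : E → ℝ) (hD : ∀ a b, adjG s t a b → b ∉ D) {h : V → ℤ}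
    (hU : UnitS s t h) : W (grd s t) J (rfl1 s t L D h) = W (grd s t) J h := by
  classical
  unfold W
  refine Finset.prod_congr rfl fun e => ?_
  intro _
  show wI (J e) (rfl1 s t L D h (t e) - rfl1 s t L D h (s e)) = wI (J e) (h (t e) - h (s e))
  have a1 : adjG s t (s e) (t e) := ⟨e, Or.inl ⟨rfl, rfl⟩⟩
  have a2 : adjG s t (t e) (s e) := ⟨e, Or.inr ⟨rfl, rfl⟩⟩
  have d1 : t e ∉ D := hD _ _ a1
  have d2 : s e ∉ D := hD _ _ a2
  by_cases c1 : CL s t L h (s e)
  · by_cases c2 : CL s t L h (t e)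
    · unfold rfl1
      rw [if_pos (Or.inr c1), if_pos (Or.inr c2)]
    · obtain ⟨h1, h2⟩ := CL_bd hU c1 c2 a1
      unfold rfl1
      rw [if_pos (Or.inr c1), if_neg (not_or.2 ⟨d1, c2⟩), h1, h2]
      norm_num
  · by_cases c2 : CL s t L h (t e)
    · obtain ⟨h1, h2⟩ := CL_bd hU c2 c1 a2
      unfold rfl1
      rw [if_pos (Or.inr c2), if_neg (not_or.2 ⟨d2, c1⟩), h1, h2]
      norm_num
    · unfold rfl1
      rw [if_neg (not_or.2 ⟨d1, c2⟩), if_neg (not_or.2 ⟨d2, c1⟩), ← wI_neg]
      congr 1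
      ring

/-- with unit steps a path of heights `≠ 0` has a constant sign -/
lemma sign_path {h : V → ℤ} (hU : UnitS s t h) (hc : Cn (adjG s t) {v | h v ≠ 0} A B) :
    Cn (adjG s t) {v | 1 ≤ h v} A B ∨ Cn (adjG s t) {v | 1 ≤ (-h) v} A B := by
  obtain ⟨x, ⟨hx, hxA⟩, y, ⟨hy, hyB⟩, hxy⟩ := hc
  have hx' : h x ≠ 0 := hx
  rcases lt_or_gt_of_ne hx' with h0 | h0
  · right
    have key : ∀ w, Relation.ReflTransGen (fun a b => adjG s t a b ∧
        a ∈ {u | h u ≠ 0} ∧ b ∈ {u | h u ≠ 0}) x w → h w < 0 ∧ Relation.ReflTransGen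
        (fun a b => adjG s t a b ∧ a ∈ {v | 1 ≤ (-h) v} ∧ b ∈ {v | 1 ≤ (-h) v}) x w := by
      intro w hw
      induction hw with
      | refl => exact ⟨h0, Relation.ReflTransGen.refl⟩
      | @tail a b _ hab ih =>
        have h1 := abs_le.1 (hU.adj hab.1)
        have h2 : h b ≠ 0 := hab.2.2
        have h3 : h b < 0 := by
          have := ih.1
          omega
        have h4 : 1 ≤ (-h) a := by
          have := ih.1
          rw [Pi.neg_apply]
          omega
        have h5 : 1 ≤ (-h) b := by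
          rw [Pi.neg_apply]
          omega
        exact ⟨h3, ih.2.tail ⟨hab.1, h4, h5⟩⟩
    obtain ⟨k1, k2⟩ := key y hxy
    have h6 : 1 ≤ (-h) x := by rw [Pi.neg_apply]; omega
    have h7 : 1 ≤ (-h) y := by rw [Pi.neg_apply]; omega
    exact ⟨x, ⟨h6, hxA⟩, y, ⟨h7, hyB⟩, k2⟩
  · left
    have key : ∀ w, Relation.ReflTransGen (fun a b => adjG s t a b ∧
        a ∈ {u | h u ≠ 0} ∧ b ∈ {u | h u ≠ 0}) x w → 0 < h w ∧ Relation.ReflTransGen
        (fun a b => adjG s t a b ∧ a ∈ {v | 1 ≤ h v} ∧ b ∈ {v | 1 ≤ h v}) x w := by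
      intro w hw
      induction hw with
      | refl => exact ⟨h0, Relation.ReflTransGen.refl⟩
      | @tail a b _ hab ih =>
        have h1 := abs_le.1 (hU.adj hab.1)
        have h2 : h b ≠ 0 := hab.2.2
        have h3 : 0 < h b := by
          have := ih.1
          omega
        have h4 : 1 ≤ h a := by
          have := ih.1
          omega
        have h5 : 1 ≤ h b := by omega
        exact ⟨h3, ih.2.tail ⟨hab.1, h4, h5⟩⟩
    obtain ⟨k1, k2⟩ := key y hxy
    have h6 : 1 ≤ h x := by omega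
    have h7 : 1 ≤ h y := by omega
    exact ⟨x, ⟨h6, hxA⟩, y, ⟨h7, hyB⟩, k2⟩

end refl

section iso

variable {V E : Type} [Fintype E] {s t : E → V} {L R D A B : Set V}

open Classical in
/-- the sum with the boundary values `0` on `L` and `D`, `2` on `R` -/
noncomputable def Z02 (s t : E → V) (J : E → ℝ) (L R D : Set V) : ℝ :=
  ∑' h : V → ℤ, if (∀ v ∈ L ∪ D, h v = 0) ∧ ∀ v ∈ R, h v = 2 then W (grd s t) J h else 0

lemma Z02_term_nonneg {J : E → ℝ} (hJ : ∀ e, 0 ≤ J e) (p : Prop) [Decidable p] (h : V → ℤ) :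
    0 ≤ if p then W (grd s t) J h else 0 := by
  split_ifs
  · exact W_nonneg hJ _
  · exact le_rfl

open Classical in
/-- summability of the sum with the boundary values `0` and `2` -/
lemma summable_02 {J : E → ℝ} (hJ : ∀ e, 0 ≤ J e) (hc : RchZ s t (L ∪ R ∪ D)) :
    Summable fun h : V → ℤ => if (∀ v ∈ L ∪ D, h v = 0) ∧ ∀ v ∈ R, h v = 2 then
      W (grd s t) J h else 0 := by
  -- shift by the function which is `2` on `R` does not help directly; use the values on `Z`
  set Zt := ↥(L ∪ R ∪ D) with hZt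
  have hc' : RchZ s t (Set.range (Subtype.val : Zt → V)) := by rwa [Subtype.range_coe]
  have hinj := grdL_inj' hc'
  by_cases hne : ∃ h0 : V → ℤ, (∀ v ∈ L ∪ D, h0 v = 0) ∧ ∀ v ∈ R, h0 v = 2
  · -- the gradients are different for different heights with the same values on `Z`
    set S : Set (V → ℤ) := {h | (∀ v ∈ L ∪ D, h v = 0) ∧ ∀ v ∈ R, h v = 2} with hS
    have hg : Summable fun h : S => W (grd s t) J h.1 := by
      have h1 := T1.H532.summable_Gw hJ
      have h2 : Function.Injective fun h : S => grd s t h.1 := by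
        intro a b hab
        apply Subtype.ext
        apply hinj
        funext x
        rcases x with e | z
        · exact congrFun hab e
        · show a.1 z.1 = b.1 z.1
          obtain ⟨z, hz⟩ := z
          rcases hz with (hz | hz) | hz
          · rw [a.2.1 z (Or.inl hz), b.2.1 z (Or.inl hz)]
          · rw [a.2.2 z hz, b.2.2 z hz]
          · rw [a.2.1 z (Or.inr hz), b.2.1 z (Or.inr hz)]
      exact h1.comp_injective h2
    have h3 := (summable_subtype_iff_indicator (s := S) (f := fun h => W (grd s t) J h)).1 hg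
    refine h3.congr fun h => ?_
    rw [Set.indicator_apply]
    exact if_congr Iff.rfl rfl rfl
  · refine summable_zero.congr fun h => ?_
    rw [if_neg fun hh => hne ⟨h, hh⟩]

open Classical in
/-- **The isolated ring.** -/
theorem iso_le {J : E → ℝ} (hJ : ∀ e, 0 ≤ J e) (hc : RchZ s t (L ∪ R ∪ D))
    (hD : ∀ a b, adjG s t a b → b ∉ D) (hRD : Disjoint R D)
    (hX : Cross (adjG s t) A B L R) :
    ∑' h : V → ℤ, (if ¬ KK s t A B h then WZ s t J (L ∪ R ∪ D) h else 0) ≤
      2 * Z02 s t J L R D + (∑ e, J e ^ 2 / 4) * ∑' h : V → ℤ, WZ s t J (L ∪ R ∪ D) h := by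
  set Z := L ∪ R ∪ D with hZ
  have hW0 := WZ_nonneg (s := s) (t := t) hJ Z
  have hWs : Summable (WZ s t J Z) := by
    have h1 : RchZ s t (Set.range (Subtype.val : Z → V)) := by rwa [Subtype.range_coe]
    have h2 : Function.Injective fun h : HZ V Z => grd s t h.1 := by
      intro a b hab
      apply Subtype.ext
      apply grdL_inj' h1
      funext x
      rcases x with e | z
      · exact congrFun hab e
      · show a.1 z.1 = b.1 z.1
        rw [a.2 z.1 z.2, b.2 z.1 z.2]
    have h3 := (T1.H532.summable_Gw hJ).comp_injective h2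
    have h4 := (summable_subtype_iff_indicator (s := ((HZ V Z : AddSubgroup (V → ℤ)) :
      Set (V → ℤ))) (f := fun h => W (grd s t) J h)).1 h3
    refine h4.congr fun h => ?_
    rw [Set.indicator_apply]
    exact if_congr Iff.rfl rfl rfl
  -- the three parts
  set f1 : (V → ℤ) → ℝ := fun h =>
    if ∃ e, 2 ≤ |h (t e) - h (s e)| then WZ s t J Z h else 0 with hf1
  set f2 : (V → ℤ) → ℝ := fun h => if UnitS s t h ∧ Cn (adjG s t) {v | 1 ≤ h v} A B then
    WZ s t J Z h else 0 with hf2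
  have hnn : ∀ (p : Prop) [Decidable p] (h : V → ℤ), 0 ≤ if p then WZ s t J Z h else 0 :=
    fun p _ h => by
      split_ifs
      · exact hW0 h
      · exact le_rfl
  have hle1 : ∀ (p : Prop) [Decidable p] (h : V → ℤ), (if p then WZ s t J Z h else 0) ≤
      WZ s t J Z h := fun p _ h => by
    split_ifs
    · exact le_rfl
    · exact hW0 h
  have s1 : Summable f1 := Summable.of_nonneg_of_le (fun h => hnn _ h) (fun h => hle1 _ h) hWs
  have s2 : Summable f2 := Summable.of_nonneg_of_le (fun h => hnn _ h) (fun h => hle1 _ h) hWs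
  have s3 : Summable fun h => f2 (-h) := (Equiv.neg (V → ℤ)).summable_iff.2 s2
  have s0 : Summable fun h : V → ℤ => (if ¬ KK s t A B h then WZ s t J Z h else 0) :=
    Summable.of_nonneg_of_le (fun h => hnn _ h) (fun h => hle1 _ h) hWs
  have hWneg : ∀ h, WZ s t J Z (-h) = WZ s t J Z h := by
    intro h
    have h1 : W (grd s t) J (-h) = W (grd s t) J h := by
      unfold W
      refine Finset.prod_congr rfl fun e _ => ?_
      rw [map_neg, Pi.neg_apply, wI_neg]
    unfold WZ
    rw [h1]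
    refine if_congr ?_ rfl rfl
    simp only [Pi.neg_apply, neg_eq_zero]
  have hpt : ∀ h : V → ℤ, (if ¬ KK s t A B h then WZ s t J Z h else 0) ≤
      f1 h + (f2 h + f2 (-h)) := by
    intro h
    have a1 : 0 ≤ f1 h := hnn _ h
    have a2 : 0 ≤ f2 h := hnn _ h
    have a3 : 0 ≤ f2 (-h) := hnn _ _
    by_cases hK : KK s t A B h
    · rw [if_neg (not_not.2 hK)]
      positivity
    · rw [if_pos hK]
      by_cases hU : UnitS s t h
      · rcases sign_path hU (not_not.1 hK) with h1 | h1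
        · have : f2 h = WZ s t J Z h := if_pos ⟨hU, h1⟩
          linarith
        · have : f2 (-h) = WZ s t J Z (-h) := if_pos ⟨hU.neg, h1⟩
          rw [hWneg] at this
          linarith
      · have : f1 h = WZ s t J Z h := by
          refine if_pos ?_
          unfold UnitS at hU
          push Not at hU
          obtain ⟨e, he⟩ := hU
          exact ⟨e, by omega⟩
        linarith
  have hsum := s0.tsum_le_tsum hpt (s1.add (s2.add s3))
  rw [s1.tsum_add (s2.add s3), s2.tsum_add s3] at hsum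
  have e3 : ∑' h, f2 (-h) = ∑' h, f2 h := (Equiv.neg (V → ℤ)).tsum_eq f2
  have h1 : ∑' h, f1 h ≤ (∑ e, J e ^ 2 / 4) * ∑' h : V → ℤ, WZ s t J Z h := two_le_Z hc hJ
  have h2 : ∑' h, f2 h ≤ Z02 s t J L R D := by
    set S : Set (V → ℤ) := Function.support f2 with hSdef
    have hSp : ∀ h ∈ S, UnitS s t h ∧ Cn (adjG s t) {v | 1 ≤ h v} A B ∧ ∀ z ∈ Z, h z = 0 := by
      intro h hh
      have h3 : f2 h ≠ 0 := hh
      simp only [hf2] at h3
      by_cases h4 : UnitS s t h ∧ Cn (adjG s t) {v | 1 ≤ h v} A B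
      · refine ⟨h4.1, h4.2, ?_⟩
        rw [if_pos h4] at h3
        by_contra h5
        apply h3
        unfold WZ
        rw [if_neg h5]
      · rw [if_neg h4] at h3
        exact absurd rfl h3
    have hnot : ∀ h ∈ S, ∀ v ∈ R, ¬ CL s t L h v := by
      intro h hh v hv hCL
      obtain ⟨-, h3, -⟩ := hSp h hh
      obtain ⟨x, hx, y, ⟨hy, rfl⟩, hxy⟩ := hCL
      obtain ⟨w, hw1, hw2⟩ := hX _ _ h3 (⟨x, hx, y, ⟨hy, hv⟩, hxy⟩ : Cn (adjG s t) _ L R)
      have hw1' : 1 ≤ h w := hw1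
      have hw2' : h w ≤ 0 := hw2
      omega
    have e4 : ∑' h, f2 h = ∑' h : S, f2 h.1 := (tsum_subtype_support f2).symm
    rw [e4]
    unfold Z02
    refine Summable.tsum_le_tsum_of_inj (fun h : S => rfl1 s t L D h.1) ?_
      (fun c _ => Z02_term_nonneg hJ _ c) ?_ (s2.subtype S) (summable_02 hJ hc)
    · intro a b hab
      obtain ⟨ua, -, za⟩ := hSp a.1 a.2
      obtain ⟨ub, -, zb⟩ := hSp b.1 b.2
      apply Subtype.ext
      have h3 := rfl1_rfl1 hD ua (fun v hv => za v (Or.inl (Or.inl hv)))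
      have h4 := rfl1_rfl1 hD ub (fun v hv => zb v (Or.inl (Or.inl hv)))
      rw [← h3, ← h4]
      simp only at hab
      rw [hab]
    · rintro ⟨h, hh⟩
      obtain ⟨u, -, z⟩ := hSp h hh
      have b1 : (∀ v ∈ L ∪ D, rfl1 s t L D h v = 0) ∧ ∀ v ∈ R, rfl1 s t L D h v = 2 := by
        constructor
        · rintro v (hv | hv)
          · have h0 : h v = 0 := z v (Or.inl (Or.inl hv))
            rw [rfl1_pos (Or.inr (CL_start hv h0.le)), h0]
          · rw [rfl1_pos (Or.inl hv), z v (Or.inr hv)]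
        · intro v hv
          have h0 : h v = 0 := z v (Or.inl (Or.inr hv))
          rw [rfl1_neg (not_or.2 ⟨fun hd => Set.disjoint_left.1 hRD hv hd, hnot h hh v hv⟩), h0]
          rfl
      simp only
      rw [if_pos b1, W_rfl1 J hD u]
      refine (hle1 _ h).trans ?_
      unfold WZ
      split_ifs
      · exact le_rfl
  rw [e3] at hsum
  linarith

end iso

end Vale.Agent.P159.T1.H112
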