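import Vale.Agent.P159.T1.H112.Del
import Vale.Agent.P159.T1.H112.Iso
import Vale.Agent.P159.T1.H910.FarVar

/-!
The far sides (P159, plan 115, row D.far): the variance of the heights with the far sides free.
-/

open MeasureTheory Filter Topology

namespace Vale.Agent.P159.T1.H112

open Vale.Agent.P159 Vale.Agent.P159.H353 Vale.Agent.P159.R2.H254 Vale.Agent.P159.R2.H729
  Vale.Agent.P159.T1.H934 Vale.Agent.P159.T1.H910

section pe

variable {V E : Type} [Fintype V] [DecidableEq V] [Fintype E] {s t : E → V}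

/-- the sum with the boundary values `0` on `L`, `2` on `R` without the vertices of `S` -/
noncomputable def N02 (s t : E → V) (J : E → ℝ) (L R : Set V) (S : Finset V) : ℝ :=
  Z02 (s1 s t S) (t1 s t S) (fun e : E1 s t S => J e.1) L R {v | v ∈ S}

lemma summable_ZD {J : E → ℝ} (hJ : ∀ e, 0 ≤ J e) {Z : Set V} {S : Finset V}
    (hS : RS s t Z S) (p : (V → ℤ) → Prop) {_ : DecidablePred p} :
    Summable fun h => if p h then
      WZ (s1 s t S) (t1 s t S) (fun e : E1 s t S => J e.1) (Z1 Z S) h else 0 := by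
  have h1 := summable_WZ (s := s1 s t S) (t := t1 s t S) (fun e : E1 s t S => hJ e.1)
    (rchZ_sub hS)
  have h0 := WZ_nonneg (s := s1 s t S) (t := t1 s t S) (fun e : E1 s t S => hJ e.1) (Z1 Z S)
  refine Summable.of_nonneg_of_le (fun h => ?_) (fun h => ?_) h1
  · split_ifs
    · exact h0 h
    · exact le_rfl
  · split_ifs
    · exact le_rfl
    · exact h0 h

lemma ZD_add {J : E → ℝ} (hJ : ∀ e, 0 ≤ J e) {Z : Set V} {S : Finset V}
    (hS : RS s t Z S) (p : (V → ℤ) → Prop) :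
    ZD s t J Z S p + ZD s t J Z S (fun h => ¬ p h) = ZD s t J Z S (fun _ => True) := by
  classical
  rw [ZD_eq, ZD_eq, ZD_eq]
  refine ((summable_ZD hJ hS _).tsum_add (summable_ZD hJ hS _)).symm.trans ?_
  refine tsum_congr fun h => ?_
  by_cases hp : p h <;> simp [hp]

/-- **The probability that the event fails.** -/
theorem pe_le {J : E → ℝ} (hJ : ∀ e, 0 ≤ J e) {Z A B L R : Set V} {S : Finset V}
    (hAB : Disjoint A B) (h0 : RS s t Z ∅) (hS : RS s t Z S)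
    (hn : ∀ v ∈ S, v ∈ B ∧ ∀ u, adjG s t u v → u ∈ B)
    (hZ : Z1 Z S = L ∪ R ∪ {v | v ∈ S}) (hRS : Disjoint R {v | v ∈ S})
    (hX : Cross (adjG (s1 s t S) (t1 s t S)) A B L R) :
    1 - ZD s t J Z ∅ (KK s t A B) / ZD s t J Z ∅ (fun _ => True) ≤
      2 * (N02 s t J L R S / ZD s t J Z S (fun _ => True)) + ∑ e, J e ^ 2 / 4 := by
  classical
  have p1 := ZD_pos (p := fun _ => True) hJ h0 trivial
  have p2 := ZD_pos (p := fun _ => True) hJ hS trivial
  have h1 := unwcut hJ hAB h0 hS fun v hv => Or.inl (hn v hv)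
  have h2 := iso_le (s := s1 s t S) (t := t1 s t S) (L := L) (R := R) (D := {v | v ∈ S})
    (A := A) (B := B) (J := fun e : E1 s t S => J e.1) (fun e => hJ e.1)
    (by rw [← hZ]; exact rchZ_sub hS)
    (by
      rintro a b ⟨e, ⟨-, he⟩ | ⟨he, -⟩⟩
      · exact he ▸ e.2.2
      · exact he ▸ e.2.1) hRS hX
  have e1 : ∑' h : V → ℤ, (if ¬ KK (s1 s t S) (t1 s t S) A B h then
      WZ (s1 s t S) (t1 s t S) (fun e : E1 s t S => J e.1) (L ∪ R ∪ {v | v ∈ S}) h else 0) =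
      ZD s t J Z S (fun h => ¬ KK s t A B h) := by
    rw [ZD_eq, ← hZ]
    refine tsum_congr fun h => ?_
    by_cases c1 : ∀ u, u ∈ Z ∨ u ∈ S → h u = 0
    · have c2 := KK_sub (s := s) (t := t) (A := A) (B := B) (S := S) (h := h)
        fun u hu => c1 u (Or.inr hu)
      by_cases c3 : KK s t A B h
      · rw [if_neg (not_not.2 (c2.2 c3)), if_neg (not_not.2 c3)]
      · rw [if_pos fun hh => c3 (c2.1 hh), if_pos c3]
    · rw [WZ_sub, if_neg c1, ite_self, ite_self]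
  have e2 : ∑' h : V → ℤ,
      WZ (s1 s t S) (t1 s t S) (fun e : E1 s t S => J e.1) (L ∪ R ∪ {v | v ∈ S}) h =
      ZD s t J Z S (fun _ => True) := by
    rw [ZD_eq, ← hZ]
    exact tsum_congr fun h => (if_pos trivial).symm
  rw [e1, e2] at h2
  have h3 := ZD_add hJ hS (KK s t A B)
  have h4 : ∑ e : E1 s t S, J e.1 ^ 2 / 4 ≤ ∑ e, J e ^ 2 / 4 := by
    have h5 := prod_sub (p := fun e => s e ∉ S ∧ t e ∉ S) (fun e => (1 : ℝ))
    rw [← Finset.sum_subtype (Finset.univ.filter fun e => s e ∉ S ∧ t e ∉ S) (by simp)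
      (fun e => J e ^ 2 / 4)]
    exact Finset.sum_le_univ_sum_of_nonneg fun e => by positivity
  set a := ZD s t J Z ∅ (fun _ => True)
  set b := ZD s t J Z ∅ (KK s t A B)
  set c := ZD s t J Z S (fun _ => True)
  set d := ZD s t J Z S (KK s t A B)
  set d' := ZD s t J Z S (fun h => ¬ KK s t A B h)
  have h5 : d / c ≤ b / a := by
    rw [div_le_div_iff₀ p2 p1]
    linarith
  have h6 : 1 - d / c = d' / c := by
    field_simp
    linarith
  have h7 : d' / c ≤ 2 * (N02 s t J L R S / c) + ∑ e, J e ^ 2 / 4 := by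
    rw [div_le_iff₀ p2]
    have h8 : (2 * (N02 s t J L R S / c) + ∑ e, J e ^ 2 / 4) * c =
        2 * N02 s t J L R S + (∑ e, J e ^ 2 / 4) * c := by field_simp
    rw [h8]
    refine h2.trans ?_
    have := mul_le_mul_of_nonneg_right h4 p2.le
    unfold N02
    linarith
  linarith

/-! ### the notation of `H910` -/

lemma wt_empty (J : E → ℝ) (h : V → ℤ) :
    T1.H773.wt s t (fun e => wI (J e)) ∅ h = W (grd s t) J h := by
  unfold T1.H773.wt W
  refine Finset.prod_congr rfl fun e _ => ?_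
  rw [if_neg (by simp)]
  rfl

lemma ZD_ZZ (J : E → ℝ) (Z : Set V) :
    ZD s t J Z ∅ (fun _ => True) = T1.H910.ZZ s t J Z (fun _ => 1) := by
  classical
  unfold ZD T1.H910.ZZ
  refine tsum_congr fun h => ?_
  rw [wt_empty, mul_one]
  by_cases h1 : ∀ v ∈ Z, h v = 0
  · rw [if_pos h1, if_pos ⟨fun v hv => by simpa using h1 v (by simpa using hv), trivial⟩]
  · rw [if_neg h1, if_neg fun h2 => h1 fun v hv => h2.1 v (Or.inl hv)]

lemma ZD_ZE {A' : Type} {l : A' → V} (J : E → ℝ) (Z : Set V) (B : Set V) :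
    ZD s t J Z ∅ (KK s t (Set.range l) B) = ZE s t l J Z Bᶜ (fun _ => 1) := by
  classical
  unfold ZD ZE
  refine tsum_congr fun h => ?_
  rw [wt_empty, mul_one]
  have key : ((∀ v, v ∈ Z ∨ v ∈ (∅ : Finset V) → h v = 0) ∧ KK s t (Set.range l) B h) ↔
      ((∀ v ∈ Z, h v = 0) ∧ ∀ v ∈ Ex s t l h, v ∈ Bᶜ) := by
    refine and_congr ⟨fun h1 v hv => h1 v (Or.inl hv), fun h1 v hv => h1 v (by simpa using hv)⟩ ?_
    constructor
    · intro hK v hv hvB
      rw [mem_Ex, Cn_single] at hv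
      obtain ⟨x, hx, hv0, hxv⟩ := hv
      exact hK ⟨x, hx, v, ⟨hv0, hvB⟩, hxv⟩
    · rintro hE ⟨x, hx, y, ⟨hy, hyB⟩, hxy⟩
      exact hE y (mem_Ex.2 (Cn_single.2 ⟨x, hx, hy, hxy⟩)) hyB
  by_cases h1 : (∀ v ∈ Z, h v = 0) ∧ ∀ v ∈ Ex s t l h, v ∈ Bᶜ
  · rw [if_pos h1, if_pos (key.2 h1)]
  · rw [if_neg h1, if_neg fun h2 => h1 (key.1 h2)]

/-- the far sides, with the error of the steps of size two -/
theorem far_one (hc : Conn s t) {J : E → ℝ} (hJ : ∀ e, 0 ≤ J e) {Z A B L R : Set V}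
    {S : Finset V} (hne : Z.Nonempty) (hAB : Disjoint A B) (h0 : RS s t Z ∅) (hS : RS s t Z S)
    (hn : ∀ v ∈ S, v ∈ B ∧ ∀ u, adjG s t u v → u ∈ B)
    (hZ : Z1 Z S = L ∪ R ∪ {v | v ∈ S}) (hRS : Disjoint R {v | v ∈ S})
    (hX : Cross (adjG (s1 s t S) (t1 s t S)) A B L R) {ρ : V → ℝ} (hρ : ∀ v, v ∉ B → ρ v = 0) :
    T1.H910.ZZ s t J Z (fun h => (li ρ h) ^ 2) / T1.H910.ZZ s t J Z (fun _ => 1) ≤
      T1.H910.ZZ s t J (Z ∪ A) (fun h => (li ρ h) ^ 2) / T1.H910.ZZ s t J (Z ∪ A) (fun _ => 1) +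
      √(T1.H910.ZZ s t J Z (fun h => (li ρ h) ^ 4) / T1.H910.ZZ s t J Z (fun _ => 1) *
        (2 * (N02 s t J L R S / ZD s t J Z S (fun _ => True)) + ∑ e, J e ^ 2 / 4)) := by
  have h1 := far_var (l := (Subtype.val : A → V)) hc hJ (X := Z) (N := Bᶜ) hne (ρ := ρ)
    (fun v hv => hρ v hv)
  rw [Subtype.range_coe] at h1
  refine h1.trans (add_le_add le_rfl (Real.sqrt_le_sqrt (mul_le_mul_of_nonneg_left ?_ ?_)))
  · have h2 := pe_le (J := J) hJ hAB h0 hS hn hZ hRS hX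
    have h3 := ZD_ZE (s := s) (t := t) (l := (Subtype.val : A → V)) J Z B
    rw [Subtype.range_coe] at h3
    rw [ZD_ZZ, h3] at h2
    exact h2
  · exact div_nonneg (ZZ_nonneg hJ _ fun h => by positivity)
      (ZZ_nonneg hJ _ fun h => zero_le_one)

end pe

end Vale.Agent.P159.T1.H112
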