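import Vale.Agent.P159.T1.H112.Far

/-!
The far sides (P159, plan 115, row D.far): halving the edges, the error of the steps of size two
disappears.
-/

open MeasureTheory Filter Topology

namespace Vale.Agent.P159.T1.H112

open Vale.Agent.P159 Vale.Agent.P159.H353 Vale.Agent.P159.R2.H254 Vale.Agent.P159.R2.H729
  Vale.Agent.P159.T1.H934 Vale.Agent.P159.T1.H910

section dbl

variable {V E : Type} [Fintype V] [DecidableEq V] [Fintype E] [DecidableEq E] {s t : E → V}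

open Classical in
/-- the deleted vertices of the halved graph -/
noncomputable def S2 (s t : E → V) (S : Finset V) : Finset (V ⊕ E) :=
  Finset.univ.filter fun x => Sum.elim (fun v => v ∈ S) (fun e => s e ∈ S ∨ t e ∈ S) x

/-- the inner region of the halved graph -/
def B2 (s t : E → V) (B : Set V) : Set (V ⊕ E) :=
  {x | Sum.elim (fun v => v ∈ B) (fun e => s e ∈ B ∧ t e ∈ B) x}

omit [DecidableEq V] [DecidableEq E] in
open Classical in
lemma mem_S2_inl {S : Finset V} {v : V} : (Sum.inl v : V ⊕ E) ∈ S2 s t S ↔ v ∈ S := by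
  unfold S2
  rw [Finset.mem_filter]
  exact ⟨fun h => h.2, fun h => ⟨Finset.mem_univ _, h⟩⟩

omit [DecidableEq V] [DecidableEq E] in
open Classical in
lemma mem_S2_inr {S : Finset V} {e : E} :
    (Sum.inr e : V ⊕ E) ∈ S2 s t S ↔ s e ∈ S ∨ t e ∈ S := by
  unfold S2
  rw [Finset.mem_filter]
  exact ⟨fun h => h.2, fun h => ⟨Finset.mem_univ _, h⟩⟩

omit [Fintype V] [DecidableEq V] [Fintype E] [DecidableEq E] in
lemma mem_B2_inl {B : Set V} {v : V} : (Sum.inl v : V ⊕ E) ∈ B2 s t B ↔ v ∈ B := Iff.rfl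

omit [Fintype V] [DecidableEq V] [Fintype E] [DecidableEq E] in
lemma mem_B2_inr {B : Set V} {e : E} :
    (Sum.inr e : V ⊕ E) ∈ B2 s t B ↔ s e ∈ B ∧ t e ∈ B := Iff.rfl

lemma wt_dbl (J : E → ℝ) (S : Finset V) (h : V → ℤ) (g : E → ℤ) :
    T1.H773.wt (s2 s) (t2 t) (fun x => wI (J2 J x)) (S2 s t S) (Sum.elim h g) =
      ∏ e, (if s e ∈ S ∨ t e ∈ S then 1 else
        wI (J e / 2) (g e - h (s e)) * wI (J e / 2) (h (t e) - g e)) := by
  unfold T1.H773.wt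
  rw [Fintype.prod_prod_type]
  refine Finset.prod_congr rfl fun e _ => ?_
  rw [Fintype.prod_bool]
  have a1 : s2 s (e, true) = Sum.inr e := rfl
  have a2 : t2 t (e, true) = Sum.inl (t e) := rfl
  have a3 : s2 s (e, false) = Sum.inl (s e) := rfl
  have a4 : t2 t (e, false) = Sum.inr e := rfl
  have m1 := mem_S2_inl (s := s) (t := t) (S := S) (v := s e)
  have m2 := mem_S2_inl (s := s) (t := t) (S := S) (v := t e)
  have m3 := mem_S2_inr (s := s) (t := t) (S := S) (e := e)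
  by_cases c1 : s e ∈ S ∨ t e ∈ S
  · rw [if_pos c1, if_pos (by rw [a1]; exact Or.inl (m3.2 c1)),
      if_pos (by rw [a4]; exact Or.inr (m3.2 c1)), one_mul]
  · rw [if_neg c1, if_neg (by rw [a1, a2]; tauto), if_neg (by rw [a3, a4]; tauto), mul_comm]
    rfl

open Classical in
/-- the sum over the heights of the midpoints -/
lemma hasSum_dblS {J : E → ℝ} (hJ : ∀ e, 0 ≤ J e) (S : Finset V) (h : V → ℤ) :
    HasSum (fun g : E → ℤ => if ∀ e, s e ∈ S ∨ t e ∈ S → g e = 0 then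
      T1.H773.wt (s2 s) (t2 t) (fun x => wI (J2 J x)) (S2 s t S) (Sum.elim h g) else 0)
      (T1.H773.wt s t (fun e => wI (J e)) S h) := by
  have hh : ∀ e, 0 ≤ J e / 2 := fun e => by have := hJ e; linarith
  set φ : E → ℤ → ℝ := fun e n => if s e ∈ S ∨ t e ∈ S then (if n = 0 then 1 else 0) else
    wI (J e / 2) (n - h (s e)) * wI (J e / 2) (h (t e) - n) with hφ
  have h1 : ∀ e, HasSum (φ e)
      (if s e ∈ S ∨ t e ∈ S then 1 else wI (J e) (h (t e) - h (s e))) := by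
    intro e
    by_cases c : s e ∈ S ∨ t e ∈ S
    · simp only [hφ, if_pos c]
      exact hasSum_ite_eq 0 1
    · simp only [hφ, if_neg c]
      have h2 := T1.H532.wI_conv (hh e) (hh e) (h (t e) - h (s e))
      have h3 := (Equiv.subRight (h (s e))).hasSum_iff.2 h2
      rw [add_halves] at h3
      have e0 : ((fun m => wI (J e / 2) m * wI (J e / 2) (h (t e) - h (s e) - m)) ∘
          Equiv.subRight (h (s e))) =
          fun g : ℤ => wI (J e / 2) (g - h (s e)) * wI (J e / 2) (h (t e) - g) := by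
        funext g
        show wI (J e / 2) (g - h (s e)) * wI (J e / 2) (h (t e) - h (s e) - (g - h (s e))) = _
        congr 2
        ring
      rwa [e0] at h3
  have h4 := T1.H532.prod_real (a := φ) (fun e => (h1 e).summable)
  have e1 : (∏ e, ∑' g, φ e g) = T1.H773.wt s t (fun e => wI (J e)) S h := by
    unfold T1.H773.wt
    refine Finset.prod_congr rfl fun e _ => ?_
    rw [(h1 e).tsum_eq]
  rw [e1] at h4
  have e2 : (fun g : E → ℤ => if ∀ e, s e ∈ S ∨ t e ∈ S → g e = 0 then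
      T1.H773.wt (s2 s) (t2 t) (fun x => wI (J2 J x)) (S2 s t S) (Sum.elim h g) else 0) =
      fun g => ∏ e, φ e (g e) := by
    funext g
    by_cases c : ∀ e, s e ∈ S ∨ t e ∈ S → g e = 0
    · rw [if_pos c, wt_dbl]
      refine Finset.prod_congr rfl fun e _ => ?_
      simp only [hφ]
      by_cases c2 : s e ∈ S ∨ t e ∈ S
      · rw [if_pos c2, if_pos c2, if_pos (c e c2)]
      · rw [if_neg c2, if_neg c2]
    · rw [if_neg c]
      push Not at c
      obtain ⟨e, he, hg⟩ := c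
      symm
      refine Finset.prod_eq_zero (Finset.mem_univ e) ?_
      simp only [hφ]
      rw [if_pos he, if_neg hg]
  rw [e2]
  exact h4

open Classical in
/-- **halving the edges does not change coarse sums** -/
theorem tsum_dblS {J : E → ℝ} (hJ : ∀ e, 0 ≤ J e) (S : Finset V) (F : (V → ℤ) → ℝ)
    (hF : ∀ h, 0 ≤ F h) :
    ∑' H : V ⊕ E → ℤ, F (fun v => H (Sum.inl v)) *
        (if ∀ e, s e ∈ S ∨ t e ∈ S → H (Sum.inr e) = 0 then
          T1.H773.wt (s2 s) (t2 t) (fun x => wI (J2 J x)) (S2 s t S) H else 0) =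
      ∑' h, F h * T1.H773.wt s t (fun e => wI (J e)) S h := by
  rw [← (eb V E).symm.tsum_eq]
  have ew : ∀ p : (V → ℤ) × (E → ℤ), F (fun v => (eb V E).symm p (Sum.inl v)) *
        (if ∀ e, s e ∈ S ∨ t e ∈ S → (eb V E).symm p (Sum.inr e) = 0 then
          T1.H773.wt (s2 s) (t2 t) (fun x => wI (J2 J x)) (S2 s t S) ((eb V E).symm p) else 0) =
        F p.1 * (if ∀ e, s e ∈ S ∨ t e ∈ S → p.2 e = 0 then
      T1.H773.wt (s2 s) (t2 t) (fun x => wI (J2 J x)) (S2 s t S) (Sum.elim p.1 p.2) else 0) :=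
    fun p => rfl
  rw [tsum_congr ew]
  set f : (V → ℤ) × (E → ℤ) → ℝ := fun p => F p.1 * (if ∀ e, s e ∈ S ∨ t e ∈ S → p.2 e = 0 then
      T1.H773.wt (s2 s) (t2 t) (fun x => wI (J2 J x)) (S2 s t S) (Sum.elim p.1 p.2) else 0)
    with hf
  have hw : ∀ H : V ⊕ E → ℤ,
      0 ≤ T1.H773.wt (s2 s) (t2 t) (fun x => wI (J2 J x)) (S2 s t S) H := by
    intro H
    unfold T1.H773.wt
    refine Finset.prod_nonneg fun e _ => ?_
    split_ifs
    · exact zero_le_one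
    · exact wI_nonneg (J2_nonneg hJ e) _
  have h0 : ∀ p, 0 ≤ f p := fun p => by
    refine mul_nonneg (hF _) ?_
    split_ifs
    · exact hw _
    · exact le_rfl
  have h1 : ∀ x, HasSum (fun g => f (x, g)) (F x * T1.H773.wt s t (fun e => wI (J e)) S x) :=
    fun x => (hasSum_dblS hJ S x).mul_left (F x)
  have h2 : ∀ x, ∑' g, f (x, g) = F x * T1.H773.wt s t (fun e => wI (J e)) S x :=
    fun x => (h1 x).tsum_eq
  by_cases hs : Summable fun x => F x * T1.H773.wt s t (fun e => wI (J e)) S x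
  · have h3 : Summable f := by
      rw [summable_prod_of_nonneg h0]
      exact ⟨fun x => (h1 x).summable, hs.congr fun x => (h2 x).symm⟩
    rw [h3.tsum_prod]
    exact tsum_congr h2
  · rw [tsum_eq_zero_of_not_summable hs, tsum_eq_zero_of_not_summable]
    intro h3
    exact hs (h3.prod.congr h2)

omit [DecidableEq V] [DecidableEq E] in
lemma cond_S2 {Z : Set V} {S : Finset V} {H : V ⊕ E → ℤ} :
    (∀ x, x ∈ (Sum.inl '' Z : Set (V ⊕ E)) ∨ x ∈ S2 s t S → H x = 0) ↔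
      (∀ v, v ∈ Z ∨ v ∈ S → H (Sum.inl v) = 0) ∧
        ∀ e, s e ∈ S ∨ t e ∈ S → H (Sum.inr e) = 0 := by
  constructor
  · intro h
    refine ⟨fun v hv => h _ ?_, fun e he => h _ (Or.inr (mem_S2_inr.2 he))⟩
    rcases hv with hv | hv
    · exact Or.inl ⟨v, hv, rfl⟩
    · exact Or.inr (mem_S2_inl.2 hv)
  · rintro ⟨h1, h2⟩ x hx
    rcases hx with ⟨v, hv, rfl⟩ | hx
    · exact h1 v (Or.inl hv)
    · rcases x with v | e
      · exact h1 v (Or.inr (mem_S2_inl.1 hx))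
      · exact h2 e (mem_S2_inr.1 hx)

lemma ZD_dbl {J : E → ℝ} (hJ : ∀ e, 0 ≤ J e) (Z : Set V) (S : Finset V) :
    ZD (s2 s) (t2 t) (J2 J) (Sum.inl '' Z) (S2 s t S) (fun _ => True) =
      ZD s t J Z S (fun _ => True) := by
  classical
  have h1 := tsum_dblS (s := s) (t := t) hJ S
    (fun h => if ∀ v, v ∈ Z ∨ v ∈ S → h v = 0 then 1 else 0)
    (fun h => by split_ifs <;> norm_num)
  unfold ZD
  refine Eq.trans (tsum_congr fun H => ?_) (h1.trans (tsum_congr fun h => ?_))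
  · by_cases c1 : ∀ v, v ∈ Z ∨ v ∈ S → H (Sum.inl v) = 0
    · by_cases c2 : ∀ e, s e ∈ S ∨ t e ∈ S → H (Sum.inr e) = 0
      · rw [if_pos ⟨cond_S2.2 ⟨c1, c2⟩, trivial⟩, if_pos c1, if_pos c2, one_mul]
      · rw [if_neg fun h => c2 (cond_S2.1 h.1).2, if_neg c2, mul_zero]
    · rw [if_neg fun h => c1 (cond_S2.1 h.1).1, if_neg c1, zero_mul]
  · by_cases c1 : ∀ v, v ∈ Z ∨ v ∈ S → h v = 0
    · rw [if_pos c1, if_pos ⟨c1, trivial⟩, one_mul]
    · rw [if_neg c1, if_neg fun h => c1 h.1, zero_mul]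

lemma N02_dbl {J : E → ℝ} (hJ : ∀ e, 0 ≤ J e) (L R : Set V) (S : Finset V) :
    N02 (s2 s) (t2 t) (J2 J) (Sum.inl '' L) (Sum.inl '' R) (S2 s t S) = N02 s t J L R S := by
  classical
  have h1 := tsum_dblS (s := s) (t := t) hJ S
    (fun h => if (∀ v ∈ L ∪ {v | v ∈ S}, h v = 0) ∧ ∀ v ∈ R, h v = 2 then 1 else 0)
    (fun h => by split_ifs <;> norm_num)
  unfold N02 Z02
  refine Eq.trans (tsum_congr fun H => ?_) (h1.trans (tsum_congr fun h => ?_))
  · have hw := wt_sub (s := s2 s) (t := t2 t) (J2 J) (S2 s t S) H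
    rw [← hw]
    have hz := cond_S2 (s := s) (t := t) (Z := L) (S := S) (H := H)
    have k1 : (∀ v ∈ (Sum.inl '' L ∪ {v | v ∈ S2 s t S} : Set (V ⊕ E)), H v = 0) ↔
        (∀ v ∈ L ∪ {v | v ∈ S}, H (Sum.inl v) = 0) ∧
          ∀ e, s e ∈ S ∨ t e ∈ S → H (Sum.inr e) = 0 := hz
    have k2 : (∀ v ∈ (Sum.inl '' R : Set (V ⊕ E)), H v = 2) ↔ ∀ v ∈ R, H (Sum.inl v) = 2 := by
      constructor
      · exact fun h v hv => h _ ⟨v, hv, rfl⟩
      · rintro h _ ⟨v, hv, rfl⟩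
        exact h v hv
    rw [k1, k2]
    by_cases c1 : (∀ v ∈ L ∪ {v | v ∈ S}, H (Sum.inl v) = 0) ∧ ∀ v ∈ R, H (Sum.inl v) = 2
    · by_cases c2 : ∀ e, s e ∈ S ∨ t e ∈ S → H (Sum.inr e) = 0
      · rw [if_pos ⟨⟨c1.1, c2⟩, c1.2⟩, if_pos c1, if_pos c2, one_mul]
      · rw [if_neg fun h => c2 h.1.2, if_neg c2, mul_zero]
    · rw [if_neg fun h => c1 ⟨h.1.1, h.2⟩, if_neg c1, zero_mul]
  · rw [wt_sub]
    by_cases c1 : (∀ v ∈ L ∪ {v | v ∈ S}, h v = 0) ∧ ∀ v ∈ R, h v = 2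
    · rw [if_pos c1, if_pos c1, one_mul]
    · rw [if_neg c1, if_neg c1, zero_mul]

lemma ZZ_dbl {J : E → ℝ} (hJ : ∀ e, 0 ≤ J e) (X : Set V) (f : (V → ℤ) → ℝ)
    (hf : ∀ h, 0 ≤ f h) :
    T1.H910.ZZ (s2 s) (t2 t) (J2 J) (Sum.inl '' X) (fun H => f fun v => H (Sum.inl v)) =
      T1.H910.ZZ s t J X f := by
  classical
  have h1 := tsum_dblS (s := s) (t := t) hJ (∅ : Finset V)
    (fun h => if ∀ v ∈ X, h v = 0 then f h else 0)
    (fun h => by split_ifs; exacts [hf h, le_rfl])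
  have hS : S2 s t (∅ : Finset V) = ∅ := by
    rw [Finset.eq_empty_iff_forall_notMem]
    rintro (v | e) hx
    · exact absurd (mem_S2_inl.1 hx) (Finset.notMem_empty _)
    · rcases mem_S2_inr.1 hx with h | h <;> exact absurd h (Finset.notMem_empty _)
  rw [hS] at h1
  unfold T1.H910.ZZ
  refine Eq.trans (tsum_congr fun H => ?_) (h1.trans (tsum_congr fun h => ?_))
  · have k3 : ∀ e, s e ∈ (∅ : Finset V) ∨ t e ∈ (∅ : Finset V) → H (Sum.inr e) = 0 := by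
      intro e he
      rcases he with he | he <;> exact absurd he (Finset.notMem_empty _)
    rw [wt_empty, if_pos k3]
    have k2 : (∀ v ∈ (Sum.inl '' X : Set (V ⊕ E)), H v = 0) ↔ ∀ v ∈ X, H (Sum.inl v) = 0 := by
      constructor
      · exact fun h v hv => h _ ⟨v, hv, rfl⟩
      · rintro h _ ⟨v, hv, rfl⟩
        exact h v hv
    by_cases c1 : ∀ v ∈ X, H (Sum.inl v) = 0
    · rw [if_pos (k2.2 c1), if_pos c1, mul_comm]
    · rw [if_neg fun h => c1 (k2.1 h), if_neg c1, zero_mul]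
  · rw [wt_empty]
    by_cases c1 : ∀ v ∈ X, h v = 0
    · rw [if_pos c1, if_pos c1, mul_comm]
    · rw [if_neg c1, if_neg c1, zero_mul]

omit [DecidableEq V] [DecidableEq E] in
lemma li_dbl (ρ : V → ℝ) (H : V ⊕ E → ℤ) :
    li (Sum.elim ρ fun _ : E => (0 : ℝ)) H = li ρ fun v => H (Sum.inl v) := by
  unfold li
  rw [Fintype.sum_sum_type]
  simp

/-! ### the hypotheses for the halved graph -/

omit [DecidableEq V] [DecidableEq E] in
lemma RS_dbl {Z : Set V} {S : Finset V} (h : RS s t Z S) :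
    RS (s2 s) (t2 t) (Sum.inl '' Z) (S2 s t S) := by
  have key : ∀ v, v ∉ S → ∃ z ∈ (Sum.inl '' Z : Set (V ⊕ E)), z ∉ S2 s t S ∧
      Relation.ReflTransGen (fun a b => adjG (s2 s) (t2 t) a b ∧ a ∉ S2 s t S ∧ b ∉ S2 s t S)
        z (Sum.inl v) := by
    intro v hv
    obtain ⟨z, hz, hzS, hp⟩ := h v hv
    refine ⟨Sum.inl z, ⟨z, hz, rfl⟩, fun hh => hzS (mem_S2_inl.1 hh), ?_⟩
    clear hv
    induction hp with
    | refl => exact .refl
    | @tail a b _ hab ih =>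
      obtain ⟨⟨e, he⟩, ha, hb⟩ := hab
      have ha' : (Sum.inl a : V ⊕ E) ∉ S2 s t S := fun hh => ha (mem_S2_inl.1 hh)
      have hb' : (Sum.inl b : V ⊕ E) ∉ S2 s t S := fun hh => hb (mem_S2_inl.1 hh)
      have he' : (Sum.inr e : V ⊕ E) ∉ S2 s t S := fun hh => by
        rcases he with ⟨rfl, rfl⟩ | ⟨rfl, rfl⟩ <;> rcases mem_S2_inr.1 hh with h | h
        · exact ha h
        · exact hb h
        · exact hb h
        · exact ha h
      rcases he with ⟨rfl, rfl⟩ | ⟨rfl, rfl⟩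
      · exact (ih.tail ⟨adj_s e, ha', he'⟩).tail ⟨adj_t e, he', hb'⟩
      · exact (ih.tail ⟨adjG_symm (adj_t e), ha', he'⟩).tail ⟨adjG_symm (adj_s e), he', hb'⟩
  rintro (v | e) hv
  · exact key v fun hh => hv (mem_S2_inl.2 hh)
  · have h1 : s e ∉ S := fun hh => hv (mem_S2_inr.2 (Or.inl hh))
    obtain ⟨z, hz, hzS, hp⟩ := key (s e) h1
    exact ⟨z, hz, hzS, hp.tail ⟨adj_s e, fun hh => h1 (mem_S2_inl.1 hh), hv⟩⟩

omit [DecidableEq V] [DecidableEq E] in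
lemma RS_dbl_empty {Z : Set V} (h : RS s t Z ∅) : RS (s2 s) (t2 t) (Sum.inl '' Z) ∅ := by
  have hS : S2 s t (∅ : Finset V) = ∅ := by
    rw [Finset.eq_empty_iff_forall_notMem]
    rintro (v | e) hx
    · exact absurd (mem_S2_inl.1 hx) (Finset.notMem_empty _)
    · rcases mem_S2_inr.1 hx with h | h <;> exact absurd h (Finset.notMem_empty _)
  have h1 := RS_dbl h
  rwa [hS] at h1

omit [DecidableEq V] [DecidableEq E] in
lemma nb_dbl {B : Set V} {S : Finset V} (hn : ∀ v ∈ S, v ∈ B ∧ ∀ u, adjG s t u v → u ∈ B) :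
    ∀ v ∈ S2 s t S, v ∈ B2 s t B ∧ ∀ u, adjG (s2 s) (t2 t) u v → u ∈ B2 s t B := by
  have he : ∀ e, s e ∈ S ∨ t e ∈ S → s e ∈ B ∧ t e ∈ B := by
    rintro e (h | h)
    · exact ⟨(hn _ h).1, (hn _ h).2 _ ⟨e, Or.inr ⟨rfl, rfl⟩⟩⟩
    · exact ⟨(hn _ h).2 _ ⟨e, Or.inl ⟨rfl, rfl⟩⟩, (hn _ h).1⟩
  rintro (v | e) hv
  · have hv' := mem_S2_inl.1 hv
    refine ⟨(hn v hv').1, ?_⟩
    rintro (u | f) hu
    · exact absurd hu fun hh => by
        obtain ⟨⟨g, b⟩, h⟩ := hh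
        rcases b <;> rcases h with ⟨h1, h2⟩ | ⟨h1, h2⟩ <;> simp [s2, t2] at h1 h2
    · rcases sub2.out (Sum.inr f) v (by rintro ⟨w, hw⟩; cases hw) (Or.inl hu) with h | h
      · exact he f (Or.inl (by rw [h] at hv'; exact hv'))
      · exact he f (Or.inr (by rw [h] at hv'; exact hv'))
  · have hv' := he e (mem_S2_inr.1 hv)
    refine ⟨hv', ?_⟩
    rintro (u | f) hu
    · rcases sub2.out (Sum.inr e) u (by rintro ⟨w, hw⟩; cases hw) (Or.inr hu) with h | h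
      · exact h ▸ hv'.1
      · exact h ▸ hv'.2
    · exact absurd hu fun hh => by
        obtain ⟨⟨g, b⟩, h⟩ := hh
        rcases b <;> rcases h with ⟨h1, h2⟩ | ⟨h1, h2⟩ <;> simp [s2, t2] at h1 h2

omit [DecidableEq V] [DecidableEq E] in
lemma Z1_dbl' {Z L R : Set V} {S : Finset V} (hZ : Z1 Z S = L ∪ R ∪ {v | v ∈ S}) :
    Z1 (Sum.inl '' Z) (S2 s t S) =
      (Sum.inl '' L ∪ Sum.inl '' R ∪ {v | v ∈ S2 s t S} : Set (V ⊕ E)) := by
  have h1 : ∀ v, (v ∈ Z ∨ v ∈ S) ↔ ((v ∈ L ∨ v ∈ R) ∨ v ∈ S) := fun v => by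
    have := congrArg (fun T : Set V => v ∈ T) hZ
    exact iff_of_eq this
  ext x
  constructor
  · rintro (⟨v, hv, rfl⟩ | hx)
    · rcases (h1 v).1 (Or.inl hv) with (h | h) | h
      · exact Or.inl (Or.inl ⟨v, h, rfl⟩)
      · exact Or.inl (Or.inr ⟨v, h, rfl⟩)
      · exact Or.inr (mem_S2_inl.2 h)
    · exact Or.inr hx
  · rintro ((⟨v, hv, rfl⟩ | ⟨v, hv, rfl⟩) | hx)
    · rcases (h1 v).2 (Or.inl (Or.inl hv)) with h | h
      · exact Or.inl ⟨v, h, rfl⟩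
      · exact Or.inr (mem_S2_inl.2 h)
    · rcases (h1 v).2 (Or.inl (Or.inr hv)) with h | h
      · exact Or.inl ⟨v, h, rfl⟩
      · exact Or.inr (mem_S2_inl.2 h)
    · exact Or.inr hx

omit [DecidableEq V] [DecidableEq E] in
/-- chains of the halved graph give chains of the graph -/
lemma proj_dbl {S : Finset V} {M : Set (V ⊕ E)} {x : V} (hx : Sum.inl x ∈ M) :
    ∀ z, Relation.ReflTransGen (fun p q =>
      adjG (s1 (s2 s) (t2 t) (S2 s t S)) (t1 (s2 s) (t2 t) (S2 s t S)) p q ∧ p ∈ M ∧ q ∈ M)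
        (Sum.inl x) z →
      ∃ v, (z = Sum.inl v ∨ ∃ e, z = Sum.inr e ∧ (v = s e ∨ v = t e)) ∧ Sum.inl v ∈ M ∧
        Relation.ReflTransGen (fun p q => adjG (s1 s t S) (t1 s t S) p q ∧
          p ∈ (Sum.inl ⁻¹' M : Set V) ∧ q ∈ (Sum.inl ⁻¹' M : Set V)) x v := by
  intro z hz
  induction hz with
  | refl => exact ⟨x, Or.inl rfl, hx, .refl⟩
  | @tail p q _ hpq ih =>
    obtain ⟨v, h1, h2, h3⟩ := ih
    obtain ⟨⟨⟨⟨e, b⟩, hns, hnt⟩, he⟩, hp, hq⟩ := hpq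
    have hun : s e ∉ S ∧ t e ∉ S := by
      rcases b with _ | _
      · have h4 : (Sum.inr e : V ⊕ E) ∉ S2 s t S := hnt
        exact ⟨fun h => h4 (mem_S2_inr.2 (Or.inl h)), fun h => h4 (mem_S2_inr.2 (Or.inr h))⟩
      · have h4 : (Sum.inr e : V ⊕ E) ∉ S2 s t S := hns
        exact ⟨fun h => h4 (mem_S2_inr.2 (Or.inl h)), fun h => h4 (mem_S2_inr.2 (Or.inr h))⟩
    -- the two end points
    have hends : (∃ w, (w = s e ∨ w = t e) ∧ p = Sum.inl w ∧ q = Sum.inr e) ∨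
        (∃ w, (w = s e ∨ w = t e) ∧ p = Sum.inr e ∧ q = Sum.inl w) := by
      rcases b with _ | _
      · rcases he with ⟨h4, h5⟩ | ⟨h4, h5⟩
        · exact Or.inl ⟨s e, Or.inl rfl, h4.symm, h5.symm⟩
        · exact Or.inr ⟨s e, Or.inl rfl, h5.symm, h4.symm⟩
      · rcases he with ⟨h4, h5⟩ | ⟨h4, h5⟩
        · exact Or.inr ⟨t e, Or.inr rfl, h4.symm, h5.symm⟩
        · exact Or.inl ⟨t e, Or.inr rfl, h5.symm, h4.symm⟩
    rcases hends with ⟨w, hw, rfl, rfl⟩ | ⟨w, hw, rfl, rfl⟩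
    · rcases h1 with h1 | ⟨f, h1, -⟩
      · have h5 : w = v := Sum.inl_injective h1
        subst h5
        exact ⟨w, Or.inr ⟨e, rfl, hw⟩, h2, h3⟩
      · cases h1
    · rcases h1 with h1 | ⟨f, h1, hv⟩
      · cases h1
      · have h5 : e = f := Sum.inr_injective h1
        subst h5
        refine ⟨w, Or.inl rfl, hq, ?_⟩
        by_cases hwv : w = v
        · rw [hwv]
          exact h3
        · refine h3.tail ⟨⟨⟨e, hun⟩, ?_⟩, h2, hq⟩
          rcases hv with rfl | rfl <;> rcases hw with rfl | rfl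
          · exact absurd rfl hwv
          · exact Or.inl ⟨rfl, rfl⟩
          · exact Or.inr ⟨rfl, rfl⟩
          · exact absurd rfl hwv

omit [DecidableEq V] [DecidableEq E] in
lemma cross_dbl {A B L R : Set V} {S : Finset V}
    (hX : Cross (adjG (s1 s t S) (t1 s t S)) A B L R) :
    Cross (adjG (s1 (s2 s) (t2 t) (S2 s t S)) (t1 (s2 s) (t2 t) (S2 s t S)))
      (Sum.inl '' A) (B2 s t B) (Sum.inl '' L) (Sum.inl '' R) := by
  rintro M M' ⟨_, ⟨hxM, x, hx, rfl⟩, y, ⟨hyM, hy⟩, h1⟩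
    ⟨_, ⟨hxM', x', hx', rfl⟩, _, ⟨hyM', y', hy', rfl⟩, h2⟩
  obtain ⟨v, hv, hvM, hxv⟩ := proj_dbl hxM _ h1
  obtain ⟨v', hv', hvM', hxv'⟩ := proj_dbl hxM' _ h2
  have c1 : Cn (adjG (s1 s t S) (t1 s t S)) (Sum.inl ⁻¹' M) A B := by
    refine ⟨x, ⟨hxM, hx⟩, v, ⟨hvM, ?_⟩, hxv⟩
    rcases hv with rfl | ⟨e, rfl, rfl | rfl⟩
    · exact hy
    · exact hy.1
    · exact hy.2
  have c2 : Cn (adjG (s1 s t S) (t1 s t S)) (Sum.inl ⁻¹' M') L R := by
    refine ⟨x', ⟨hxM', hx'⟩, v', ⟨hvM', ?_⟩, hxv'⟩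
    rcases hv' with h | ⟨e, h, -⟩
    · rw [← Sum.inl_injective h]
      exact hy'
    · cases h
  obtain ⟨w, hw1, hw2⟩ := hX _ _ c1 c2
  exact ⟨Sum.inl w, hw1, hw2⟩

end dbl

end Vale.Agent.P159.T1.H112
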