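import Vale.Agent.P159.T1.H112.FarDbl

/-!
The far sides (P159, plan 115, row D.far): the final inequality for a finite graph.
-/

open MeasureTheory Filter Topology

namespace Vale.Agent.P159.T1.H112

open Vale.Agent.P159 Vale.Agent.P159.H353 Vale.Agent.P159.R2.H254 Vale.Agent.P159.R2.H729
  Vale.Agent.P159.T1.H934 Vale.Agent.P159.T1.H910

section lim

theorem far_pow (k : ℕ) : ∀ {V E : Type} [Fintype V] [DecidableEq V] [Fintype E] [DecidableEq E]
    {s t : E → V} (_ : Conn s t) {J : E → ℝ} (_ : ∀ e, 0 ≤ J e) {Z A B L R : Set V}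
    {S : Finset V} (_ : Z.Nonempty) (_ : Disjoint A B) (_ : RS s t Z ∅) (_ : RS s t Z S)
    (_ : ∀ v ∈ S, v ∈ B ∧ ∀ u, adjG s t u v → u ∈ B)
    (_ : Z1 Z S = L ∪ R ∪ {v | v ∈ S}) (_ : Disjoint R {v | v ∈ S})
    (_ : Cross (adjG (s1 s t S) (t1 s t S)) A B L R) {ρ : V → ℝ} (_ : ∀ v, v ∉ B → ρ v = 0),
    T1.H910.ZZ s t J Z (fun h => (li ρ h) ^ 2) / T1.H910.ZZ s t J Z (fun _ => 1) ≤
      T1.H910.ZZ s t J (Z ∪ A) (fun h => (li ρ h) ^ 2) / T1.H910.ZZ s t J (Z ∪ A) (fun _ => 1) +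
      √(T1.H910.ZZ s t J Z (fun h => (li ρ h) ^ 4) / T1.H910.ZZ s t J Z (fun _ => 1) *
        (2 * (N02 s t J L R S / ZD s t J Z S (fun _ => True)) + (∑ e, J e ^ 2 / 4) / 2 ^ k)) := by
  induction k with
  | zero =>
    intro V E _ _ _ _ s t hc J hJ Z A B L R S hne hAB h0 hS hn hZ hRS hX ρ hρ
    rw [pow_zero, div_one]
    exact far_one hc hJ hne hAB h0 hS hn hZ hRS hX hρ
  | succ k ih =>
    intro V E _ _ _ _ s t hc J hJ Z A B L R S hne hAB h0 hS hn hZ hRS hX ρ hρ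
    have h1 := ih (V := V ⊕ E) (E := E × Bool) (s := s2 s) (t := t2 t) (conn2 hc) (J := J2 J)
      (J2_nonneg hJ) (Z := Sum.inl '' Z) (A := Sum.inl '' A) (B := B2 s t B) (L := Sum.inl '' L)
      (R := Sum.inl '' R) (S := S2 s t S) (hne.image _)
      (by
        rw [Set.disjoint_left]
        rintro _ ⟨v, hv, rfl⟩ hvB
        exact Set.disjoint_left.1 hAB hv hvB)
      (RS_dbl_empty h0) (RS_dbl hS) (nb_dbl hn) (Z1_dbl' hZ)
      (by
        rw [Set.disjoint_left]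
        rintro _ ⟨v, hv, rfl⟩ hvS
        exact Set.disjoint_left.1 hRS hv (mem_S2_inl.1 hvS))
      (cross_dbl hX) (ρ := Sum.elim ρ fun _ => 0)
      (by
        rintro (v | e) hv
        · exact hρ v hv
        · rfl)
    have e1 : ∀ X : Set V, T1.H910.ZZ (s2 s) (t2 t) (J2 J) (Sum.inl '' X) (fun _ => 1) =
        T1.H910.ZZ s t J X (fun _ => 1) := fun X =>
      ZZ_dbl (s := s) (t := t) hJ X (fun _ => 1) fun _ => zero_le_one
    have e2 : ∀ X : Set V, T1.H910.ZZ (s2 s) (t2 t) (J2 J) (Sum.inl '' X)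
        (fun H => (li (Sum.elim ρ fun _ => 0) H) ^ 2) =
        T1.H910.ZZ s t J X (fun h => (li ρ h) ^ 2) := fun X => by
      rw [← ZZ_dbl (s := s) (t := t) hJ X (fun h => (li ρ h) ^ 2) fun _ => sq_nonneg _]
      simp only [li_dbl]
    have e4 : ∀ X : Set V, T1.H910.ZZ (s2 s) (t2 t) (J2 J) (Sum.inl '' X)
        (fun H => (li (Sum.elim ρ fun _ => 0) H) ^ 4) =
        T1.H910.ZZ s t J X (fun h => (li ρ h) ^ 4) := fun X => by
      rw [← ZZ_dbl (s := s) (t := t) hJ X (fun h => (li ρ h) ^ 4) fun _ => by positivity]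
      simp only [li_dbl]
    rw [← Set.image_union, e1, e1, e2, e2, e4, N02_dbl hJ, ZD_dbl hJ] at h1
    have e5 : (∑ x, J2 J x ^ 2 / 4) / 2 ^ k = (∑ e, J e ^ 2 / 4) / 2 ^ (k + 1) := by
      rw [← Finset.sum_div, ← Finset.sum_div, sum_J2_sq, pow_succ]
      field_simp
    rwa [e5] at h1

/-- **The far sides.** Heights `0` on `Z`; `A` is the set of the vertices at the far sides, `ρ` is
supported in `B`.  The variance of `ρ.h` is at most its variance with heights `0` on `A`, plus the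
error `√(E (ρ.h)⁴ * 2 Z(0|2) / Z(0|0))` where the sums `Z(0|2)`, `Z(0|0)` are over the graph without
the vertices of `S`. -/
theorem far {V E : Type} [Fintype V] [DecidableEq V] [Fintype E]
    {s t : E → V} (hc : Conn s t) {J : E → ℝ} (hJ : ∀ e, 0 ≤ J e) {Z A B L R : Set V}
    {S : Finset V} (hne : Z.Nonempty) (hAB : Disjoint A B) (h0 : RS s t Z ∅) (hS : RS s t Z S)
    (hn : ∀ v ∈ S, v ∈ B ∧ ∀ u, adjG s t u v → u ∈ B)
    (hZ : Z1 Z S = L ∪ R ∪ {v | v ∈ S}) (hRS : Disjoint R {v | v ∈ S})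
    (hX : Cross (adjG (s1 s t S) (t1 s t S)) A B L R) {ρ : V → ℝ} (hρ : ∀ v, v ∉ B → ρ v = 0) :
    T1.H910.ZZ s t J Z (fun h => (li ρ h) ^ 2) / T1.H910.ZZ s t J Z (fun _ => 1) ≤
      T1.H910.ZZ s t J (Z ∪ A) (fun h => (li ρ h) ^ 2) / T1.H910.ZZ s t J (Z ∪ A) (fun _ => 1) +
      √(T1.H910.ZZ s t J Z (fun h => (li ρ h) ^ 4) / T1.H910.ZZ s t J Z (fun _ => 1) *
        (2 * (N02 s t J L R S / ZD s t J Z S (fun _ => True)))) := by
  classical
  set M4 := T1.H910.ZZ s t J Z (fun h => (li ρ h) ^ 4) / T1.H910.ZZ s t J Z (fun _ => 1)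
  set P := 2 * (N02 s t J L R S / ZD s t J Z S (fun _ => True))
  set K := ∑ e, J e ^ 2 / 4
  have h1 := fun k => far_pow k hc hJ hne hAB h0 hS hn hZ hRS hX hρ
  have h2 : Tendsto (fun k : ℕ => K / 2 ^ k) atTop (𝓝 0) := by
    have := (tendsto_pow_atTop_nhds_zero_of_lt_one (r := (1 / 2 : ℝ)) (by norm_num)
      (by norm_num)).const_mul K
    rw [mul_zero] at this
    refine this.congr fun k => ?_
    rw [one_div, inv_pow, div_eq_mul_inv]
  have h3 : Tendsto (fun k : ℕ => T1.H910.ZZ s t J (Z ∪ A) (fun h => (li ρ h) ^ 2) /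
      T1.H910.ZZ s t J (Z ∪ A) (fun _ => 1) + √(M4 * (P + K / 2 ^ k))) atTop
      (𝓝 (T1.H910.ZZ s t J (Z ∪ A) (fun h => (li ρ h) ^ 2) /
      T1.H910.ZZ s t J (Z ∪ A) (fun _ => 1) + √(M4 * (P + 0)))) :=
    tendsto_const_nhds.add ((Real.continuous_sqrt.tendsto _).comp
      ((tendsto_const_nhds.add h2).const_mul M4))
  rw [add_zero] at h3
  exact ge_of_tendsto h3 (Eventually.of_forall h1)

end lim

end Vale.Agent.P159.T1.H112
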