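import Vale.Agent.P159.T1.H112.Far
import Vale.Agent.P159.T1.H897.LogC

/-!
The bound of McBryan and Spencer in the height representation: for a subgroup `Γ` of `E → ℤ`, a
field `β` and every translate `m`
`∑ γ, Gw J (γ + m) exp (β.(γ + m)) ≤ exp (∑ e, J e (cosh β e - 1)) ∑ γ, Gw J γ`.
-/

open MeasureTheory Filter Topology

namespace Vale.Agent.P159.T1.H112

open Vale.Agent.P159 Vale.Agent.P159.H353 Vale.Agent.P159.R2.H254 Vale.Agent.P159.R2.H729
  Vale.Agent.P159.T1.H532 Vale.Agent.P159.T1.H934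

/-! ### one edge -/

lemma hasSum_congr' {ι : Type*} {f g : ι → ℝ} {a : ℝ} (h : ∀ i, f i = g i) (hg : HasSum g a) :
    HasSum f a := by
  have : f = g := funext h
  rwa [this]

lemma exp_mul_int (y : ℝ) (k : ℤ) : Real.exp (y * k) = Real.exp y ^ k := by
  rw [Real.exp_mul, Real.rpow_intCast]

lemma tsum_wI' {a : ℝ} (ha : 0 ≤ a) : ∑' n, wI a n = Real.exp a := by
  have h1 := laurent ha (z := 1) one_ne_zero
  have h2 := Complex.hasSum_re h1
  have e1 : (fun n : ℤ => ((wI a n : ℂ) * (1 : ℂ) ^ n).re) = fun n => wI a n := by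
    funext n
    simp
  have e2 : (Complex.exp (a * ((1 + (1 : ℂ)⁻¹) / 2))).re = Real.exp a := by
    have : (a : ℂ) * ((1 + (1 : ℂ)⁻¹) / 2) = ((a : ℝ) : ℂ) := by
      rw [inv_one]
      ring
    rw [this, Complex.exp_ofReal_re]
  rw [e1, e2] at h2
  exact h2.tsum_eq

lemma summable_tw {a : ℝ} (ha : 0 ≤ a) (y : ℝ) :
    Summable fun k : ℤ => wI a k * Real.exp (y * k) := by
  have h1 := (laurent ha (z := ((Real.exp y : ℝ) : ℂ))
    (by exact_mod_cast (Real.exp_pos y).ne')).summable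
  have h2 := Complex.reCLM.summable h1
  refine h2.congr fun k => ?_
  show ((wI a k : ℂ) * ((Real.exp y : ℝ) : ℂ) ^ k).re = _
  rw [← Complex.ofReal_zpow, ← Complex.ofReal_mul, Complex.ofReal_re]
  rw [exp_mul_int]

lemma hasSum_tw {a : ℝ} (ha : 0 ≤ a) (y : ℝ) {z : ℂ} (hz : z ≠ 0) :
    HasSum (fun k : ℤ => ((wI a k * Real.exp (y * k) : ℝ) : ℂ) * z ^ k)
      (Complex.exp (a * ((Real.exp y * z + (Real.exp y * z)⁻¹) / 2))) := by
  have he : ((Real.exp y : ℝ) : ℂ) ≠ 0 := by exact_mod_cast (Real.exp_pos y).ne'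
  have h1 := laurent ha (z := ((Real.exp y : ℝ) : ℂ) * z) (mul_ne_zero he hz)
  have e1 : (fun k : ℤ => ((wI a k * Real.exp (y * k) : ℝ) : ℂ) * z ^ k) =
      fun k : ℤ => (wI a k : ℂ) * (((Real.exp y : ℝ) : ℂ) * z) ^ k := by
    funext k
    rw [mul_zpow, ← Complex.ofReal_zpow, Complex.ofReal_mul, exp_mul_int]
    ring
  rw [e1]
  exact h1

/-- the two tilted weights -/
theorem wI_tw_conv {a : ℝ} (ha : 0 ≤ a) (y : ℝ) (n : ℤ) :
    HasSum (fun k : ℤ => (wI a k * Real.exp (y * k)) *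
      (wI a (n - k) * Real.exp (-y * ((n - k : ℤ) : ℝ)))) (wI (2 * a * Real.cosh y) n) := by
  set p : ℤ → ℝ := fun k => wI a k * Real.exp (-y * k) with hp
  set q : ℤ → ℝ := fun k => wI a k * Real.exp (y * k) with hq
  have p0 : ∀ k, 0 ≤ p k := fun k => mul_nonneg (wI_nonneg ha k) (Real.exp_pos _).le
  have q0 : ∀ k, 0 ≤ q k := fun k => mul_nonneg (wI_nonneg ha k) (Real.exp_pos _).le
  have sp : Summable p := summable_tw ha (-y)
  have sq : Summable q := summable_tw ha y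
  have hc : 0 ≤ 2 * a * Real.cosh y := by
    have := Real.cosh_pos y
    positivity
  have hb : ∀ n : ℤ, p n ≤ ∑' j, p j := fun n => sp.le_tsum n fun j _ => p0 j
  have h5 : ∀ n : ℤ, Summable fun k : ℤ => p (n - k) * q k := fun n =>
    Summable.of_nonneg_of_le (fun k => mul_nonneg (p0 _) (q0 _))
      (fun k => mul_le_mul_of_nonneg_right (hb _) (q0 _)) (sq.mul_left (∑' j, p j))
  have key : ∀ z : ℂ, ‖z‖ = 1 →
      HasSum (fun n : ℤ => ((∑' k : ℤ, p (n - k) * q k : ℝ) : ℂ) * z ^ n)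
        (Complex.exp (((2 * a * Real.cosh y : ℝ) : ℂ) * ((z + z⁻¹) / 2))) := by
    intro z hz
    have hz0 : z ≠ 0 := T1.H934.norm_ne hz
    have h1 := T1.H897.conv_hasSum p0 q0 sp sq hz (hasSum_tw ha (-y) hz0) (hasSum_tw ha y hz0)
    have e1 : Complex.exp (a * ((Real.exp (-y) * z + (Real.exp (-y) * z)⁻¹) / 2)) *
        Complex.exp (a * ((Real.exp y * z + (Real.exp y * z)⁻¹) / 2)) =
        Complex.exp (((2 * a * Real.cosh y : ℝ) : ℂ) * ((z + z⁻¹) / 2)) := by
      rw [← Complex.exp_add]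
      congr 1
      have he : ((Real.exp y : ℝ) : ℂ) ≠ 0 := by exact_mod_cast (Real.exp_pos y).ne'
      rw [Real.cosh_eq, Real.exp_neg]
      push_cast
      field_simp
      ring
    rw [← e1]
    exact h1
  have hs1 : Summable fun n : ℤ => ((∑' k : ℤ, p (n - k) * q k : ℝ) : ℂ) := by
    have := (key 1 (by simp)).summable
    simpa using this
  have hs2 : Summable fun n : ℤ => (wI (2 * a * Real.cosh y) n : ℂ) :=
    Complex.ofRealCLM.summable (summable_wI hc)
  have h := T1.H934.coef_unique (a := fun n => (wI (2 * a * Real.cosh y) n : ℂ) -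
    ((∑' k : ℤ, p (n - k) * q k : ℝ) : ℂ)) (hs2.sub hs1) (fun z hz => by
      have a3 := (laurent hc (T1.H934.norm_ne hz)).sub (key z hz)
      rw [sub_self] at a3
      rw [← a3.tsum_eq]
      exact tsum_congr fun n => by ring) n
  have h1 : wI (2 * a * Real.cosh y) n = ∑' k : ℤ, p (n - k) * q k := by
    have := sub_eq_zero.1 h
    exact_mod_cast this
  rw [h1]
  have h2 := (h5 n).hasSum
  have e3 : (fun k : ℤ => (wI a k * Real.exp (y * k)) *
      (wI a (n - k) * Real.exp (-y * ((n - k : ℤ) : ℝ)))) = fun k : ℤ => p (n - k) * q k := by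
    funext k
    simp only [hp, hq]
    ring
  rw [e3]
  exact h2

/-! ### groups -/

section group

variable {A : Type} [AddCommGroup A]

/-- Cauchy-Schwarz for the sums over the translates of a subgroup -/
theorem ms_abs (Γ : AddSubgroup A) {T1 G C : A → ℝ} (sT : Summable T1) (sG : Summable G)
    (sC : Summable C) (hG : ∀ n, HasSum (fun k => T1 k * T1 (n - k)) (G n))
    (hC : ∀ n, HasSum (fun k => T1 k * T1 (k - n)) (C n)) (m : A) :
    Fs Γ G m ≤ Fs Γ C 0 := by
  have sT1 : Summable fun l => T1 (l + m) := (Equiv.addRight m).summable_iff.2 sT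
  have sT2 : Summable fun l => T1 (-l) := (Equiv.neg A).summable_iff.2 sT
  have hK : Summable fun l => T1 (l + m) - T1 (-l) := sT1.sub sT2
  have h0 := corr_nonneg Γ hK
  have hA : ∀ γ : A, HasSum (fun l => T1 (l + m) * T1 (l + γ + m)) (C γ) := by
    intro γ
    have h1 := (Equiv.addRight (γ + m)).hasSum_iff.2 (hC γ)
    refine (hasSum_congr' fun l => ?_) h1
    show T1 (l + m) * T1 (l + γ + m) = T1 (l + (γ + m)) * T1 (l + (γ + m) - γ)
    rw [mul_comm, show l + γ + m = l + (γ + m) by abel, show l + (γ + m) - γ = l + m by abel]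
  have hB : ∀ γ : A, HasSum (fun l => T1 (-l) * T1 (-(l + γ))) (C γ) := by
    intro γ
    have h1 := (Equiv.neg A).hasSum_iff.2 (hC γ)
    refine (hasSum_congr' fun l => ?_) h1
    show T1 (-l) * T1 (-(l + γ)) = T1 (-l) * T1 (-l - γ)
    rw [show -(l + γ) = -l - γ by abel]
  have hC' : ∀ γ : A, HasSum (fun l => T1 (l + m) * T1 (-(l + γ))) (G (m - γ)) := by
    intro γ
    have h1 := (Equiv.addRight m).hasSum_iff.2 (hG (m - γ))
    refine (hasSum_congr' fun l => ?_) h1
    show T1 (l + m) * T1 (-(l + γ)) = T1 (l + m) * T1 (m - γ - (l + m))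
    rw [show m - γ - (l + m) = -(l + γ) by abel]
  have hD : ∀ γ : A, HasSum (fun l => T1 (-l) * T1 (l + γ + m)) (G (γ + m)) := by
    intro γ
    have h1 := (Equiv.neg A).hasSum_iff.2 (hG (γ + m))
    refine (hasSum_congr' fun l => ?_) h1
    show T1 (-l) * T1 (l + γ + m) = T1 (-l) * T1 (γ + m - -l)
    rw [show γ + m - -l = l + γ + m by abel]
  have hE : ∀ γ : Γ, ∑' l, (T1 (l + m) - T1 (-l)) * (T1 (l + (γ : A) + m) -
      T1 (-(l + (γ : A)))) = 2 * C (γ : A) - (G (m - (γ : A)) + G ((γ : A) + m)) := by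
    intro γ
    have h1 := ((hA γ).add (hB γ)).sub ((hC' γ).add (hD γ))
    have e1 : (fun l => (T1 (l + m) - T1 (-l)) * (T1 (l + (γ : A) + m) -
      T1 (-(l + (γ : A))))) = fun l =>
        T1 (l + m) * T1 (l + (γ : A) + m) + T1 (-l) * T1 (-(l + (γ : A))) -
        (T1 (l + m) * T1 (-(l + (γ : A))) + T1 (-l) * T1 (l + (γ : A) + m)) := by
      funext l
      ring
    rw [e1, h1.tsum_eq]
    ring
  have h1 : HasSum (fun γ : Γ => C (γ : A)) (Fs Γ C 0) := by
    have := hasSum_Fs Γ sC 0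
    simpa using this
  have h2 := hasSum_Fs Γ sG m
  have h3 : HasSum (fun γ : Γ => G (m - (γ : A))) (Fs Γ G m) := by
    have h4 := (Equiv.neg Γ).hasSum_iff.2 h2
    refine (hasSum_congr' fun γ => ?_) h4
    show G (m - (γ : A)) = G (((-γ : Γ) : A) + m)
    congr 1
    rw [AddSubgroup.coe_neg]
    abel
  have h5 := (h1.mul_left 2).sub (h3.add h2)
  have h6 : ∑' γ : Γ, ∑' l, (T1 (l + m) - T1 (-l)) * (T1 (l + (γ : A) + m) -
      T1 (-(l + (γ : A)))) = 2 * Fs Γ C 0 - (Fs Γ G m + Fs Γ G m) := by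
    rw [tsum_congr hE]
    exact h5.tsum_eq
  rw [h6] at h0
  linarith

/-- second step, general form -/
theorem add_abs (Γ : AddSubgroup A) {G K C : A → ℝ} (sG : Summable G) (sK : Summable K)
    (hK0 : ∀ n, 0 ≤ K n) (hC : ∀ n, HasSum (fun k => K k * G (n - k)) (C n))
    (hle : ∀ m, Fs Γ G m ≤ Fs Γ G 0) :
    Fs Γ C 0 ≤ (∑' k, K k) * Fs Γ G 0 := by
  have h1 : Summable fun p : A × A => K p.1 * G p.2 := summable_mul_of_summable_norm
    sK.norm sG.norm
  have hinj : Function.Injective fun p : A × Γ => (p.1, (p.2 : A) - p.1) := by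
    rintro ⟨l, g⟩ ⟨l', g'⟩ h
    have h3 : l = l' := (Prod.mk.inj h).1
    subst h3
    have h4 : (g : A) - l = (g' : A) - l := (Prod.mk.inj h).2
    exact Prod.ext rfl (Subtype.ext (sub_left_injective h4))
  have h2 : Summable fun p : A × Γ => K p.1 * G ((p.2 : A) - p.1) := h1.comp_injective hinj
  have h3 : ∑' γ : Γ, ∑' k : A, K k * G ((γ : A) - k) =
      ∑' k : A, ∑' γ : Γ, K k * G ((γ : A) - k) := h2.tsum_comm
  have h4 : Fs Γ C 0 = ∑' γ : Γ, ∑' k : A, K k * G ((γ : A) - k) := by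
    unfold Fs
    refine tsum_congr fun γ => ?_
    rw [add_zero]
    exact ((hC (γ : A)).tsum_eq).symm
  have h5 : ∀ k : A, ∑' γ : Γ, K k * G ((γ : A) - k) = K k * Fs Γ G (-k) := by
    intro k
    rw [tsum_mul_left]
    unfold Fs
    simp only [sub_eq_add_neg]
  rw [h4, h3, tsum_congr h5, ← tsum_mul_right]
  have h6 : Summable fun k : A => K k * Fs Γ G (-k) := by
    refine h2.prod.congr fun k => ?_
    exact h5 k
  exact h6.tsum_le_tsum (fun k => mul_le_mul_of_nonneg_left (hle _) (hK0 k)) (sK.mul_right _)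

end group

/-! ### product weights -/

section prod

variable {E : Type} [Fintype E]

/-- tilted product weight -/
noncomputable def GT (J β : E → ℝ) (n : E → ℤ) : ℝ := ∏ e, wI (J e) (n e) * Real.exp (β e * n e)

lemma GT_nonneg {J : E → ℝ} (hJ : ∀ e, 0 ≤ J e) (β : E → ℝ) (n : E → ℤ) : 0 ≤ GT J β n :=
  Finset.prod_nonneg fun e _ => mul_nonneg (wI_nonneg (hJ e) _) (Real.exp_pos _).le

lemma GT_eq (J β : E → ℝ) (n : E → ℤ) :
    GT J β n = Gw J n * Real.exp (∑ e, β e * (n e : ℝ)) := by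
  unfold GT Gw
  rw [Finset.prod_mul_distrib, Real.exp_sum]

lemma summable_GT {J : E → ℝ} (hJ : ∀ e, 0 ≤ J e) (β : E → ℝ) : Summable (GT J β) :=
  (prod_real (a := fun e k => wI (J e) k * Real.exp (β e * k))
    fun e => summable_tw (hJ e) (β e)).summable

lemma GT_neg (J β : E → ℝ) (n : E → ℤ) : GT J β (-n) = GT J (-β) n := by
  unfold GT
  refine Finset.prod_congr rfl fun e _ => ?_
  rw [Pi.neg_apply, wI_neg, Pi.neg_apply]
  congr 2
  push_cast
  ring

/-- the convolution of the tilted weights with themselves -/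
lemma GT_conv {J : E → ℝ} (hJ : ∀ e, 0 ≤ J e) (β : E → ℝ) (n : E → ℤ) :
    HasSum (fun k => GT (fun e => J e / 2) β k * GT (fun e => J e / 2) β (n - k))
      (GT J β n) := by
  have hh : ∀ e, 0 ≤ J e / 2 := fun e => by have := hJ e; linarith
  have h1 := (Gw_conv hh hh n).mul_right (Real.exp (∑ e, β e * (n e : ℝ)))
  have e1 : (fun e => J e / 2 + J e / 2) = J := funext fun e => add_halves _
  rw [e1, ← GT_eq] at h1
  have e2 : (fun k => GT (fun e => J e / 2) β k * GT (fun e => J e / 2) β (n - k)) =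
      fun k => Gw (fun e => J e / 2) k * Gw (fun e => J e / 2) (n - k) *
        Real.exp (∑ e, β e * (n e : ℝ)) := by
    funext k
    rw [GT_eq, GT_eq]
    have e3 : Real.exp (∑ e, β e * (n e : ℝ)) = Real.exp (∑ e, β e * (k e : ℝ)) *
        Real.exp (∑ e, β e * ((n - k) e : ℝ)) := by
      rw [← Real.exp_add, ← Finset.sum_add_distrib]
      congr 1
      refine Finset.sum_congr rfl fun e _ => ?_
      rw [Pi.sub_apply]
      push_cast
      ring
    rw [e3]
    ring
  rw [e2]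
  exact h1

/-- the convolution of the tilted weights with the opposite tilt -/
lemma GT_conv' {J : E → ℝ} (hJ : ∀ e, 0 ≤ J e) (β : E → ℝ) (n : E → ℤ) :
    HasSum (fun k => GT (fun e => J e / 2) β k * GT (fun e => J e / 2) β (k - n))
      (Gw (fun e => J e * Real.cosh (β e)) n) := by
  have hh : ∀ e, 0 ≤ J e / 2 := fun e => by have := hJ e; linarith
  have h1 := prod_real (a := fun e k => (wI (J e / 2) k * Real.exp (β e * k)) *
      (wI (J e / 2) (n e - k) * Real.exp (-β e * ((n e - k : ℤ) : ℝ))))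
    (fun e => (wI_tw_conv (hh e) (β e) (n e)).summable)
  have e1 : (∏ e, ∑' k : ℤ, (wI (J e / 2) k * Real.exp (β e * k)) *
      (wI (J e / 2) (n e - k) * Real.exp (-β e * ((n e - k : ℤ) : ℝ)))) =
      Gw (fun e => J e * Real.cosh (β e)) n := by
    unfold Gw
    refine Finset.prod_congr rfl fun e _ => ?_
    rw [(wI_tw_conv (hh e) (β e) (n e)).tsum_eq]
    congr 1
    ring
  rw [e1] at h1
  have e2 : (fun k => GT (fun e => J e / 2) β k * GT (fun e => J e / 2) β (k - n)) =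
      fun k : E → ℤ => ∏ e, (wI (J e / 2) (k e) * Real.exp (β e * k e)) *
      (wI (J e / 2) (n e - k e) * Real.exp (-β e * ((n e - k e : ℤ) : ℝ))) := by
    funext k
    unfold GT
    rw [← Finset.prod_mul_distrib]
    refine Finset.prod_congr rfl fun e _ => ?_
    congr 1
    rw [Pi.sub_apply, show k e - n e = -(n e - k e) by ring, wI_neg]
    congr 2
    push_cast
    ring
  rw [e2]
  exact h1

/-- first step: Cauchy-Schwarz -/
theorem ms_step (Γ : AddSubgroup (E → ℤ)) {J : E → ℝ} (hJ : ∀ e, 0 ≤ J e) (β : E → ℝ)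
    (m : E → ℤ) :
    Fs Γ (GT J β) m ≤ Fs Γ (Gw fun e => J e * Real.cosh (β e)) 0 := by
  have hh : ∀ e, 0 ≤ J e / 2 := fun e => by have := hJ e; linarith
  have hc : ∀ e, 0 ≤ J e * Real.cosh (β e) := fun e => mul_nonneg (hJ e) (Real.cosh_pos _).le
  exact ms_abs Γ (summable_GT hh β) (summable_GT hJ β) (summable_Gw hc) (GT_conv hJ β)
    (GT_conv' hJ β) m

/-- second step: the partition function grows at most by the maximum -/
theorem Fs_add_le (Γ : AddSubgroup (E → ℤ)) {J K : E → ℝ} (hJ : ∀ e, 0 ≤ J e)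
    (hK : ∀ e, 0 ≤ K e) :
    Fs Γ (Gw fun e => J e + K e) 0 ≤ Real.exp (∑ e, K e) * Fs Γ (Gw J) 0 := by
  have hh : ∀ e, 0 ≤ J e / 2 := fun e => by have := hJ e; linarith
  have h1 : ∀ m, Fs Γ (Gw J) m ≤ Fs Γ (Gw J) 0 := by
    intro m
    have h2 := Fs_add_neg_le Γ (summable_Gw hJ) (summable_Gw hh) (Gw_neg _) (fun n => by
      have := Gw_conv hh hh n
      simpa only [add_halves] using this) m
    have h3 : Fs Γ (Gw J) (-m) = Fs Γ (Gw J) m := by
      unfold Fs
      rw [← (Equiv.neg Γ).tsum_eq]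
      refine tsum_congr fun γ => ?_
      rw [← Gw_neg]
      congr 1
      show -((((-γ : Γ)) : E → ℤ) + -m) = (γ : E → ℤ) + m
      rw [AddSubgroup.coe_neg]
      abel
    linarith
  have h2 := add_abs Γ (G := Gw J) (K := Gw K) (C := Gw fun e => J e + K e) (summable_Gw hJ)
    (summable_Gw hK) (Gw_nonneg hK) (fun n => by
      have := Gw_conv hK hJ n
      simpa only [add_comm] using this) h1
  have h3 : ∑' k, Gw K k = Real.exp (∑ e, K e) := by
    have h4 := prod_real (a := fun e k => wI (K e) k) (fun e => summable_wI (hK e))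
    rw [Real.exp_sum]
    have h5 : (∏ e, ∑' k, wI (K e) k) = ∏ e, Real.exp (K e) := by
      refine Finset.prod_congr rfl fun e _ => ?_
      exact tsum_wI' (hK e)
    rw [← h5]
    exact h4.tsum_eq
  rwa [h3] at h2

/-- **The bound of McBryan and Spencer**, height form. -/
theorem ms (Γ : AddSubgroup (E → ℤ)) {J : E → ℝ} (hJ : ∀ e, 0 ≤ J e) (β : E → ℝ)
    (m : E → ℤ) :
    Fs Γ (GT J β) m ≤ Real.exp (∑ e, J e * (Real.cosh (β e) - 1)) * Fs Γ (Gw J) 0 := by
  have h1 := Fs_add_le Γ hJ (K := fun e => J e * (Real.cosh (β e) - 1)) (fun e =>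
    mul_nonneg (hJ e) (by have := Real.one_le_cosh (β e); linarith))
  refine (ms_step Γ hJ β m).trans (le_trans (le_of_eq ?_) h1)
  congr 2
  funext e
  ring

end prod

/-! ### heights -/

section hts

variable {V E : Type} [Fintype E] {s t : E → V} {L R D : Set V}

open Classical in
/-- the sum with the boundary values `0` and `2` -/
theorem Z02_le {J : E → ℝ} (hJ : ∀ e, 0 ≤ J e) (hc : RchZ s t (L ∪ R ∪ D)) (β : E → ℝ) {Φ : ℝ}
    (hβ : ∀ h : V → ℤ, (∀ v ∈ L ∪ D, h v = 0) → (∀ v ∈ R, h v = 2) →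
      ∑ e, β e * ((h (t e) - h (s e) : ℤ) : ℝ) = Φ) :
    Z02 s t J L R D ≤ Real.exp (-Φ + ∑ e, J e * (Real.cosh (β e) - 1)) *
      ∑' h : V → ℤ, WZ s t J (L ∪ R ∪ D) h := by
  set Z := L ∪ R ∪ D with hZ
  have hW0 := WZ_nonneg (s := s) (t := t) hJ Z
  by_cases hne : ∃ h0 : V → ℤ, (∀ v ∈ L ∪ D, h0 v = 0) ∧ ∀ v ∈ R, h0 v = 2
  swap
  · have h1 : Z02 s t J L R D = 0 := by
      unfold Z02
      refine (tsum_congr fun h => if_neg fun hh => hne ⟨h, hh⟩).trans tsum_zero
    rw [h1]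
    exact mul_nonneg (Real.exp_pos _).le (tsum_nonneg hW0)
  obtain ⟨h0, h01, h02⟩ := hne
  set Γ : AddSubgroup (E → ℤ) := (HZ V Z).map (grd s t) with hΓ
  have hinj : ∀ h : V → ℤ, (∀ z ∈ Z, h z = 0) → grd s t h = 0 → h = 0 := by
    intro h h1 h2
    have h3 : RchZ s t (Set.range (Subtype.val : Z → V)) := by rwa [Subtype.range_coe]
    apply grdL_inj' h3
    rw [map_zero]
    funext x
    rcases x with e | z
    · exact congrFun h2 e
    · exact h1 z.1 z.2
  set φ : HZ V Z → Γ := fun h => ⟨grd s t h.1, ⟨h.1, h.2, rfl⟩⟩ with hφ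
  have hb : Function.Bijective φ := by
    constructor
    · intro a b hab
      have h1 : grd s t a.1 = grd s t b.1 := congrArg Subtype.val hab
      have h2 := hinj (a.1 - b.1) (fun z hz => by
        show a.1 z - b.1 z = 0
        rw [a.2 z hz, b.2 z hz, sub_zero]) (by rw [map_sub, h1, sub_self])
      exact Subtype.ext (sub_eq_zero.1 h2)
    · rintro ⟨_, h, hh, rfl⟩
      exact ⟨⟨h, hh⟩, rfl⟩
  set m := grd s t h0 with hm
  -- the sector
  have key : ∀ k : V → ℤ, ((∀ v ∈ L ∪ D, (k + h0) v = 0) ∧ ∀ v ∈ R, (k + h0) v = 2) ↔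
      ∀ z ∈ Z, k z = 0 := by
    intro k
    constructor
    · rintro ⟨a1, a2⟩ z hz
      rcases hz with (hz | hz) | hz
      · have := a1 z (Or.inl hz)
        rwa [Pi.add_apply, h01 z (Or.inl hz), add_zero] at this
      · have := a2 z hz
        rw [Pi.add_apply, h02 z hz] at this
        omega
      · have := a1 z (Or.inr hz)
        rwa [Pi.add_apply, h01 z (Or.inr hz), add_zero] at this
    · intro a
      refine ⟨fun v hv => ?_, fun v hv => ?_⟩
      · rw [Pi.add_apply, h01 v hv, add_zero]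
        rcases hv with hv | hv
        · exact a v (Or.inl (Or.inl hv))
        · exact a v (Or.inr hv)
      · rw [Pi.add_apply, h02 v hv, a v (Or.inl (Or.inr hv)), zero_add]
  have e1 : Z02 s t J L R D = Real.exp (-Φ) * Fs Γ (GT J β) m := by
    unfold Z02
    rw [← (Equiv.addRight h0).tsum_eq]
    have e2 : ∀ k : V → ℤ, (if (∀ v ∈ L ∪ D, (Equiv.addRight h0 k) v = 0) ∧
        ∀ v ∈ R, (Equiv.addRight h0 k) v = 2 then W (grd s t) J (Equiv.addRight h0 k) else 0) =
        if ∀ z ∈ Z, k z = 0 then W (grd s t) J (k + h0) else 0 :=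
      fun k => if_congr (key k) rfl rfl
    rw [tsum_congr e2, ← tsum_HZ Z (fun k => W (grd s t) J (k + h0))]
    unfold Fs
    rw [← (Equiv.ofBijective φ hb).tsum_eq, ← tsum_mul_left]
    refine tsum_congr fun k => ?_
    show W (grd s t) J (k.1 + h0) = Real.exp (-Φ) * GT J β (grd s t k.1 + m)
    rw [GT_eq, hm, ← map_add]
    have e3 : ∑ e, β e * ((grd s t (k.1 + h0)) e : ℝ) = Φ := by
      have h5 := (key k.1).2 k.2
      exact hβ (k.1 + h0) h5.1 h5.2
    rw [e3, Real.exp_neg, mul_comm, mul_assoc, mul_inv_cancel₀ (Real.exp_pos _).ne', mul_one]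
    rfl
  have e4 : ∑' h : V → ℤ, WZ s t J Z h = Fs Γ (Gw J) 0 := by
    unfold Fs
    rw [← (Equiv.ofBijective φ hb).tsum_eq]
    have h6 := tsum_HZ Z (fun h => W (grd s t) J h)
    refine (h6.symm.trans (tsum_congr fun k => ?_))
    show W (grd s t) J k.1 = Gw J (grd s t k.1 + 0)
    rw [add_zero]
    rfl
  have h7 := mul_le_mul_of_nonneg_left (ms Γ hJ β m) (Real.exp_pos (-Φ)).le
  rw [e1, e4, Real.exp_add, mul_assoc]
  exact h7

end hts

section cor

variable {V E : Type} [Fintype V] [DecidableEq V] [Fintype E] {s t : E → V}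

/-- **The ratio `Z(0|2) / Z(0|0)`** -/
theorem N02_le {J : E → ℝ} (hJ : ∀ e, 0 ≤ J e) {Z L R : Set V} {S : Finset V} (hS : RS s t Z S)
    (hZ : Z1 Z S = L ∪ R ∪ {v | v ∈ S}) (β : E → ℝ) (hβ0 : ∀ e, s e ∈ S ∨ t e ∈ S → β e = 0)
    {Φ : ℝ} (hβ : ∀ h : V → ℤ, (∀ v ∈ L, h v = 0) → (∀ v ∈ R, h v = 2) → (∀ v ∈ S, h v = 0) →
      ∑ e, β e * ((h (t e) - h (s e) : ℤ) : ℝ) = Φ) :
    N02 s t J L R S / ZD s t J Z S (fun _ => True) ≤
      Real.exp (-Φ + ∑ e, J e * (Real.cosh (β e) - 1)) := by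
  classical
  have p2 := ZD_pos (p := fun _ => True) hJ hS trivial
  rw [div_le_iff₀ p2]
  have hsum : ∀ f : E → ℝ, (∀ e, s e ∈ S ∨ t e ∈ S → f e = 0) →
      ∑ e : E1 s t S, f e.1 = ∑ e, f e := by
    intro f hf
    rw [← Finset.sum_subtype (Finset.univ.filter fun e => s e ∉ S ∧ t e ∉ S) (by simp) f]
    refine Finset.sum_subset (Finset.subset_univ _) fun e _ he => hf e ?_
    by_contra hh
    rw [not_or] at hh
    exact he (Finset.mem_filter.2 ⟨Finset.mem_univ _, hh⟩)
  have h2 := Z02_le (s := s1 s t S) (t := t1 s t S) (L := L) (R := R) (D := {v | v ∈ S})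
    (J := fun e : E1 s t S => J e.1) (fun e => hJ e.1) (by rw [← hZ]; exact rchZ_sub hS)
    (fun e => β e.1) (Φ := Φ) (by
      intro h a1 a2
      have h3 := hsum (fun e => β e * ((h (t e) - h (s e) : ℤ) : ℝ)) fun e he => by
        rw [hβ0 e he, zero_mul]
      rw [← hβ h (fun v hv => a1 v (Or.inl hv)) a2 (fun v hv => a1 v (Or.inr hv)), ← h3]
      rfl)
  have h3 := hsum (fun e => J e * (Real.cosh (β e) - 1)) fun e he => by
    rw [hβ0 e he, Real.cosh_zero, sub_self, mul_zero]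
  have e2 : ∑' h : V → ℤ,
      WZ (s1 s t S) (t1 s t S) (fun e : E1 s t S => J e.1) (L ∪ R ∪ {v | v ∈ S}) h =
      ZD s t J Z S (fun _ => True) := by
    rw [ZD_eq, ← hZ]
    exact tsum_congr fun h => (if_pos trivial).symm
  rw [e2, h3] at h2
  exact h2

end cor

end Vale.Agent.P159.T1.H112
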