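import Vale.Agent.P159.T1.H112.QCross
import Vale.Agent.P159.H950.F5

/-!
The quarter box (P159, plan 115, row D.far): the flow, the ratio `Z(0|2) / Z(0|0)`, and the
inequality for the variance in the language of `T1/D/Defs.lean`.
-/

open MeasureTheory Filter Topology

namespace Vale.Agent.P159.T1.H112

open Vale.Agent.P159 Vale.Agent.P159.H353 Vale.Agent.P159.R2.H254 Vale.Agent.P159.R2.H729
  Vale.Agent.P159.T1.H934 Vale.Agent.P159.T1.D Vale.Agent.P159.T1.H532 Vale.Agent.P159.T1.H910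

/-! ### the dictionary -/

lemma W_q (J : Bnd → ℝ) (L : ℕ) (h : QV L → ℤ) :
    W (grd (qs L) (qt L)) (fun e => J e.1) h =
      ∏ e ∈ SB' L, wI (J e) (dh (fun f => h (qv L f)) e) := by
  rw [← Finset.prod_coe_sort]
  rfl

/-- the vertices whose face is not in `U` -/
def Pq (L : ℕ) (U : Finset Z2) : Set (QV L) := {v | fc v ∉ U}

/-- heights on the graph and heights on the plane -/
def eqQ {L : ℕ} {U : Finset Z2} (hU : U ⊆ bxQ L) :
    {h : QV L → ℤ // ∀ v ∈ Pq L U, h v = 0} ≃ Ht U where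
  toFun h := ⟨fun f => h.1 (qv L f), fun f hf => by
    refine h.2 _ ?_
    show fc (qv L f) ∉ U
    by_cases c : InE L f
    · rwa [fc_qv c]
    · rw [qv_not c]
      intro h1
      have h2 := mem_bxQ.1 (hU h1)
      simp only at h2
      omega⟩
  invFun g := ⟨fun v => g.1 (fc v), fun v hv => g.2 _ hv⟩
  left_inv h := Subtype.ext (funext fun v => by
    show h.1 (qv L (fc v)) = h.1 v
    rw [qv_fc])
  right_inv g := Subtype.ext (funext fun f => by
    show g.1 (fc (qv L f)) = g.1 f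
    by_cases c : InE L f
    · rw [fc_qv c]
    · rw [qv_not c]
      have h0 : ∀ f' : Z2, f' ∉ bxQ L → g.1 f' = 0 := fun f' hf' => g.2 f' fun h => hf' (hU h)
      rw [h0 _ (by rw [mem_bxQ]; simp only; omega), h0 f]
      intro h1
      apply c
      obtain ⟨a1, a2, a3, a4⟩ := mem_bxQ.1 h1
      exact ⟨⟨by omega, a2⟩, by omega, a4⟩)

theorem ZZ_q (J : Bnd → ℝ) {L : ℕ} {U : Finset Z2} (hU : U ⊆ bxQ L) (F : (Z2 → ℤ) → ℝ) :
    T1.H910.ZZ (qs L) (qt L) (fun e => J e.1) (Pq L U) (fun h => F fun f => h (qv L f)) =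
      FF J (SB' L) U F := by
  classical
  unfold FF
  rw [← (eqQ hU).tsum_eq]
  unfold T1.H910.ZZ
  have h1 : ∀ h : QV L → ℤ, (if ∀ v ∈ Pq L U, h v = 0 then
      W (grd (qs L) (qt L)) (fun e => J e.1) h * F (fun f => h (qv L f)) else 0) =
      Set.indicator {h : QV L → ℤ | ∀ v ∈ Pq L U, h v = 0}
        (fun h => (∏ e ∈ SB' L, wI (J e) (dh (fun f => h (qv L f)) e)) *
          F fun f => h (qv L f)) h := by
    intro h
    by_cases h2 : ∀ v ∈ Pq L U, h v = 0
    · rw [if_pos h2, Set.indicator_of_mem (by exact h2), W_q]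
    · rw [if_neg h2, Set.indicator_of_notMem (by exact h2)]
  refine (tsum_congr h1).trans ?_
  rw [← tsum_subtype]
  rfl

/-- the additional bond is a constant factor -/
lemma FF_e0 (J : Bnd → ℝ) {L : ℕ} {U : Finset Z2} (hU : U ⊆ bxQ L) (F : (Z2 → ℤ) → ℝ) :
    FF J (SB' L) U F = wI (J e0) 0 * FF J (SQ L) U F := by
  unfold FF
  rw [← tsum_mul_left]
  refine tsum_congr fun h => ?_
  have h0 : e0 ∉ SQ L := by
    rw [mem_SQ, mem_bxQ]
    unfold e0
    simp
  unfold SB'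
  rw [Finset.prod_insert h0]
  have hz : ∀ f : Z2, f ∉ bxQ L → h.1 f = 0 := fun f hf => h.2 f fun h' => hf (hU h')
  have h1 : dh h.1 e0 = 0 := by
    unfold dh e0
    rw [lf_true, rt_true, hz _ (by rw [mem_bxQ]; simp only; omega),
      hz _ (by rw [mem_bxQ]; simp only; omega), sub_zero]
  rw [h1]
  ring

lemma li_q {L : ℕ} {ρ : Z2 → ℝ} (hρ : ∀ f, f ∉ bxQ L → ρ f = 0) (h : QV L → ℤ) :
    li (fun v => ρ (fc v)) h = ch (bxQ L) ρ fun f => h (qv L f) := by
  unfold li ch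
  have h1 : ∑ v : QV L, ρ (fc v) * (h v : ℝ) =
      ∑ v ∈ Finset.univ.filter (fun v : QV L => fc v ∈ bxQ L), ρ (fc v) * (h v : ℝ) := by
    symm
    refine Finset.sum_subset (Finset.subset_univ _) fun v _ hv => ?_
    rw [hρ (fc v) fun h2 => hv (Finset.mem_filter.2 ⟨Finset.mem_univ _, h2⟩), zero_mul]
  rw [h1]
  refine Finset.sum_nbij' (fun v => fc v) (fun f => qv L f) ?_ ?_ ?_ ?_ ?_
  · intro v hv
    exact (Finset.mem_filter.1 hv).2
  · intro f hf
    refine Finset.mem_filter.2 ⟨Finset.mem_univ _, ?_⟩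
    have h2 := mem_bxQ.1 hf
    rwa [fc_qv ⟨⟨by omega, h2.2.1⟩, by omega, h2.2.2.2⟩]
  · intro v _
    exact qv_fc v
  · intro f hf
    have h2 := mem_bxQ.1 hf
    exact fc_qv ⟨⟨by omega, h2.2.1⟩, by omega, h2.2.2.2⟩
  · intro v _
    simp only [qv_fc]

/-! ### the flow -/

lemma tele {L y : ℕ} (hy : y < L) (g : ℕ → ℝ) :
    ∑ x ∈ Finset.range L, (if x ≤ y then g (x + 1) - g x else 0) = g (y + 1) - g 0 := by
  rw [← Finset.sum_filter]
  have h1 : (Finset.range L).filter (fun x => x ≤ y) = Finset.range (y + 1) := by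
    ext x
    rw [Finset.mem_filter, Finset.mem_range, Finset.mem_range]
    omega
  rw [h1, Finset.sum_range_sub]

lemma sum_int (L : ℕ) (f : ℤ → ℝ) :
    ∑ x ∈ Finset.Ico (0 : ℤ) L, f x = ∑ x ∈ Finset.range L, f (x : ℤ) := by
  rw [Finset.range_eq_Ico]
  have h1 : Finset.Ico (0 : ℤ) L = (Finset.Ico 0 L).image fun n : ℕ => (n : ℤ) := by
    ext x
    rw [Finset.mem_image, Finset.mem_Ico]
    constructor
    · rintro ⟨h1, h2⟩
      exact ⟨x.toNat, Finset.mem_Ico.2 ⟨Nat.zero_le _, by omega⟩, by omega⟩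
    · rintro ⟨n, hn, rfl⟩
      have := Finset.mem_Ico.1 hn
      omega
  rw [h1, Finset.sum_image fun a _ b _ h => by exact_mod_cast h]

lemma sum_SQ (L : ℕ) (f : Bnd → ℝ) :
    ∑ e ∈ SQ L, f e = ∑ x ∈ Finset.range L, ∑ y ∈ Finset.range L,
      (f (((x : ℤ), (y : ℤ)), true) + f (((x : ℤ), (y : ℤ)), false)) := by
  unfold SQ bxQ
  rw [Finset.sum_product, Finset.sum_product, sum_int]
  refine Finset.sum_congr rfl fun x _ => ?_
  rw [sum_int]
  exact Finset.sum_congr rfl fun y _ => Fintype.sum_bool _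

/-- the flow from the left foot to the lower foot -/
noncomputable def fl (a : ℕ) (δ : ℝ) (e : Bnd) : ℝ :=
  if e.2 then (if e.1.1 ≤ e.1.2 ∧ (a : ℤ) ≤ e.1.2 then -(δ / (e.1.2 + 1)) else 0)
    else (if e.1.2 ≤ e.1.1 ∧ (a : ℤ) ≤ e.1.1 then -(δ / (e.1.1 + 1)) else 0)

/-- the harmonic sum -/
noncomputable def hs (a L : ℕ) : ℝ :=
  ∑ k ∈ Finset.range L, if a ≤ k then (1 : ℝ) / ((k : ℝ) + 1) else 0

lemma fl_true (a : ℕ) (δ : ℝ) (x y : ℕ) :
    fl a δ (((x : ℤ), (y : ℤ)), true) = if a ≤ y then (if x ≤ y then -(δ / ((y : ℝ) + 1)) else 0)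
      else 0 := by
  unfold fl
  simp only [if_true, Nat.cast_le]
  by_cases c1 : x ≤ y <;> by_cases c2 : a ≤ y <;> simp [c1, c2]

lemma fl_false (a : ℕ) (δ : ℝ) (x y : ℕ) :
    fl a δ (((x : ℤ), (y : ℤ)), false) = if a ≤ x then (if y ≤ x then -(δ / ((x : ℝ) + 1)) else 0)
      else 0 := by
  unfold fl
  simp only [Bool.false_eq_true, if_false, Nat.cast_le]
  by_cases c1 : y ≤ x <;> by_cases c2 : a ≤ x <;> simp [c1, c2]

lemma fl_e0 (a : ℕ) (δ : ℝ) : fl a δ e0 = 0 := by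
  unfold fl e0
  simp

/-- the flux -/
lemma flux (a L : ℕ) (δ : ℝ) (H : Z2 → ℤ) (h1 : ∀ k : ℕ, a ≤ k → k < L → H (-1, k) = 0)
    (h2 : ∀ k : ℕ, a ≤ k → k < L → H (k, -1) = 2) :
    ∑ e ∈ SQ L, fl a δ e * ((H (lf e) - H (rt e) : ℤ) : ℝ) = 2 * δ * hs a L := by
  rw [sum_SQ]
  have e1 : ∑ x ∈ Finset.range L, ∑ y ∈ Finset.range L,
      fl a δ (((x : ℤ), (y : ℤ)), true) *
        ((H (lf (((x : ℤ), (y : ℤ)), true)) - H (rt (((x : ℤ), (y : ℤ)), true)) : ℤ) : ℝ) =
      ∑ y ∈ Finset.range L, if a ≤ y then δ / ((y : ℝ) + 1) * (H (y, y) : ℝ) else 0 := by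
    rw [Finset.sum_comm]
    refine Finset.sum_congr rfl fun y hy => ?_
    have hy' := Finset.mem_range.1 hy
    by_cases c : a ≤ y
    · rw [if_pos c]
      have e2 := tele hy' fun x => ((H ((x : ℤ) - 1, (y : ℤ)) : ℤ) : ℝ)
      push_cast at e2
      rw [h1 y c hy', Int.cast_zero, sub_zero, show (y : ℤ) + 1 - 1 = y by ring] at e2
      rw [← e2, Finset.mul_sum]
      refine Finset.sum_congr rfl fun x _ => ?_
      rw [fl_true, if_pos c, lf_true, rt_true]
      by_cases c2 : x ≤ y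
      · rw [if_pos c2, if_pos c2, add_sub_cancel_right]
        push_cast
        ring
      · rw [if_neg c2, if_neg c2, zero_mul, mul_zero]
    · rw [if_neg c]
      refine Finset.sum_eq_zero fun x _ => ?_
      rw [fl_true, if_neg c, zero_mul]
  have e3 : ∑ x ∈ Finset.range L, ∑ y ∈ Finset.range L,
      fl a δ (((x : ℤ), (y : ℤ)), false) *
        ((H (lf (((x : ℤ), (y : ℤ)), false)) - H (rt (((x : ℤ), (y : ℤ)), false)) : ℤ) : ℝ) =
      ∑ x ∈ Finset.range L, if a ≤ x then -(δ / ((x : ℝ) + 1) * ((H (x, x) : ℝ) - 2)) else 0 := by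
    refine Finset.sum_congr rfl fun x hx => ?_
    have hx' := Finset.mem_range.1 hx
    by_cases c : a ≤ x
    · rw [if_pos c]
      have e2 := tele hx' fun y => ((H ((x : ℤ), (y : ℤ) - 1) : ℤ) : ℝ)
      push_cast at e2
      rw [h2 x c hx', Int.cast_ofNat, show (x : ℤ) + 1 - 1 = x by ring] at e2
      rw [← e2, ← neg_mul, Finset.mul_sum]
      refine Finset.sum_congr rfl fun y _ => ?_
      rw [fl_false, if_pos c, lf_false, rt_false]
      by_cases c2 : y ≤ x
      · rw [if_pos c2, if_pos c2, add_sub_cancel_right]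
        push_cast
        ring
      · rw [if_neg c2, if_neg c2, zero_mul, mul_zero]
    · rw [if_neg c]
      refine Finset.sum_eq_zero fun y _ => ?_
      rw [fl_false, if_neg c, zero_mul]
  simp only [Finset.sum_add_distrib]
  rw [e1, e3, ← Finset.sum_add_distrib]
  unfold hs
  rw [Finset.mul_sum]
  refine Finset.sum_congr rfl fun k _ => ?_
  by_cases c : a ≤ k
  · rw [if_pos c, if_pos c, if_pos c]
    field_simp
    ring
  · rw [if_neg c, if_neg c, if_neg c]
    ring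

/-- the energy -/
lemma energy (a L : ℕ) (δ : ℝ) : ∑ e ∈ SQ L, fl a δ e ^ 2 = 2 * δ ^ 2 * hs a L := by
  rw [sum_SQ]
  have e0 : ∀ y : ℕ, y < L → ∑ x ∈ Finset.range L, (if x ≤ y then (1 : ℝ) else 0) = (y : ℝ) + 1 := by
    intro y hy
    have := tele hy fun x => (x : ℝ)
    simp only [Nat.cast_add, Nat.cast_one, add_sub_cancel_left, Nat.cast_zero, sub_zero] at this
    exact this
  simp only [Finset.sum_add_distrib]
  have e1 : ∑ x ∈ Finset.range L, ∑ y ∈ Finset.range L,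
      fl a δ (((x : ℤ), (y : ℤ)), true) ^ 2 =
      ∑ y ∈ Finset.range L, if a ≤ y then δ ^ 2 * (1 / ((y : ℝ) + 1)) else 0 := by
    rw [Finset.sum_comm]
    refine Finset.sum_congr rfl fun y hy => ?_
    by_cases c : a ≤ y
    · rw [if_pos c]
      have h1 : ∀ x ∈ Finset.range L, fl a δ (((x : ℤ), (y : ℤ)), true) ^ 2 =
          (δ / ((y : ℝ) + 1)) ^ 2 * (if x ≤ y then 1 else 0) := by
        intro x _
        rw [fl_true, if_pos c]
        split_ifs <;> ring
      rw [Finset.sum_congr rfl h1, ← Finset.mul_sum, e0 y (Finset.mem_range.1 hy)]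
      field_simp
    · rw [if_neg c]
      refine Finset.sum_eq_zero fun x _ => ?_
      rw [fl_true, if_neg c]
      norm_num
  have e2 : ∑ x ∈ Finset.range L, ∑ y ∈ Finset.range L,
      fl a δ (((x : ℤ), (y : ℤ)), false) ^ 2 =
      ∑ x ∈ Finset.range L, if a ≤ x then δ ^ 2 * (1 / ((x : ℝ) + 1)) else 0 := by
    refine Finset.sum_congr rfl fun x hx => ?_
    by_cases c : a ≤ x
    · rw [if_pos c]
      have h1 : ∀ y ∈ Finset.range L, fl a δ (((x : ℤ), (y : ℤ)), false) ^ 2 =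
          (δ / ((x : ℝ) + 1)) ^ 2 * (if y ≤ x then 1 else 0) := by
        intro y _
        rw [fl_false, if_pos c]
        split_ifs <;> ring
      rw [Finset.sum_congr rfl h1, ← Finset.mul_sum, e0 x (Finset.mem_range.1 hx)]
      field_simp
    · rw [if_neg c]
      refine Finset.sum_eq_zero fun y _ => ?_
      rw [fl_false, if_neg c]
      norm_num
  rw [e1, e2, ← Finset.sum_add_distrib]
  unfold hs
  rw [Finset.mul_sum]
  refine Finset.sum_congr rfl fun k _ => ?_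
  by_cases c : a ≤ k
  · rw [if_pos c, if_pos c]
    ring
  · rw [if_neg c, if_neg c]
    ring

end Vale.Agent.P159.T1.H112
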