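import Vale.Agent.P159.T1.H112.QGeo

/-!
The quarter box (P159, plan 115, row D.far): paths from the far vertices to the region of the
charges meet the paths between the two feet.
-/

open MeasureTheory Filter Topology

namespace Vale.Agent.P159.T1.H112

open Vale.Agent.P159 Vale.Agent.P159.H353 Vale.Agent.P159.R2.H254 Vale.Agent.P159.R2.H729
  Vale.Agent.P159.T1.H934 Vale.Agent.P159.T1.D Vale.Agent.P159.T1.H532

/-- adjacency without the deleted vertices -/
lemma adj_sub {V E : Type} [DecidableEq V] {s t : E → V} {S : Finset V} {v w : V}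
    (h : adjG (s1 s t S) (t1 s t S) v w) : adjG s t v w ∧ v ∉ S ∧ w ∉ S := by
  obtain ⟨⟨e, h1, h2⟩, h | h⟩ := h
  · obtain ⟨h3, h4⟩ := h
    exact ⟨⟨e, Or.inl ⟨h3, h4⟩⟩, h3 ▸ h1, h4 ▸ h2⟩
  · obtain ⟨h3, h4⟩ := h
    exact ⟨⟨e, Or.inr ⟨h3, h4⟩⟩, h4 ▸ h2, h3 ▸ h1⟩

/-- outer faces -/
def dm {L : ℕ} (v : QV L) : Prop := (fc v).1 = -1 ∨ (fc v).2 = -1

/-- a row in the board -/
lemma row4 {L : ℕ} {P : Set (QV L)} {y : ℤ} (hy : -1 ≤ y) (hy' : y < L) (n : ℕ) :
    ∀ x : ℤ, -1 ≤ x → x + n < L → (∀ k : ℤ, x ≤ k → k ≤ x + n → qv L (k, y) ∈ P) →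
      Relation.ReflTransGen (fun a b => adj4 a b ∧ a ∈ P ∧ b ∈ P)
        (qv L (x, y)) (qv L (x + n, y)) := by
  induction n with
  | zero =>
    intro x _ _ _
    rw [Nat.cast_zero, add_zero]
  | succ n ih =>
    intro x hx hn hP
    push_cast at hn hP ⊢
    have h1 := ih x hx (by linarith) fun k hk hk' => hP k hk (by linarith)
    refine h1.tail ⟨?_, hP _ (by linarith) (by linarith), hP _ (by linarith) le_rfl⟩
    refine adj4_of_fc ?_
    rw [fc_qv (inE_mk (by linarith) (by linarith) hy hy'),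
      fc_qv (inE_mk (by linarith) (by linarith) hy hy')]
    simp only [sub_self, abs_zero, add_zero]
    rw [show x + (n : ℤ) - (x + ((n : ℤ) + 1)) = -1 by ring]
    norm_num

/-- a column in the board -/
lemma col4 {L : ℕ} {P : Set (QV L)} {x : ℤ} (hx : -1 ≤ x) (hx' : x < L) (n : ℕ) :
    ∀ y : ℤ, -1 ≤ y → y + n < L → (∀ k : ℤ, y ≤ k → k ≤ y + n → qv L (x, k) ∈ P) →
      Relation.ReflTransGen (fun a b => adj4 a b ∧ a ∈ P ∧ b ∈ P)
        (qv L (x, y)) (qv L (x, y + n)) := by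
  induction n with
  | zero =>
    intro y _ _ _
    rw [Nat.cast_zero, add_zero]
  | succ n ih =>
    intro y hy hn hP
    push_cast at hn hP ⊢
    have h1 := ih y hy (by linarith) fun k hk hk' => hP k hk (by linarith)
    refine h1.tail ⟨?_, hP _ (by linarith) (by linarith), hP _ (by linarith) le_rfl⟩
    refine adj4_of_fc ?_
    rw [fc_qv (inE_mk hx hx' (by linarith) (by linarith)),
      fc_qv (inE_mk hx hx' (by linarith) (by linarith))]
    simp only [sub_self, abs_zero, zero_add]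
    rw [show y + (n : ℤ) - (y + ((n : ℤ) + 1)) = -1 by ring]
    norm_num

/-- an outer face has only one neighbour -/
lemma uniq_q {L a : ℕ} (ha : 1 ≤ a) (hL : 1 ≤ L) {p q : QV L}
    (h : adjG (qs L) (qt L) p q) (hp : p ∉ Sq L a) (hq : q ∉ Sq L a) (hd : dm p) :
    ¬ dm q ∧ ((fc p).1 = -1 → (fc q).1 = 0 ∧ (fc q).2 = (fc p).2) ∧
      ((fc p).1 ≠ -1 → (fc q).1 = (fc p).1 ∧ (fc q).2 = 0) := by
  rw [mem_Sq_fc] at hp hq
  unfold dm at hd ⊢
  rcases adj_coord hL h with (⟨h2, h3, h4⟩ | ⟨h2, h3, h4⟩) | (⟨h2, h3, h4⟩ | ⟨h2, h3, h4⟩)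
  · have e1 := congrArg Prod.fst h2
    have e2 := congrArg Prod.snd h2
    simp only at e1 e2
    rcases h3 with h3 | h3
    · omega
    · have e3 := congrArg Prod.fst h3
      have e4 := congrArg Prod.snd h3
      simp only at e3 e4
      omega
  · have e1 := congrArg Prod.fst h2
    have e2 := congrArg Prod.snd h2
    simp only at e1 e2
    omega
  · have e1 := congrArg Prod.fst h2
    have e2 := congrArg Prod.snd h2
    simp only at e1 e2
    rcases h3 with h3 | h3
    · omega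
    · have e3 := congrArg Prod.fst h3
      have e4 := congrArg Prod.snd h3
      simp only at e3 e4
      omega
  · have e1 := congrArg Prod.fst h2
    have e2 := congrArg Prod.snd h2
    simp only at e1 e2
    omega

/-- **the crossing property** -/
theorem cross_q {L a : ℕ} (ha : 1 ≤ a) (hL : a + 2 ≤ L) :
    Cross (adjG (s1 (qs L) (qt L) (Sq L a)) (t1 (qs L) (qt L) (Sq L a)))
      (Aq L) (Bq L a) (Lq L a) (Rq L a) := by
  have hL1 : 1 ≤ L := by omega
  rintro M M' ⟨x, ⟨hxM, hxA⟩, y, ⟨hyM, hyB⟩, h1⟩ ⟨l, ⟨hlM, hlL⟩, r, ⟨hrM, hrR⟩, h2⟩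
  set M1 : Set (QV L) := {v | (v ∈ M ∧ ¬ dm v ∧ v ∉ Sq L a) ∨ v ∈ Sq L a} with hM1
  set M2 : Set (QV L) := {v | (v ∈ M' ∧ v ∉ Sq L a) ∨ (dm v ∧ v ∉ Sq L a)} with hM2
  -- coordinates of `x`
  have hx1 : 0 ≤ (fc x).1 ∧ (fc x).1 < L ∧ 0 ≤ (fc x).2 ∧ (fc x).2 < L := mem_bxQ.1 hxA.1
  have hx2 : (fc x).1 = L - 1 ∨ (fc x).2 = L - 1 := by
    have h3 := hxA.2
    rw [mem_bxQ] at h3
    push_cast [Nat.cast_sub hL1] at h3
    omega
  have hxd : ¬ dm x := by unfold dm; omega
  have hxS : x ∉ Sq L a := by rw [mem_Sq_fc]; omega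
  have hx3 : x ∈ M1 := Or.inl ⟨hxM, hxd, hxS⟩
  -- the chain without outer faces
  have key : ∀ z, Relation.ReflTransGen (fun p q =>
      adjG (s1 (qs L) (qt L) (Sq L a)) (t1 (qs L) (qt L) (Sq L a)) p q ∧ p ∈ M ∧ q ∈ M) x z →
      z ∉ Sq L a ∧ ((¬ dm z ∧ Relation.ReflTransGen (fun p q => adj4 p q ∧ p ∈ M1 ∧ q ∈ M1) x z) ∨
        (dm z ∧ ∃ w, ¬ dm w ∧ w ∈ M ∧ w ∉ Sq L a ∧ adjG (qs L) (qt L) z w ∧
          Relation.ReflTransGen (fun p q => adj4 p q ∧ p ∈ M1 ∧ q ∈ M1) x w)) := by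
    intro z hz
    induction hz with
    | refl => exact ⟨hxS, Or.inl ⟨hxd, .refl⟩⟩
    | @tail p q _ hpq ih =>
      obtain ⟨hp1, hp2⟩ := ih
      obtain ⟨hH, hpM, hqM⟩ := hpq
      obtain ⟨hadj, hpS, hqS⟩ := adj_sub hH
      refine ⟨hqS, ?_⟩
      rcases hp2 with ⟨hpd, hpath⟩ | ⟨hpd, w, hwd, hwM, hwS, hzw, hpath⟩
      · by_cases hqd : dm q
        · exact Or.inr ⟨hqd, p, hpd, hpM, hpS, adjG_symm hadj, hpath⟩
        · exact Or.inl ⟨hqd, hpath.tail ⟨adj4_of hL1 hadj, Or.inl ⟨hpM, hpd, hpS⟩,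
            Or.inl ⟨hqM, hqd, hqS⟩⟩⟩
      · have u1 := uniq_q ha hL1 hadj hpS hqS hpd
        have u2 := uniq_q ha hL1 hzw hpS hwS hpd
        have hqw : q = w := by
          apply fc_inj
          by_cases c : (fc p).1 = -1
          · have a1 := u1.2.1 c
            have a2 := u2.2.1 c
            exact Prod.ext (a1.1.trans a2.1.symm) (a1.2.trans a2.2.symm)
          · have a1 := u1.2.2 c
            have a2 := u2.2.2 c
            exact Prod.ext (a1.1.trans a2.1.symm) (a1.2.trans a2.2.symm)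
        exact Or.inl ⟨u1.1, hqw ▸ hpath⟩
  obtain ⟨hyS, hy⟩ := key y h1
  -- the neighbour of `y` in the deleted square
  obtain ⟨w, hwS, hyw⟩ : ∃ w ∈ Sq L a, adjG (qs L) (qt L) y w := by
    rcases hyB with h | h
    · exact absurd h hyS
    · exact h
  have hyd : ¬ dm y := by
    intro hd
    have hyS' := hyS
    rw [mem_Sq_fc] at hyS'
    have hwS' := mem_Sq_fc.1 hwS
    unfold dm at hd
    rcases adj_coord hL1 hyw with (⟨h2, h3, h4⟩ | ⟨h2, h3, h4⟩) | (⟨h2, h3, h4⟩ | ⟨h2, h3, h4⟩)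
    · have e1 := congrArg Prod.fst h2
      have e2 := congrArg Prod.snd h2
      simp only at e1 e2
      rcases h3 with h3 | h3
      · omega
      · have e3 := congrArg Prod.fst h3
        have e4 := congrArg Prod.snd h3
        simp only at e3 e4
        omega
    · have e1 := congrArg Prod.fst h2
      have e2 := congrArg Prod.snd h2
      simp only at e1 e2
      omega
    · have e1 := congrArg Prod.fst h2
      have e2 := congrArg Prod.snd h2
      simp only at e1 e2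
      rcases h3 with h3 | h3
      · omega
      · have e3 := congrArg Prod.fst h3
        have e4 := congrArg Prod.snd h3
        simp only at e3 e4
        omega
    · have e1 := congrArg Prod.fst h2
      have e2 := congrArg Prod.snd h2
      simp only at e1 e2
      omega
  have hpxy : Relation.ReflTransGen (fun p q => adj4 p q ∧ p ∈ M1 ∧ q ∈ M1) x y := by
    rcases hy with h | h
    · exact h.2
    · exact absurd h.1 hyd
  have hpxw : Relation.ReflTransGen (fun p q => adj4 p q ∧ p ∈ M1 ∧ q ∈ M1) x w :=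
    hpxy.tail ⟨adj4_of hL1 hyw, Or.inl ⟨hyM, hyd, hyS⟩, Or.inr hwS⟩
  have hflip1 : ∀ p q : QV L, (adj4 p q ∧ p ∈ M1 ∧ q ∈ M1) → (adj4 q p ∧ q ∈ M1 ∧ p ∈ M1) :=
    fun p q h => ⟨adj4_symm h.1, h.2.2, h.2.1⟩
  have hflip2 : ∀ p q : QV L, (adj4 p q ∧ p ∈ M2 ∧ q ∈ M2) → (adj4 q p ∧ q ∈ M2 ∧ p ∈ M2) :=
    fun p q h => ⟨adj4_symm h.1, h.2.2, h.2.1⟩
  -- the chain between the feet
  have hl := inE_fc l
  have hr := inE_fc r
  obtain ⟨hl1, hl2⟩ := hlL
  obtain ⟨hr1, hr2⟩ := hrR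
  obtain ⟨⟨-, hl3⟩, -, hl4⟩ := hl
  obtain ⟨⟨-, hr3⟩, -, hr4⟩ := hr
  have hlS : l ∉ Sq L a := by rw [mem_Sq_fc]; omega
  have hrS : r ∉ Sq L a := by rw [mem_Sq_fc]; omega
  have hplr : Relation.ReflTransGen (fun p q => adj4 p q ∧ p ∈ M2 ∧ q ∈ M2) l r := by
    refine Relation.ReflTransGen.mono (fun p q hpq => ?_) _ _ h2
    obtain ⟨hadj, hpS, hqS⟩ := adj_sub hpq.1
    exact ⟨adj4_of hL1 hadj, Or.inl ⟨hpq.2.1, hpS⟩, Or.inl ⟨hpq.2.2, hqS⟩⟩
  -- coordinates of `w`
  have hw1 := mem_Sq_fc.1 hwS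
  obtain ⟨⟨hw2, hw3⟩, hw4, hw5⟩ := inE_fc w
  have hval1 : ∀ v : QV L, ((v.1 : ℕ) : ℤ) = (fc v).1 + 1 := fun v => by
    unfold fc
    simp
  have hval2 : ∀ v : QV L, ((v.2 : ℕ) : ℤ) = (fc v).2 + 1 := fun v => by
    unfold fc
    simp
  have hMM : (M1 ∩ M2).Nonempty := by
    rcases hx2 with hx2 | hx2
    · -- from the right side to the left side
      have hp := row4 (L := L) (P := M1) (y := (fc w).2) hw4 hw5 ((fc w).1 + 1).toNat (-1) le_rfl
        (by omega) (fun k hk hk' => Or.inr (mem_Sq_fc.2 (by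
          rw [fc_qv (inE_mk hk (by omega) hw4 hw5)]
          exact ⟨by show k < a; omega, hw1.2⟩)))
      rw [show (-1 : ℤ) + (((fc w).1 + 1).toNat : ℤ) = (fc w).1 by omega,
        show ((fc w).1, (fc w).2) = fc w from rfl, qv_fc] at hp
      have c1 : Cn adj4 M1 P198.PlanarTop.lft P198.PlanarTop.rgt := by
        refine ⟨qv L (-1, (fc w).2), ⟨Or.inr (mem_Sq_fc.2 ?_), ?_⟩, x, ⟨hx3, ?_⟩,
          hp.trans (rtg_flip hflip1 hpxw)⟩
        · rw [fc_qv (inE_mk le_rfl (by omega) hw4 hw5)]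
          exact ⟨by show (-1 : ℤ) < a; omega, hw1.2⟩
        · show ((qv L (-1, (fc w).2)).1 : ℕ) = 0
          have := hval1 (qv L (-1, (fc w).2))
          rw [fc_qv (inE_mk le_rfl (by omega) hw4 hw5)] at this
          simp only at this
          omega
        · show (x.1 : ℕ) + 1 = L + 1
          have := hval1 x
          omega
      have hq := col4 (L := L) (P := M2) (x := -1) le_rfl (by omega) (L - 1 - (fc l).2).toNat
        (fc l).2 (by omega) (by omega) (fun k hk hk' => Or.inr ⟨Or.inl (by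
          rw [fc_qv (inE_mk le_rfl (by omega) (by omega) (by omega))]), (by
          rw [mem_Sq_fc, fc_qv (inE_mk le_rfl (by omega) (by omega) (by omega))]
          simp only
          omega)⟩)
      rw [show (fc l).2 + ((L - 1 - (fc l).2).toNat : ℤ) = L - 1 by omega,
        show ((-1 : ℤ), (fc l).2) = fc l from Prod.ext hl1.symm rfl, qv_fc] at hq
      have c2 : Cn adj4 M2 P198.PlanarTop.bot P198.PlanarTop.top' := by
        refine ⟨r, ⟨Or.inl ⟨hrM, hrS⟩, ?_⟩, qv L (-1, (L : ℤ) - 1), ⟨Or.inr ⟨Or.inl ?_, ?_⟩, ?_⟩,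
          (rtg_flip hflip2 hplr).trans hq⟩
        · show (r.2 : ℕ) = 0
          have := hval2 r
          omega
        · rw [fc_qv (inE_mk le_rfl (by omega) (by omega) (by omega))]
        · rw [mem_Sq_fc, fc_qv (inE_mk le_rfl (by omega) (by omega) (by omega))]
          simp only
          omega
        · show ((qv L (-1, (L : ℤ) - 1)).2 : ℕ) + 1 = L + 1
          have := hval2 (qv L (-1, (L : ℤ) - 1))
          rw [fc_qv (inE_mk le_rfl (by omega) (by omega) (by omega))] at this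
          simp only at this
          omega
      exact cross4 (L + 1) (L + 1) M1 M2 c1 c2
    · -- from the upper side to the lower side
      have hp := col4 (L := L) (P := M1) (x := (fc w).1) hw2 hw3 ((fc w).2 + 1).toNat (-1) le_rfl
        (by omega) (fun k hk hk' => Or.inr (mem_Sq_fc.2 (by
          rw [fc_qv (inE_mk hw2 hw3 hk (by omega))]
          exact ⟨hw1.1, by show k < a; omega⟩)))
      rw [show (-1 : ℤ) + (((fc w).2 + 1).toNat : ℤ) = (fc w).2 by omega,
        show ((fc w).1, (fc w).2) = fc w from rfl, qv_fc] at hp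
      have c1 : Cn adj4 M1 P198.PlanarTop.bot P198.PlanarTop.top' := by
        refine ⟨qv L ((fc w).1, -1), ⟨Or.inr (mem_Sq_fc.2 ?_), ?_⟩, x, ⟨hx3, ?_⟩,
          hp.trans (rtg_flip hflip1 hpxw)⟩
        · rw [fc_qv (inE_mk hw2 hw3 le_rfl (by omega))]
          exact ⟨hw1.1, by show (-1 : ℤ) < a; omega⟩
        · show ((qv L ((fc w).1, -1)).2 : ℕ) = 0
          have := hval2 (qv L ((fc w).1, -1))
          rw [fc_qv (inE_mk hw2 hw3 le_rfl (by omega))] at this
          simp only at this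
          omega
        · show (x.2 : ℕ) + 1 = L + 1
          have := hval2 x
          omega
      have hq := row4 (L := L) (P := M2) (y := -1) le_rfl (by omega) (L - 1 - (fc r).1).toNat
        (fc r).1 (by omega) (by omega) (fun k hk hk' => Or.inr ⟨Or.inr (by
          rw [fc_qv (inE_mk (by omega) (by omega) le_rfl (by omega))]), (by
          rw [mem_Sq_fc, fc_qv (inE_mk (by omega) (by omega) le_rfl (by omega))]
          simp only
          omega)⟩)
      rw [show (fc r).1 + ((L - 1 - (fc r).1).toNat : ℤ) = L - 1 by omega,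
        show ((fc r).1, (-1 : ℤ)) = fc r from Prod.ext rfl hr2.symm, qv_fc] at hq
      have c2 : Cn adj4 M2 P198.PlanarTop.lft P198.PlanarTop.rgt := by
        refine ⟨l, ⟨Or.inl ⟨hlM, hlS⟩, ?_⟩, qv L ((L : ℤ) - 1, -1), ⟨Or.inr ⟨Or.inr ?_, ?_⟩, ?_⟩,
          hplr.trans hq⟩
        · show (l.1 : ℕ) = 0
          have := hval1 l
          omega
        · rw [fc_qv (inE_mk (by omega) (by omega) le_rfl (by omega))]
        · rw [mem_Sq_fc, fc_qv (inE_mk (by omega) (by omega) le_rfl (by omega))]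
          simp only
          omega
        · show ((qv L ((L : ℤ) - 1, -1)).1 : ℕ) + 1 = L + 1
          have := hval1 (qv L ((L : ℤ) - 1, -1))
          rw [fc_qv (inE_mk (by omega) (by omega) le_rfl (by omega))] at this
          simp only at this
          omega
      rw [Set.inter_comm]
      exact cross4 (L + 1) (L + 1) M2 M1 c2 c1
  obtain ⟨v, hv1, hv2⟩ := hMM
  rcases hv2 with ⟨hv2, hv3⟩ | ⟨hv2, hv3⟩
  · rcases hv1 with hv1 | hv1
    · exact ⟨v, hv1.1, hv2⟩
    · exact absurd hv1 hv3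
  · rcases hv1 with hv1 | hv1
    · exact absurd hv2 hv1.2.1
    · exact absurd hv1 hv3

end Vale.Agent.P159.T1.H112
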