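import Vale.Agent.P159.T1.H112.FarLim
import Vale.Agent.P159.T1.H112.MS
import Vale.Agent.P159.T1.H532.QDefs

/-!
The quarter box (P159, plan 115, row D.far): the graph with separate outer faces, its crossing
property.
-/

open MeasureTheory Filter Topology

namespace Vale.Agent.P159.T1.H112

open Vale.Agent.P159 Vale.Agent.P159.H353 Vale.Agent.P159.R2.H254 Vale.Agent.P159.R2.H729
  Vale.Agent.P159.T1.H934 Vale.Agent.P159.T1.D Vale.Agent.P159.T1.H532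

/-- the vertices: the faces of `[-1, L)²` -/
abbrev QV (L : ℕ) : Type := Fin (L + 1) × Fin (L + 1)

/-- coordinate of a face -/
def qc (L : ℕ) (x : ℤ) : Fin (L + 1) := ⟨min (x + 1).toNat L, by omega⟩

/-- the face lies in `[-1, L)²` -/
def InE (L : ℕ) (f : Z2) : Prop := (-1 ≤ f.1 ∧ f.1 < L) ∧ -1 ≤ f.2 ∧ f.2 < L

instance (L : ℕ) (f : Z2) : Decidable (InE L f) := by unfold InE; infer_instance

lemma inE_mk {L : ℕ} {x y : ℤ} (h1 : -1 ≤ x) (h2 : x < L) (h3 : -1 ≤ y) (h4 : y < L) :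
    InE L (x, y) := ⟨⟨h1, h2⟩, h3, h4⟩

/-- the vertex of a face -/
def qv (L : ℕ) (f : Z2) : QV L := if InE L f then (qc L f.1, qc L f.2) else (0, 0)

/-- the face of a vertex -/
def fc {L : ℕ} (v : QV L) : Z2 := (((v.1 : ℕ) : ℤ) - 1, ((v.2 : ℕ) : ℤ) - 1)

lemma inE_fc {L : ℕ} (v : QV L) : InE L (fc v) := by
  have h1 := v.1.2
  have h2 := v.2.2
  unfold InE fc
  constructor <;> constructor <;> simp only <;> omega

lemma fc_qv {L : ℕ} {f : Z2} (hf : InE L f) : fc (qv L f) = f := by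
  unfold qv fc
  rw [if_pos hf]
  obtain ⟨⟨h1, h2⟩, h3, h4⟩ := hf
  refine Prod.ext ?_ ?_
  · show (((qc L f.1 : Fin (L + 1)) : ℕ) : ℤ) - 1 = f.1
    unfold qc
    simp only
    omega
  · show (((qc L f.2 : Fin (L + 1)) : ℕ) : ℤ) - 1 = f.2
    unfold qc
    simp only
    omega

lemma fc_inj {L : ℕ} {v w : QV L} (h : fc v = fc w) : v = w := by
  have h1 := congrArg Prod.fst h
  have h2 := congrArg Prod.snd h
  unfold fc at h1 h2
  simp only at h1 h2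
  refine Prod.ext (Fin.ext ?_) (Fin.ext ?_) <;> omega

lemma qv_fc {L : ℕ} (v : QV L) : qv L (fc v) = v := fc_inj (fc_qv (inE_fc v))

lemma qv_not {L : ℕ} {f : Z2} (hf : ¬ InE L f) : fc (qv L f) = (-1, -1) := by
  unfold qv fc
  rw [if_neg hf]
  simp

/-- the additional bond -/
def e0 : Bnd := ((0, -1), true)

/-- the bonds -/
noncomputable def SB' (L : ℕ) : Finset Bnd := insert e0 (SQ L)

/-- first end point -/
def qs (L : ℕ) (e : {e : Bnd // e ∈ SB' L}) : QV L := qv L (rt e.1)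

/-- second end point -/
def qt (L : ℕ) (e : {e : Bnd // e ∈ SB' L}) : QV L := qv L (lf e.1)

lemma mem_SB' {L : ℕ} {e : Bnd} : e ∈ SB' L ↔ e = e0 ∨ e.1 ∈ bxQ L := by
  unfold SB'
  rw [Finset.mem_insert, mem_SQ]

lemma rt_true (x y : ℤ) : rt ((x, y), true) = (x, y) := rfl
lemma lf_true (x y : ℤ) : lf ((x, y), true) = (x - 1, y) := rfl
lemma rt_false (x y : ℤ) : rt ((x, y), false) = (x, y - 1) := rfl
lemma lf_false (x y : ℤ) : lf ((x, y), false) = (x, y) := rfl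

/-- the ends of a bond -/
lemma ends {L : ℕ} (hL : 1 ≤ L) {e : Bnd} (he : e ∈ SB' L) :
    (InE L (rt e) ∧ InE L (lf e)) ∧
      ((lf e = ((rt e).1 - 1, (rt e).2) ∧ (0 ≤ (rt e).2 ∨ rt e = (0, -1)) ∧ 0 ≤ (rt e).1) ∨
        (lf e = ((rt e).1, (rt e).2 + 1) ∧ 0 ≤ (rt e).1 ∧ 0 ≤ (lf e).2)) := by
  rcases mem_SB'.1 he with rfl | he
  · unfold e0
    rw [rt_true, lf_true]
    refine ⟨⟨?_, ?_⟩, Or.inl ⟨rfl, Or.inr rfl, le_rfl⟩⟩ <;> unfold InE <;>
      constructor <;> constructor <;> simp <;> omega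
  · obtain ⟨⟨x, y⟩, τ⟩ := e
    obtain ⟨h1, h2, h3, h4⟩ := mem_bxQ.1 he
    simp only at h1 h2 h3 h4
    cases τ
    · rw [rt_false, lf_false]
      refine ⟨⟨?_, ?_⟩, Or.inr ⟨by simp, h1, h3⟩⟩ <;> unfold InE <;>
        constructor <;> constructor <;> simp only <;> omega
    · rw [rt_true, lf_true]
      refine ⟨⟨?_, ?_⟩, Or.inl ⟨rfl, Or.inl h3, h1⟩⟩ <;> unfold InE <;>
        constructor <;> constructor <;> simp only <;> omega

/-- adjacent vertices in coordinates -/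
lemma adj_coord {L : ℕ} (hL : 1 ≤ L) {v w : QV L} (h : adjG (qs L) (qt L) v w) :
    ((fc w = ((fc v).1 - 1, (fc v).2) ∧ (0 ≤ (fc v).2 ∨ fc v = (0, -1)) ∧ 0 ≤ (fc v).1) ∨
      (fc w = ((fc v).1, (fc v).2 - 1) ∧ 0 ≤ (fc v).1 ∧ 0 ≤ (fc v).2)) ∨
    ((fc v = ((fc w).1 - 1, (fc w).2) ∧ (0 ≤ (fc w).2 ∨ fc w = (0, -1)) ∧ 0 ≤ (fc w).1) ∨
      (fc v = ((fc w).1, (fc w).2 - 1) ∧ 0 ≤ (fc w).1 ∧ 0 ≤ (fc w).2)) := by
  obtain ⟨⟨e, he⟩, h⟩ := h
  obtain ⟨⟨h1, h2⟩, h3⟩ := ends hL he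
  have e1 : fc (qs L ⟨e, he⟩) = rt e := fc_qv h1
  have e2 : fc (qt L ⟨e, he⟩) = lf e := fc_qv h2
  rcases h with ⟨rfl, rfl⟩ | ⟨rfl, rfl⟩
  · rw [e1, e2]
    rcases h3 with h3 | ⟨h3, h4, h5⟩
    · exact Or.inl (Or.inl h3)
    · refine Or.inr (Or.inr ⟨?_, ?_, h5⟩)
      · rw [h3]; simp
      · rw [h3]; exact h4
  · rw [e1, e2]
    rcases h3 with h3 | ⟨h3, h4, h5⟩
    · exact Or.inr (Or.inl h3)
    · refine Or.inl (Or.inr ⟨?_, ?_, h5⟩)
      · rw [h3]; simp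
      · rw [h3]; exact h4

lemma adj4_of_fc {L : ℕ} {v w : QV L} (h : |(fc v).1 - (fc w).1| + |(fc v).2 - (fc w).2| = 1) :
    adj4 v w := by
  unfold fc at h
  unfold adj4
  simp only at h
  rw [← h]
  congr 2 <;> ring

lemma adj4_of {L : ℕ} (hL : 1 ≤ L) {v w : QV L} (h : adjG (qs L) (qt L) v w) : adj4 v w := by
  refine adj4_of_fc ?_
  rcases adj_coord hL h with (⟨h1, -⟩ | ⟨h1, -⟩) | (⟨h1, -⟩ | ⟨h1, -⟩) <;> rw [h1] <;> simp

lemma adj4_symm {L : ℕ} {v w : QV L} (h : adj4 v w) : adj4 w v := by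
  unfold adj4 at h ⊢
  rw [abs_sub_comm, abs_sub_comm ((w.2 : ℕ) : ℤ)]
  exact h

/-- the left neighbour -/
lemma adj_left {L : ℕ} {x y : ℤ} (hx : 0 ≤ x) (hx' : x < L) (hy : 0 ≤ y) (hy' : y < L) :
    adjG (qs L) (qt L) (qv L (x, y)) (qv L (x - 1, y)) :=
  ⟨⟨((x, y), true), mem_SB'.2 (Or.inr (mem_bxQ.2 ⟨hx, hx', hy, hy'⟩))⟩, Or.inl ⟨rfl, rfl⟩⟩

/-- the lower neighbour -/
lemma adj_down {L : ℕ} {x y : ℤ} (hx : 0 ≤ x) (hx' : x < L) (hy : 0 ≤ y) (hy' : y < L) :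
    adjG (qs L) (qt L) (qv L (x, y)) (qv L (x, y - 1)) :=
  ⟨⟨((x, y), false), mem_SB'.2 (Or.inr (mem_bxQ.2 ⟨hx, hx', hy, hy'⟩))⟩, Or.inr ⟨rfl, rfl⟩⟩

lemma adj_e0 (L : ℕ) : adjG (qs L) (qt L) (qv L (0, -1)) (qv L (-1, -1)) :=
  ⟨⟨e0, mem_SB'.2 (Or.inl rfl)⟩, Or.inl ⟨rfl, rfl⟩⟩

/-- a path to the left -/
lemma row_path {L : ℕ} (P : QV L → Prop) {y : ℤ} (hy : 0 ≤ y) (hy' : y < L) (n : ℕ) :
    ∀ x : ℤ, -1 ≤ x → x + n < L → (∀ k : ℤ, x ≤ k → k ≤ x + n → P (qv L (k, y))) →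
      Relation.ReflTransGen (fun a b => adjG (qs L) (qt L) a b ∧ P a ∧ P b)
        (qv L (x + n, y)) (qv L (x, y)) := by
  induction n with
  | zero =>
    intro x _ _ _
    rw [Nat.cast_zero, add_zero]
  | succ n ih =>
    intro x hx hn hP
    push_cast at hn hP ⊢
    have h1 := ih x hx (by linarith) fun k hk hk' => hP k hk (by linarith)
    refine Relation.ReflTransGen.head ⟨?_, hP _ (by linarith) le_rfl,
      hP _ (by linarith) (by linarith)⟩ h1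
    have h2 := adj_left (L := L) (x := x + (n + 1)) (y := y) (by linarith) hn hy hy'
    rwa [show x + ((n : ℤ) + 1) - 1 = x + n by ring] at h2

/-- a path downwards -/
lemma col_path {L : ℕ} (P : QV L → Prop) {x : ℤ} (hx : 0 ≤ x) (hx' : x < L) (n : ℕ) :
    ∀ y : ℤ, -1 ≤ y → y + n < L → (∀ k : ℤ, y ≤ k → k ≤ y + n → P (qv L (x, k))) →
      Relation.ReflTransGen (fun a b => adjG (qs L) (qt L) a b ∧ P a ∧ P b)
        (qv L (x, y + n)) (qv L (x, y)) := by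
  induction n with
  | zero =>
    intro y _ _ _
    rw [Nat.cast_zero, add_zero]
  | succ n ih =>
    intro y hy hn hP
    push_cast at hn hP ⊢
    have h1 := ih y hy (by linarith) fun k hk hk' => hP k hk (by linarith)
    refine Relation.ReflTransGen.head ⟨?_, hP _ (by linarith) le_rfl,
      hP _ (by linarith) (by linarith)⟩ h1
    have h2 := adj_down (L := L) (x := x) (y := y + (n + 1)) hx hx' (by linarith) hn
    rwa [show y + ((n : ℤ) + 1) - 1 = y + n by ring] at h2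

lemma rtg_flip {V : Type} {r : V → V → Prop} (hr : ∀ a b, r a b → r b a) {a b : V}
    (h : Relation.ReflTransGen r a b) : Relation.ReflTransGen r b a := by
  induction h with
  | refl => exact .refl
  | tail _ h1 ih => exact Relation.ReflTransGen.head (hr _ _ h1) ih

/-- the graph is connected -/
lemma conn_q {L : ℕ} (hL : 1 ≤ L) : Conn (qs L) (qt L) := by
  have key1 : ∀ x y : ℤ, 0 ≤ x → x < L → 0 ≤ y → y < L →
      Relation.ReflTransGen (adjG (qs L) (qt L)) (qv L (x, y)) (qv L (-1, -1)) := by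
    intro x y hx hx' hy hy'
    have h1 := row_path (L := L) (fun _ => True) hy hy' x.toNat 0 (by norm_num) (by omega)
      (fun _ _ _ => trivial)
    have h2 := col_path (L := L) (fun _ => True) (x := 0) le_rfl (by omega) (y + 1).toNat (-1)
      le_rfl (by omega) (fun _ _ _ => trivial)
    rw [show (0 : ℤ) + (x.toNat : ℤ) = x by omega] at h1
    rw [show (-1 : ℤ) + ((y + 1).toNat : ℤ) = y by omega] at h2
    exact ((Relation.ReflTransGen.mono (fun a b h => h.1) _ _ h1).trans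
      (Relation.ReflTransGen.mono (fun a b h => h.1) _ _ h2)).tail (adj_e0 L)
  have key : ∀ v : QV L, Relation.ReflTransGen (adjG (qs L) (qt L)) v (qv L (-1, -1)) := by
    intro v
    obtain ⟨⟨h1, h2⟩, h3, h4⟩ := inE_fc v
    rw [← qv_fc v]
    by_cases c1 : (fc v).1 = -1
    · by_cases c2 : (fc v).2 = -1
      · rw [show fc v = (-1, -1) from Prod.ext c1 c2]
      · have h5 := adj_left (L := L) (x := 0) (y := (fc v).2) le_rfl (by omega) (by omega) h4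
        rw [show fc v = ((0 : ℤ) - 1, (fc v).2) from Prod.ext (by rw [c1]; norm_num) rfl]
        exact Relation.ReflTransGen.head (adjG_symm h5)
          (key1 0 _ le_rfl (by omega) (by omega) h4)
    · by_cases c2 : (fc v).2 = -1
      · have h5 := adj_down (L := L) (x := (fc v).1) (y := 0) (by omega) h2 le_rfl (by omega)
        rw [show fc v = ((fc v).1, (0 : ℤ) - 1) from Prod.ext rfl (by rw [c2]; norm_num)]
        exact Relation.ReflTransGen.head (adjG_symm h5)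
          (key1 _ 0 (by omega) h2 le_rfl (by omega))
      · exact key1 (fc v).1 (fc v).2 (by omega) h2 (by omega) h4
  intro u v
  exact (key u).trans (rtg_flip (fun a b h => adjG_symm h) (key v))

/-! ### the sets -/

/-- the deleted vertices -/
def Sq (L a : ℕ) : Finset (QV L) :=
  Finset.univ.filter fun v => (v.1 : ℕ) ≤ a ∧ (v.2 : ℕ) ≤ a

lemma mem_Sq {L a : ℕ} {v : QV L} : v ∈ Sq L a ↔ (v.1 : ℕ) ≤ a ∧ (v.2 : ℕ) ≤ a := by
  unfold Sq
  rw [Finset.mem_filter]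
  exact ⟨fun h => h.2, fun h => ⟨Finset.mem_univ _, h⟩⟩

lemma mem_Sq_fc {L a : ℕ} {v : QV L} : v ∈ Sq L a ↔ (fc v).1 < a ∧ (fc v).2 < a := by
  rw [mem_Sq]
  unfold fc
  constructor
  · rintro ⟨h1, h2⟩
    constructor <;> simp only <;> omega
  · rintro ⟨h1, h2⟩
    simp only at h1 h2
    constructor <;> omega

/-- the region of the charges -/
def Bq (L a : ℕ) : Set (QV L) := {v | v ∈ Sq L a ∨ ∃ w ∈ Sq L a, adjG (qs L) (qt L) v w}

/-- the pinned vertices -/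
def Zq (L : ℕ) : Set (QV L) := {v | fc v ∉ bxQ L}

/-- the far vertices -/
def Aq (L : ℕ) : Set (QV L) := {v | fc v ∈ bxQ L ∧ fc v ∉ bxQ (L - 1)}

/-- the left foot -/
def Lq (L a : ℕ) : Set (QV L) := {v | (fc v).1 = -1 ∧ (a : ℤ) ≤ (fc v).2}

/-- the lower foot -/
def Rq (L a : ℕ) : Set (QV L) := {v | (a : ℤ) ≤ (fc v).1 ∧ (fc v).2 = -1}

lemma RS_q {L a : ℕ} (hL : 1 ≤ L) : RS (qs L) (qt L) (Zq L) (Sq L a) := by
  intro v hv
  obtain ⟨⟨h1, h2⟩, h3, h4⟩ := inE_fc v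
  rw [mem_Sq_fc, not_and_or, not_lt, not_lt] at hv
  have hflip : ∀ a' b', (adjG (qs L) (qt L) a' b' ∧ a' ∉ Sq L a ∧ b' ∉ Sq L a) →
      (adjG (qs L) (qt L) b' a' ∧ b' ∉ Sq L a ∧ a' ∉ Sq L a) :=
    fun a' b' h => ⟨adjG_symm h.1, h.2.2, h.2.1⟩
  have hq : ∀ x y : ℤ, InE L (x, y) → (qv L (x, y) ∉ Sq L a ↔ (a : ℤ) ≤ x ∨ (a : ℤ) ≤ y) := by
    intro x y h
    rw [mem_Sq_fc, fc_qv h, not_and_or, not_lt, not_lt]
  rcases hv with hv | hv
  · -- to the right of the deleted square: a path downwards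
    refine ⟨qv L ((fc v).1, -1), ?_, ?_, ?_⟩
    · show fc (qv L ((fc v).1, -1)) ∉ bxQ L
      rw [fc_qv (inE_mk h1 h2 le_rfl (by omega)), mem_bxQ]
      simp only
      omega
    · exact (hq _ _ (inE_mk h1 h2 le_rfl (by omega))).2 (Or.inl hv)
    · have h5 := col_path (L := L) (fun w => w ∉ Sq L a) (x := (fc v).1) (by omega) h2
        ((fc v).2 + 1).toNat (-1) le_rfl (by omega) (fun k hk hk' =>
          (hq _ _ (inE_mk h1 h2 hk (by omega))).2 (Or.inl hv))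
      rw [show (-1 : ℤ) + (((fc v).2 + 1).toNat : ℤ) = (fc v).2 by omega] at h5
      have h6 := rtg_flip hflip h5
      rwa [show ((fc v).1, (fc v).2) = fc v from rfl, qv_fc] at h6
  · refine ⟨qv L (-1, (fc v).2), ?_, ?_, ?_⟩
    · show fc (qv L (-1, (fc v).2)) ∉ bxQ L
      rw [fc_qv (inE_mk le_rfl (by omega) h3 h4), mem_bxQ]
      simp only
      omega
    · exact (hq _ _ (inE_mk le_rfl (by omega) h3 h4)).2 (Or.inr hv)
    · have h5 := row_path (L := L) (fun w => w ∉ Sq L a) (y := (fc v).2) (by omega) h4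
        ((fc v).1 + 1).toNat (-1) le_rfl (by omega) (fun k hk hk' =>
          (hq _ _ (inE_mk hk (by omega) h3 h4)).2 (Or.inr hv))
      rw [show (-1 : ℤ) + (((fc v).1 + 1).toNat : ℤ) = (fc v).1 by omega] at h5
      have h6 := rtg_flip hflip h5
      rwa [show ((fc v).1, (fc v).2) = fc v from rfl, qv_fc] at h6

lemma RS_q0 {L : ℕ} (hL : 1 ≤ L) : RS (qs L) (qt L) (Zq L) ∅ := by
  intro v _
  obtain ⟨⟨h1, h2⟩, h3, h4⟩ := inE_fc v
  by_cases c : (fc v).2 = -1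
  · refine ⟨v, ?_, Finset.notMem_empty _, .refl⟩
    show fc v ∉ bxQ L
    rw [mem_bxQ]
    omega
  · refine ⟨qv L (-1, (fc v).2), ?_, Finset.notMem_empty _, ?_⟩
    · show fc (qv L (-1, (fc v).2)) ∉ bxQ L
      rw [fc_qv (inE_mk le_rfl (by omega) h3 h4), mem_bxQ]
      simp only
      omega
    · have h5 := row_path (L := L) (fun w => w ∉ (∅ : Finset (QV L))) (y := (fc v).2)
        (by omega) h4 ((fc v).1 + 1).toNat (-1) le_rfl (by omega) (fun k hk hk' =>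
          Finset.notMem_empty _)
      rw [show (-1 : ℤ) + (((fc v).1 + 1).toNat : ℤ) = (fc v).1 by omega] at h5
      have h6 := rtg_flip (fun a' b' h => ⟨adjG_symm h.1, h.2.2, h.2.1⟩) h5
      rwa [show ((fc v).1, (fc v).2) = fc v from rfl, qv_fc] at h6

lemma nb_q {L a : ℕ} : ∀ v ∈ Sq L a, v ∈ Bq L a ∧ ∀ u, adjG (qs L) (qt L) u v → u ∈ Bq L a :=
  fun v hv => ⟨Or.inl hv, fun _ hu => Or.inr ⟨v, hv, hu⟩⟩

lemma Z1_q {L a : ℕ} : Z1 (Zq L) (Sq L a) = Lq L a ∪ Rq L a ∪ {v | v ∈ Sq L a} := by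
  ext v
  obtain ⟨⟨h1, h2⟩, h3, h4⟩ := inE_fc v
  show (fc v ∉ bxQ L ∨ v ∈ Sq L a) ↔ ((((fc v).1 = -1 ∧ (a : ℤ) ≤ (fc v).2) ∨
    ((a : ℤ) ≤ (fc v).1 ∧ (fc v).2 = -1)) ∨ v ∈ Sq L a)
  rw [mem_bxQ, mem_Sq_fc]
  omega

lemma RS_disj {L a : ℕ} : Disjoint (Rq L a) {v | v ∈ Sq L a} := by
  rw [Set.disjoint_left]
  rintro v ⟨h1, h2⟩ hv
  have := (mem_Sq_fc.1 hv).1
  omega

/-- coordinates of the vertices of `Bq` -/
lemma Bq_coord {L a : ℕ} (hL : 1 ≤ L) {v : QV L} (h : v ∈ Bq L a) :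
    (fc v).1 ≤ a ∧ (fc v).2 ≤ a := by
  rcases h with h | ⟨w, hw, h⟩
  · have := mem_Sq_fc.1 h
    omega
  · have h1 := mem_Sq_fc.1 hw
    rcases adj_coord hL h with (⟨h2, -⟩ | ⟨h2, -⟩) | (⟨h2, -⟩ | ⟨h2, -⟩) <;>
    · have e1 := congrArg Prod.fst h2
      have e2 := congrArg Prod.snd h2
      simp only at e1 e2
      omega

lemma AB_q {L a : ℕ} (hL : a + 2 ≤ L) : Disjoint (Aq L) (Bq L a) := by
  rw [Set.disjoint_left]
  rintro v ⟨h1, h2⟩ hv
  have h3 := Bq_coord (by omega) hv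
  rw [mem_bxQ] at h1 h2
  push_cast [Nat.cast_sub (show 1 ≤ L by omega)] at h2
  omega

lemma ZA_q {L : ℕ} : Zq L ∪ Aq L = {v | fc v ∉ bxQ (L - 1)} := by
  ext v
  show (fc v ∉ bxQ L ∨ (fc v ∈ bxQ L ∧ fc v ∉ bxQ (L - 1))) ↔ fc v ∉ bxQ (L - 1)
  constructor
  · rintro (h | h)
    · intro h2
      apply h
      rw [mem_bxQ] at h2 ⊢
      omega
    · exact h.2
  · intro h
    by_cases c : fc v ∈ bxQ L
    · exact Or.inr ⟨c, h⟩
    · exact Or.inl c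

end Vale.Agent.P159.T1.H112
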