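import Vale.Agent.P159.T1.H112.SGeo
import Vale.Agent.P159.T1.H112.QFar

/-!
The strip (P159, stage 2, row S.SQ): wired ends against pinned ends.
-/

open MeasureTheory Filter Topology

namespace Vale.Agent.P159.T1.H112

open Vale.Agent.P159 Vale.Agent.P159.H353 Vale.Agent.P159.R2.H254 Vale.Agent.P159.R2.H729
  Vale.Agent.P159.T1.H934 Vale.Agent.P159.T1.D Vale.Agent.P159.T1.H532 Vale.Agent.P159.T1.H910

/-! ### the dictionary -/

lemma W_s (J : Bnd → ℝ) (w t : ℕ) (h : SV w t → ℤ) :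
    W (grd (ss w t) (st w t)) (fun e => J e.1) h =
      ∏ e ∈ SR w (t + 1), wI (J e) (dh (fun f => h (sv w t f)) e) := by
  rw [← Finset.prod_coe_sort]
  rfl

/-- heights on the graph and heights on the plane -/
def eqS {w t : ℕ} {U : Finset Z2} (hU : U ⊆ rc w 0 (t + 1)) :
    {h : SV w t → ℤ // ∀ v ∈ Ps w t U, h v = 0} ≃ Ht U where
  toFun h := ⟨fun f => h.1 (sv w t f), fun f hf => by
    refine h.2 _ ?_
    show fs (sv w t f) ∉ U
    by_cases c : InS w t f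
    · rwa [fs_sv c]
    · rw [sv_not c]
      intro h1
      have h2 := mem_rc.1 (hU h1)
      simp only at h2
      omega⟩
  invFun g := ⟨fun v => g.1 (fs v), fun v hv => g.2 _ hv⟩
  left_inv h := Subtype.ext (funext fun v => by
    show h.1 (sv w t (fs v)) = h.1 v
    rw [sv_fs])
  right_inv g := Subtype.ext (funext fun f => by
    show g.1 (fs (sv w t f)) = g.1 f
    by_cases c : InS w t f
    · rw [fs_sv c]
    · rw [sv_not c]
      have h0 : ∀ f' : Z2, f' ∉ rc w 0 (t + 1) → g.1 f' = 0 :=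
        fun f' hf' => g.2 f' fun h => hf' (hU h)
      rw [h0 _ (by rw [mem_rc]; simp only; omega), h0 f]
      intro h1
      apply c
      obtain ⟨a1, a2, a3, a4⟩ := mem_rc.1 h1
      push_cast at a3 a4
      exact ⟨⟨by omega, by omega⟩, a3, a4⟩)

theorem ZZ_s (J : Bnd → ℝ) {w t : ℕ} {U : Finset Z2} (hU : U ⊆ rc w 0 (t + 1))
    (F : (Z2 → ℤ) → ℝ) :
    T1.H910.ZZ (ss w t) (st w t) (fun e => J e.1) (Ps w t U) (fun h => F fun f => h (sv w t f)) =
      FF J (SR w (t + 1)) U F := by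
  classical
  unfold FF
  rw [← (eqS hU).tsum_eq]
  unfold T1.H910.ZZ
  have h1 : ∀ h : SV w t → ℤ, (if ∀ v ∈ Ps w t U, h v = 0 then
      W (grd (ss w t) (st w t)) (fun e => J e.1) h * F (fun f => h (sv w t f)) else 0) =
      Set.indicator {h : SV w t → ℤ | ∀ v ∈ Ps w t U, h v = 0}
        (fun h => (∏ e ∈ SR w (t + 1), wI (J e) (dh (fun f => h (sv w t f)) e)) *
          F fun f => h (sv w t f)) h := by
    intro h
    by_cases h2 : ∀ v ∈ Ps w t U, h v = 0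
    · rw [if_pos h2, Set.indicator_of_mem (by exact h2), W_s]
    · rw [if_neg h2, Set.indicator_of_notMem (by exact h2)]
  refine (tsum_congr h1).trans ?_
  rw [← tsum_subtype]
  rfl

lemma li_s {w t : ℕ} {ρ : Z2 → ℝ} (hρ : ∀ f, f ∉ rc w 0 (t + 1) → ρ f = 0) (h : SV w t → ℤ) :
    li (fun v => ρ (fs v)) h = ch (rc w 0 (t + 1)) ρ fun f => h (sv w t f) := by
  unfold li ch
  have h1 : ∑ v : SV w t, ρ (fs v) * (h v : ℝ) =
      ∑ v ∈ Finset.univ.filter (fun v : SV w t => fs v ∈ rc w 0 (t + 1)),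
        ρ (fs v) * (h v : ℝ) := by
    symm
    refine Finset.sum_subset (Finset.subset_univ _) fun v _ hv => ?_
    rw [hρ (fs v) fun h2 => hv (Finset.mem_filter.2 ⟨Finset.mem_univ _, h2⟩), zero_mul]
  have hin : ∀ f ∈ rc w 0 (t + 1), InS w t f := by
    intro f hf
    have h2 := mem_rc.1 hf
    push_cast at h2
    exact ⟨⟨by omega, by omega⟩, h2.2.2.1, h2.2.2.2⟩
  rw [h1]
  refine Finset.sum_nbij' (fun v => fs v) (fun f => sv w t f) ?_ ?_ ?_ ?_ ?_
  · intro v hv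
    exact (Finset.mem_filter.1 hv).2
  · intro f hf
    refine Finset.mem_filter.2 ⟨Finset.mem_univ _, ?_⟩
    rwa [fs_sv (hin f hf)]
  · intro v _
    exact sv_fs v
  · intro f hf
    exact fs_sv (hin f hf)
  · intro v _
    simp only [sv_fs]

/-- the dictionary for the ratios -/
lemma dict_s {J : Bnd → ℝ} {w t : ℕ} {ρ : Z2 → ℝ} (hρ : ∀ f, f ∉ rc w 0 (t + 1) → ρ f = 0)
    {U : Finset Z2} (hU : U ⊆ rc w 0 (t + 1)) (n : ℕ) :
    T1.H910.ZZ (ss w t) (st w t) (fun e => J e.1) (Ps w t U)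
        (fun h => (li (fun v => ρ (fs v)) h) ^ n) /
      T1.H910.ZZ (ss w t) (st w t) (fun e => J e.1) (Ps w t U) (fun _ => 1) =
      FF J (SR w (t + 1)) U (fun h => ch (rc w 0 (t + 1)) ρ h ^ n) /
        FF J (SR w (t + 1)) U (fun _ => 1) := by
  simp only [li_s hρ]
  rw [ZZ_s J hU (fun h => ch (rc w 0 (t + 1)) ρ h ^ n), ZZ_s J hU (fun _ => 1)]

/-! ### the flow -/

/-- the flow along the rows `[p, q)` -/
noncomputable def fr (p q : ℕ) (δ : ℝ) (e : Bnd) : ℝ :=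
  if e.2 = true ∧ (p : ℤ) ≤ e.1.2 ∧ e.1.2 < q then -δ else 0

lemma sum_SR (w T : ℕ) (f : Bnd → ℝ) (h0 : ∀ g : Z2, f (g, false) = 0) :
    ∑ e ∈ SR w T, f e =
      ∑ y ∈ Finset.range T, ∑ x ∈ Finset.range (w + 1), f (((x : ℤ), (y : ℤ)), true) := by
  unfold SR
  rw [Finset.sum_union]
  · have h1 : ∑ e ∈ (Finset.Ico (0 : ℤ) w ×ˢ Finset.Ico (1 : ℤ) T) ×ˢ {false}, f e = 0 := by
      refine Finset.sum_eq_zero fun e he => ?_
      have h2 := (Finset.mem_product.1 he).2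
      rw [Finset.mem_singleton] at h2
      obtain ⟨g, τ⟩ := e
      simp only at h2
      rw [h2, h0 g]
    rw [h1, add_zero, Finset.sum_product]
    simp only [Finset.sum_singleton]
    rw [Finset.sum_product_right, sum_int]
    refine Finset.sum_congr rfl fun y _ => ?_
    have h3 := sum_int (w + 1) fun x => f ((x, (y : ℤ)), true)
    push_cast at h3
    exact h3
  · rw [Finset.disjoint_left]
    intro e h1 h2
    rw [Finset.mem_product, Finset.mem_singleton] at h1 h2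
    rw [h1.2] at h2
    exact absurd h2.2 (by decide)

lemma fr_true (p q : ℕ) (δ : ℝ) (x y : ℕ) :
    fr p q δ (((x : ℤ), (y : ℤ)), true) = if p ≤ y ∧ y < q then -δ else 0 := by
  unfold fr
  simp only [true_and, Nat.cast_le, Nat.cast_lt]

lemma fr_false (p q : ℕ) (δ : ℝ) (g : Z2) : fr p q δ (g, false) = 0 := by
  unfold fr
  simp

lemma sum_ring {p q T : ℕ} (hpq : p ≤ q) (hq : q ≤ T) (c : ℝ) :
    ∑ y ∈ Finset.range T, (if p ≤ y ∧ y < q then c else 0) = c * ((q : ℝ) - p) := by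
  rw [← Finset.sum_filter]
  have e4 : (Finset.range T).filter (fun y => p ≤ y ∧ y < q) = Finset.Ico p q := by
    ext y
    rw [Finset.mem_filter, Finset.mem_range, Finset.mem_Ico]
    omega
  rw [e4, Finset.sum_const, Nat.card_Ico, nsmul_eq_mul, Nat.cast_sub hpq]
  ring

/-- the flux -/
lemma flux_s {w T p q : ℕ} (hpq : p ≤ q) (hq : q ≤ T) (δ : ℝ) (H : Z2 → ℤ)
    (h1 : ∀ k : ℕ, p ≤ k → k < q → H (-1, (k : ℤ)) = 0)
    (h2 : ∀ k : ℕ, p ≤ k → k < q → H ((w : ℤ), (k : ℤ)) = 2) :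
    ∑ e ∈ SR w T, fr p q δ e * ((H (lf e) - H (rt e) : ℤ) : ℝ) = 2 * δ * ((q : ℝ) - p) := by
  rw [sum_SR w T _ (fun g => by rw [fr_false, zero_mul])]
  have e1 : ∀ y ∈ Finset.range T, ∑ x ∈ Finset.range (w + 1),
      fr p q δ (((x : ℤ), (y : ℤ)), true) *
        ((H (lf (((x : ℤ), (y : ℤ)), true)) - H (rt (((x : ℤ), (y : ℤ)), true)) : ℤ) : ℝ) =
      if p ≤ y ∧ y < q then 2 * δ else 0 := by
    intro y _
    by_cases c : p ≤ y ∧ y < q
    · rw [if_pos c]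
      have e2 := Finset.sum_range_sub (fun x : ℕ => ((H ((x : ℤ) - 1, (y : ℤ)) : ℤ) : ℝ)) (w + 1)
      have e5 : (((w + 1 : ℕ) : ℤ) - 1) = w := by
        push_cast
        ring
      have e6 : (((0 : ℕ) : ℤ) - 1) = -1 := by norm_num
      rw [e5, e6, h2 y c.1 c.2, h1 y c.1 c.2] at e2
      have e3 : ∀ x ∈ Finset.range (w + 1), fr p q δ (((x : ℤ), (y : ℤ)), true) *
          ((H (lf (((x : ℤ), (y : ℤ)), true)) - H (rt (((x : ℤ), (y : ℤ)), true)) : ℤ) : ℝ) =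
          δ * (((H (((x + 1 : ℕ) : ℤ) - 1, (y : ℤ)) : ℤ) : ℝ) -
            ((H ((x : ℤ) - 1, (y : ℤ)) : ℤ) : ℝ)) := by
        intro x _
        rw [fr_true, if_pos c, lf_true, rt_true]
        have e7 : (((x + 1 : ℕ) : ℤ) - 1) = x := by
          push_cast
          ring
        rw [e7]
        push_cast
        ring
      rw [Finset.sum_congr rfl e3, ← Finset.mul_sum, e2]
      push_cast
      ring
    · rw [if_neg c]
      refine Finset.sum_eq_zero fun x _ => ?_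
      rw [fr_true, if_neg c, zero_mul]
  rw [Finset.sum_congr rfl e1, sum_ring hpq hq]

/-- the energy -/
lemma energy_s {w T p q : ℕ} (hpq : p ≤ q) (hq : q ≤ T) (δ : ℝ) :
    ∑ e ∈ SR w T, fr p q δ e ^ 2 = δ ^ 2 * (w + 1) * ((q : ℝ) - p) := by
  rw [sum_SR w T _ (fun g => by rw [fr_false]; norm_num)]
  have e1 : ∀ y ∈ Finset.range T, ∑ x ∈ Finset.range (w + 1),
      fr p q δ (((x : ℤ), (y : ℤ)), true) ^ 2 =
      if p ≤ y ∧ y < q then δ ^ 2 * (w + 1) else 0 := by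
    intro y _
    by_cases c : p ≤ y ∧ y < q
    · rw [if_pos c]
      have e3 : ∀ x ∈ Finset.range (w + 1), fr p q δ (((x : ℤ), (y : ℤ)), true) ^ 2 = δ ^ 2 := by
        intro x _
        rw [fr_true, if_pos c]
        ring
      rw [Finset.sum_congr rfl e3, Finset.sum_const, Finset.card_range, nsmul_eq_mul]
      push_cast
      ring
    · rw [if_neg c]
      refine Finset.sum_eq_zero fun x _ => ?_
      rw [fr_true, if_neg c]
      norm_num
  rw [Finset.sum_congr rfl e1, sum_ring hpq hq]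

lemma fr_abs {p q : ℕ} {δ : ℝ} (hδ : 0 ≤ δ) (hδ' : δ ≤ 1) (e : Bnd) : |fr p q δ e| ≤ 1 := by
  unfold fr
  split_ifs
  · rw [abs_neg, abs_of_nonneg hδ]
    exact hδ'
  · simp

/-- the flow avoids the deleted rows -/
lemma fr_S {w t p q : ℕ} {δ : ℝ} (e : {e : Bnd // e ∈ SR w (t + 1)})
    (h : ss w t e ∈ Ss w t p q ∨ st w t e ∈ Ss w t p q) : fr p q δ e.1 = 0 := by
  obtain ⟨e, he⟩ := e
  obtain ⟨⟨h1, h2⟩, -⟩ := ends_s he
  rw [mem_Ss, mem_Ss] at h
  unfold ss st at h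
  rw [fs_sv h1, fs_sv h2] at h
  obtain ⟨⟨x, y⟩, τ⟩ := e
  unfold fr
  cases τ
  · simp
  · rw [rt_true, lf_true] at h
    simp only at h
    simp only [true_and]
    rw [if_neg (by omega)]

/-- **The ratio `Z(0|2) / Z(0|0)` of the ring of rows `[p, q)`.** -/
theorem ratio_s {J : Bnd → ℝ} {b : ℝ} {w t : ℕ}
    (hJ : ∀ e : {e : Bnd // e ∈ SR w (t + 1)}, 0 ≤ J e.1) (hJb : ∀ e ∈ SR w (t + 1), J e ≤ b)
    (hb : 0 ≤ b) (hw : 1 ≤ w) {p q : ℕ} (hpq : p ≤ q) (hq : q ≤ t + 1) {U : Finset Z2}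
    (hU0 : ∀ f ∈ U, 0 ≤ f.1)
    (hU : ∀ f : Z2, (p : ℤ) ≤ f.2 → f.2 < (q : ℤ) → (f ∈ U ↔ 0 ≤ f.1 ∧ f.1 < (w : ℤ))) :
    N02 (ss w t) (st w t) (fun e => J e.1) (Ls w t p q) (Rs w t p q) (Ss w t p q) /
      ZD (ss w t) (st w t) (fun e => J e.1) (Ps w t U) (Ss w t p q) (fun _ => True) ≤
      Real.exp (-(1 / (1 + 4 * b) * (((q : ℝ) - p) / w))) := by
  have hw' : (1 : ℝ) ≤ w := by exact_mod_cast hw
  have hpq' : (0 : ℝ) ≤ (q : ℝ) - p := by
    have : (p : ℝ) ≤ q := by exact_mod_cast hpq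
    linarith
  have hd : 0 < 1 + 2 * b * ((w : ℝ) + 1) := by positivity
  set δ : ℝ := 1 / (1 + 2 * b * ((w : ℝ) + 1)) with hδ
  have hδ0 : 0 ≤ δ := by positivity
  have hδ1 : δ ≤ 1 := by
    rw [hδ, div_le_one hd]
    have : 0 ≤ 2 * b * ((w : ℝ) + 1) := by positivity
    linarith
  have h1 := N02_le (s := ss w t) (t := st w t) (J := fun e => J e.1) hJ
    (Z := Ps w t U) (L := Ls w t p q) (R := Rs w t p q) (S := Ss w t p q) (RS_s hU0) (Z1_s hU)
    (fun e => fr p q δ e.1)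
    (fun e he => fr_S e he) (Φ := 2 * δ * ((q : ℝ) - p)) (by
      intro h a1 a2 _
      have h2 := Finset.sum_coe_sort (SR w (t + 1)) (fun e => fr p q δ e *
        ((h (sv w t (lf e)) - h (sv w t (rt e)) : ℤ) : ℝ))
      rw [← flux_s hpq hq δ (fun f => h (sv w t f)) (fun k hk hk' => a1 _ ?_)
        (fun k hk hk' => a2 _ ?_), ← h2]
      · rfl
      · show (fs (sv w t (-1, (k : ℤ)))).1 = -1 ∧ (p : ℤ) ≤ (fs (sv w t (-1, (k : ℤ)))).2 ∧
          (fs (sv w t (-1, (k : ℤ)))).2 < q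
        rw [fs_sv (inS_mk le_rfl (by omega) (by omega) (by omega))]
        exact ⟨rfl, by show (p : ℤ) ≤ (k : ℤ); exact_mod_cast hk,
          by show (k : ℤ) < (q : ℤ); exact_mod_cast hk'⟩
      · show (fs (sv w t ((w : ℤ), (k : ℤ)))).1 = w ∧ (p : ℤ) ≤ (fs (sv w t ((w : ℤ), (k : ℤ)))).2 ∧
          (fs (sv w t ((w : ℤ), (k : ℤ)))).2 < q
        rw [fs_sv (inS_mk (by omega) (by omega) (by omega) (by omega))]
        exact ⟨rfl, by show (p : ℤ) ≤ (k : ℤ); exact_mod_cast hk,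
          by show (k : ℤ) < (q : ℤ); exact_mod_cast hk'⟩)
  refine h1.trans (Real.exp_le_exp.2 ?_)
  have h2 := Finset.sum_coe_sort (SR w (t + 1))
    (fun e => J e * (Real.cosh (fr p q δ e) - 1))
  rw [h2]
  have h3 : ∑ e ∈ SR w (t + 1), J e * (Real.cosh (fr p q δ e) - 1) ≤
      ∑ e ∈ SR w (t + 1), b * (2 * fr p q δ e ^ 2) := by
    refine Finset.sum_le_sum fun e he => ?_
    have h4 := H950.cosh_le2 (fr_abs (p := p) (q := q) hδ0 hδ1 e)
    have h5 := Real.one_le_cosh (fr p q δ e)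
    calc J e * (Real.cosh (fr p q δ e) - 1) ≤ b * (Real.cosh (fr p q δ e) - 1) :=
          mul_le_mul_of_nonneg_right (hJb e he) (by linarith)
      _ ≤ b * (2 * fr p q δ e ^ 2) := mul_le_mul_of_nonneg_left h4 hb
  rw [← Finset.mul_sum, ← Finset.mul_sum, energy_s hpq hq] at h3
  have h6 : 2 * b * ((w : ℝ) + 1) * δ ≤ 1 := by
    rw [hδ, mul_one_div, div_le_one hd]
    linarith
  have h7 : 2 * b * ((w : ℝ) + 1) * δ * (δ * ((q : ℝ) - p)) ≤ 1 * (δ * ((q : ℝ) - p)) :=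
    mul_le_mul_of_nonneg_right h6 (mul_nonneg hδ0 hpq')
  have h8 : 1 / (1 + 4 * b) * (((q : ℝ) - p) / w) ≤ δ * ((q : ℝ) - p) := by
    have h9 : 1 / (1 + 4 * b) * (1 / w) ≤ δ := by
      rw [hδ, one_div_mul_one_div]
      refine one_div_le_one_div_of_le hd ?_
      nlinarith [mul_nonneg hb (by linarith : (0 : ℝ) ≤ (w : ℝ) - 1)]
    calc 1 / (1 + 4 * b) * (((q : ℝ) - p) / w) = 1 / (1 + 4 * b) * (1 / w) * ((q : ℝ) - p) := by
          ring
      _ ≤ δ * ((q : ℝ) - p) := mul_le_mul_of_nonneg_right h9 hpq'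
  nlinarith [h3, h7, h8]

/-! ### one end -/

section oneEnd

variable {J : Bnd → ℝ} {b : ℝ} {w t : ℕ}

/-- nonnegative expectations -/
lemma div_s (hJ : ∀ e : {e : Bnd // e ∈ SR w (t + 1)}, 0 ≤ J e.1) (X : Set (SV w t))
    (f : (SV w t → ℤ) → ℝ) (hf : ∀ h, 0 ≤ f h) :
    0 ≤ T1.H910.ZZ (ss w t) (st w t) (fun e => J e.1) X f /
      T1.H910.ZZ (ss w t) (st w t) (fun e => J e.1) X (fun _ => 1) :=
  div_nonneg (ZZ_nonneg (s := ss w t) (t := st w t) hJ X hf)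
    (ZZ_nonneg (s := ss w t) (t := st w t) hJ X (f := fun _ => 1) fun _ => zero_le_one)

/-- a nonempty set of vertices at height zero -/
lemma Ps_ne {U : Finset Z2} (hU0 : ∀ f ∈ U, 0 ≤ f.1) : (Ps w t U).Nonempty :=
  ⟨sv w t (-1, 0), by
    show fs (sv w t (-1, 0)) ∉ U
    rw [fs_sv (inS_mk le_rfl (by omega) le_rfl (by omega))]
    intro h
    have := hU0 _ h
    simp only at this
    omega⟩

/-- one end, first case -/
lemma far_s1 (hJ : ∀ e : {e : Bnd // e ∈ SR w (t + 1)}, 0 ≤ J e.1)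
    (hJb : ∀ e ∈ SR w (t + 1), J e ≤ b) (hb : 0 ≤ b) (hw : 1 ≤ w) {p q : ℕ} (hpq : p ≤ q)
    (hq : q ≤ t + 1) {U : Finset Z2} (hU0 : ∀ f ∈ U, 0 ≤ f.1)
    (hU : ∀ f : Z2, (p : ℤ) ≤ f.2 → f.2 < (q : ℤ) → (f ∈ U ↔ 0 ≤ f.1 ∧ f.1 < (w : ℤ)))
    {A : Set (SV w t)} (hAB : Disjoint A (Bs w t p q))
    (hX : Cross (adjG (s1 (ss w t) (st w t) (Ss w t p q)) (t1 (ss w t) (st w t) (Ss w t p q)))
      A (Bs w t p q) (Ls w t p q) (Rs w t p q))
    {ρ : SV w t → ℝ} (hρ : ∀ v, v ∉ Bs w t p q → ρ v = 0) :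
    T1.H910.ZZ (ss w t) (st w t) (fun e => J e.1) (Ps w t U) (fun h => (li ρ h) ^ 2) /
        T1.H910.ZZ (ss w t) (st w t) (fun e => J e.1) (Ps w t U) (fun _ => 1) ≤
      T1.H910.ZZ (ss w t) (st w t) (fun e => J e.1) (Ps w t U ∪ A) (fun h => (li ρ h) ^ 2) /
        T1.H910.ZZ (ss w t) (st w t) (fun e => J e.1) (Ps w t U ∪ A) (fun _ => 1) +
      √(T1.H910.ZZ (ss w t) (st w t) (fun e => J e.1) (Ps w t U) (fun h => (li ρ h) ^ 4) /
        T1.H910.ZZ (ss w t) (st w t) (fun e => J e.1) (Ps w t U) (fun _ => 1) *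
        (4 * Real.exp (-(1 / (1 + 4 * b) * (((q : ℝ) - p) / w))))) := by
  have h1 := far (s := ss w t) (t := st w t) (conn_s hw) hJ (Ps_ne hU0) hAB (RS_s0 hU0)
    (RS_s hU0) nb_s (Z1_s hU) RS_disj_s hX hρ
  have h2 := ratio_s hJ hJb hb hw hpq hq hU0 hU
  have h3 := div_s hJ (Ps w t U) (fun h => (li ρ h) ^ 4) (fun h => by positivity)
  have h4 := Real.exp_pos (-(1 / (1 + 4 * b) * (((q : ℝ) - p) / w)))
  refine h1.trans (add_le_add le_rfl (Real.sqrt_le_sqrt (mul_le_mul_of_nonneg_left ?_ h3)))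
  linarith

/-- one end, second case -/
lemma far_s2 (hJ : ∀ e : {e : Bnd // e ∈ SR w (t + 1)}, 0 ≤ J e.1) (hb : 0 ≤ b) (hw : 1 ≤ w)
    {x : ℝ} (hx : x ≤ 1) {U : Finset Z2} (hU0 : ∀ f ∈ U, 0 ≤ f.1)
    {A : Set (SV w t)} {ρ : SV w t → ℝ} :
    T1.H910.ZZ (ss w t) (st w t) (fun e => J e.1) (Ps w t U) (fun h => (li ρ h) ^ 2) /
        T1.H910.ZZ (ss w t) (st w t) (fun e => J e.1) (Ps w t U) (fun _ => 1) ≤
      T1.H910.ZZ (ss w t) (st w t) (fun e => J e.1) (Ps w t U ∪ A) (fun h => (li ρ h) ^ 2) /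
        T1.H910.ZZ (ss w t) (st w t) (fun e => J e.1) (Ps w t U ∪ A) (fun _ => 1) +
      √(T1.H910.ZZ (ss w t) (st w t) (fun e => J e.1) (Ps w t U) (fun h => (li ρ h) ^ 4) /
        T1.H910.ZZ (ss w t) (st w t) (fun e => J e.1) (Ps w t U) (fun _ => 1) *
        (4 * Real.exp (-(1 / (1 + 4 * b) * (x / w))))) := by
  have hw' : (1 : ℝ) ≤ w := by exact_mod_cast hw
  have h1 := far_var (s := ss w t) (t := st w t) (l := (Subtype.val : A → SV w t)) (conn_s hw)
    hJ (X := Ps w t U) (N := ∅) (Ps_ne hU0)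
    (ρ := ρ) (fun v hv => absurd hv (Set.notMem_empty v))
  rw [Subtype.range_coe] at h1
  have h3 := div_s hJ (Ps w t U) (fun h => (li ρ h) ^ 4) (fun h => by positivity)
  have h2 : 0 ≤ ZE (ss w t) (st w t) (Subtype.val : A → SV w t) (fun e => J e.1) (Ps w t U) ∅
      (fun _ => 1) / T1.H910.ZZ (ss w t) (st w t) (fun e => J e.1) (Ps w t U) (fun _ => 1) := by
    refine div_nonneg ?_ (ZZ_nonneg (s := ss w t) (t := st w t) hJ (Ps w t U) (f := fun _ => 1)
      fun _ => zero_le_one)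
    unfold ZE
    refine tsum_nonneg fun h => ?_
    split_ifs
    · exact mul_nonneg (W_nonneg hJ _) zero_le_one
    · exact le_rfl
  refine h1.trans (add_le_add le_rfl (Real.sqrt_le_sqrt (mul_le_mul_of_nonneg_left ?_ h3)))
  have h4 : 1 / (1 + 4 * b) * (x / w) ≤ 1 := by
    have h5 : 1 / (1 + 4 * b) ≤ (1 : ℝ) := by
      rw [div_le_one (by positivity)]
      linarith
    have h6 : 0 ≤ 1 / (1 + 4 * b) := by positivity
    have h7 : x / w ≤ 1 := by
      rw [div_le_one (by positivity)]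
      linarith
    calc 1 / (1 + 4 * b) * (x / w) ≤ 1 / (1 + 4 * b) * 1 := mul_le_mul_of_nonneg_left h7 h6
      _ ≤ 1 := by linarith
  have h5 : Real.exp (-1) ≤ Real.exp (-(1 / (1 + 4 * b) * (x / w))) :=
    Real.exp_le_exp.2 (by linarith)
  have h6 : (1 : ℝ) / 4 ≤ Real.exp (-1) := by
    rw [Real.exp_neg, one_div]
    exact inv_anti₀ (Real.exp_pos _) (Real.exp_one_lt_d9.le.trans (by norm_num))
  linarith

end oneEnd

/-! ### the strip -/

/-- the top row -/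
lemma Ps_up (w t : ℕ) :
    Ps w t (rc w 0 (t + 1)) ∪ {v | fs v ∈ rc w 0 (t + 1) ∧ (fs v).2 = t} = Ps w t (rc w 0 t) := by
  ext v
  show (fs v ∉ rc w 0 (t + 1) ∨ (fs v ∈ rc w 0 (t + 1) ∧ (fs v).2 = t)) ↔ fs v ∉ rc w 0 t
  rw [mem_rc, mem_rc]
  push_cast
  omega

/-- the bottom row -/
lemma Ps_down (w t : ℕ) :
    Ps w t (rc w 0 t) ∪ {v | fs v ∈ rc w 0 t ∧ (fs v).2 = 0} = Ps w t (rc w 1 t) := by
  ext v
  show (fs v ∉ rc w 0 t ∨ (fs v ∈ rc w 0 t ∧ (fs v).2 = 0)) ↔ fs v ∉ rc w 1 t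
  rw [mem_rc, mem_rc]
  push_cast
  omega

section strip

variable {J : Bnd → ℝ} {b : ℝ} {w T m : ℕ}

/-- **the upper end** -/
theorem strip_up (hJ : ∀ e ∈ SR w T, 0 ≤ J e) (hJb : ∀ e ∈ SR w T, J e ≤ b) (hb : 0 ≤ b)
    (hw : 1 ≤ w) (hm : 1 ≤ m) (hmT : m ≤ T) {ρ : Z2 → ℝ}
    (hρ : ∀ f, f ∉ rc w 0 (T - m) → ρ f = 0) :
    FF J (SR w T) (rc w 0 T) (fun h => ch (rc w 0 T) ρ h ^ 2) /
        FF J (SR w T) (rc w 0 T) (fun _ => 1) ≤
      FF J (SR w T) (rc w 0 (T - 1)) (fun h => ch (rc w 0 T) ρ h ^ 2) /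
          FF J (SR w T) (rc w 0 (T - 1)) (fun _ => 1) +
        √(FF J (SR w T) (rc w 0 T) (fun h => ch (rc w 0 T) ρ h ^ 4) /
          FF J (SR w T) (rc w 0 T) (fun _ => 1) *
            (4 * Real.exp (-(1 / (1 + 4 * b) * ((m : ℝ) / w))))) := by
  obtain ⟨t, rfl⟩ : ∃ t, T = t + 1 := ⟨T - 1, by omega⟩
  rw [Nat.add_sub_cancel]
  have hJ' : ∀ e : {e : Bnd // e ∈ SR w (t + 1)}, 0 ≤ J e.1 := fun e => hJ e.1 e.2
  have hρ' : ∀ f, f ∉ rc w 0 (t + 1) → ρ f = 0 := fun f hf => hρ f fun h => hf (by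
    rw [mem_rc] at h ⊢
    push_cast at h ⊢
    omega)
  have hsub : rc w 0 t ⊆ rc w 0 (t + 1) := fun f hf => by
    rw [mem_rc] at hf ⊢
    push_cast at hf ⊢
    omega
  have hU0 : ∀ f ∈ rc w 0 (t + 1), 0 ≤ f.1 := fun f hf => (mem_rc.1 hf).1
  rw [← dict_s hρ' (Finset.Subset.refl _) 2, ← dict_s hρ' hsub 2,
    ← dict_s hρ' (Finset.Subset.refl _) 4, ← Ps_up w t]
  rcases Nat.lt_or_ge m 2 with c | c
  · exact far_s2 hJ' hb hw (x := (m : ℝ)) (by
      have : m ≤ 1 := by omega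
      exact_mod_cast this) hU0
  · have h1 := far_s1 (p := t + 1 - m) (q := t + 1) hJ' hJb hb hw (by omega) le_rfl hU0
      (fun f h1 h2 => by
        rw [mem_rc]
        push_cast [Nat.cast_sub hmT] at h1 h2 ⊢
        omega)
      (A := {v | fs v ∈ rc w 0 (t + 1) ∧ (fs v).2 = t})
      (by
        rw [Set.disjoint_left]
        rintro v ⟨_, hv⟩ (h1 | ⟨v', h1, h2⟩)
        · rw [mem_Ss] at h1
          push_cast [Nat.cast_sub hmT] at h1
          omega
        · rw [mem_Ss] at h1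
          push_cast [Nat.cast_sub hmT] at h1
          have h3 := inS_fs v'
          obtain ⟨-, h4, h5⟩ := h3
          rcases adj_coord_s h2 with (h6 | h6) | (⟨h6, -⟩ | ⟨h6, -⟩)
          · have h7 := congrArg Prod.snd h6
            simp only at h7
            omega
          · have h7 := congrArg Prod.snd h6
            simp only at h7
            omega
          · have h7 := congrArg Prod.snd h6
            simp only at h7
            omega
          · have h7 := congrArg Prod.snd h6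
            simp only at h7
            omega)
      (cross_up (fun v hv => hv.2) (by
        rw [Set.disjoint_left]
        rintro v ⟨_, hv⟩ (h1 | ⟨v', h1, h2⟩)
        · rw [mem_Ss] at h1
          push_cast [Nat.cast_sub hmT] at h1
          omega
        · rw [mem_Ss] at h1
          push_cast [Nat.cast_sub hmT] at h1
          have h3 := inS_fs v'
          obtain ⟨-, h4, h5⟩ := h3
          rcases adj_coord_s h2 with (h6 | h6) | (⟨h6, -⟩ | ⟨h6, -⟩)
          · have h7 := congrArg Prod.snd h6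
            simp only at h7
            omega
          · have h7 := congrArg Prod.snd h6
            simp only at h7
            omega
          · have h7 := congrArg Prod.snd h6
            simp only at h7
            omega
          · have h7 := congrArg Prod.snd h6
            simp only at h7
            omega))
      (ρ := fun v => ρ (fs v)) (fun v hv => hρ _ fun h => hv (Or.inl (by
        rw [mem_Ss]
        have := mem_rc.1 h
        push_cast [Nat.cast_sub hmT] at this ⊢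
        omega)))
    have h2 : (((t + 1 : ℕ) : ℝ) - ((t + 1 - m : ℕ) : ℝ)) = m := by
      rw [Nat.cast_sub hmT]
      ring
    rw [h2] at h1
    exact h1

/-- **the lower end** -/
theorem strip_down (hJ : ∀ e ∈ SR w T, 0 ≤ J e) (hJb : ∀ e ∈ SR w T, J e ≤ b) (hb : 0 ≤ b)
    (hw : 1 ≤ w) (hm : 1 ≤ m) (hmT : m + 1 ≤ T) {ρ : Z2 → ℝ}
    (hρ : ∀ f, f ∉ rc w m T → ρ f = 0) :
    FF J (SR w T) (rc w 0 (T - 1)) (fun h => ch (rc w 0 T) ρ h ^ 2) /
        FF J (SR w T) (rc w 0 (T - 1)) (fun _ => 1) ≤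
      FF J (SR w T) (rc w 1 (T - 1)) (fun h => ch (rc w 0 T) ρ h ^ 2) /
          FF J (SR w T) (rc w 1 (T - 1)) (fun _ => 1) +
        √(FF J (SR w T) (rc w 0 (T - 1)) (fun h => ch (rc w 0 T) ρ h ^ 4) /
          FF J (SR w T) (rc w 0 (T - 1)) (fun _ => 1) *
            (4 * Real.exp (-(1 / (1 + 4 * b) * ((m : ℝ) / w))))) := by
  obtain ⟨t, rfl⟩ : ∃ t, T = t + 1 := ⟨T - 1, by omega⟩
  rw [Nat.add_sub_cancel]
  have hJ' : ∀ e : {e : Bnd // e ∈ SR w (t + 1)}, 0 ≤ J e.1 := fun e => hJ e.1 e.2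
  have hρ' : ∀ f, f ∉ rc w 0 (t + 1) → ρ f = 0 := fun f hf => hρ f fun h => hf (by
    rw [mem_rc] at h ⊢
    push_cast at h ⊢
    omega)
  have hsub : rc w 0 t ⊆ rc w 0 (t + 1) := fun f hf => by
    rw [mem_rc] at hf ⊢
    push_cast at hf ⊢
    omega
  have hsub' : rc w 1 t ⊆ rc w 0 (t + 1) := fun f hf => by
    rw [mem_rc] at hf ⊢
    push_cast at hf ⊢
    omega
  have hU0 : ∀ f ∈ rc w 0 t, 0 ≤ f.1 := fun f hf => (mem_rc.1 hf).1
  rw [← dict_s hρ' hsub 2, ← dict_s hρ' hsub' 2, ← dict_s hρ' hsub 4, ← Ps_down w t]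
  rcases Nat.lt_or_ge m 2 with c | c
  · exact far_s2 hJ' hb hw (x := (m : ℝ)) (by
      have : m ≤ 1 := by omega
      exact_mod_cast this) hU0
  · have hd : Disjoint {v : SV w t | fs v ∈ rc w 0 t ∧ (fs v).2 = 0} (Bs w t 0 m) := by
      rw [Set.disjoint_left]
      rintro v ⟨_, hv⟩ (h1 | ⟨v', h1, h2⟩)
      · rw [mem_Ss] at h1
        push_cast at h1
        omega
      · rw [mem_Ss] at h1
        push_cast at h1
        have h3 := inS_fs v'
        obtain ⟨-, h4, h5⟩ := h3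
        rcases adj_coord_s h2 with (h6 | h6) | (⟨h6, -⟩ | ⟨h6, -⟩)
        · have h7 := congrArg Prod.snd h6
          simp only at h7
          omega
        · have h7 := congrArg Prod.snd h6
          simp only at h7
          omega
        · have h7 := congrArg Prod.snd h6
          simp only at h7
          omega
        · have h7 := congrArg Prod.snd h6
          simp only at h7
          omega
    have h1 := far_s1 (p := 0) (q := m) hJ' hJb hb hw (by omega) (by omega) hU0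
      (fun f h1 h2 => by
        rw [mem_rc]
        push_cast at h1 h2 ⊢
        omega)
      (A := {v | fs v ∈ rc w 0 t ∧ (fs v).2 = 0}) hd
      (cross_down (fun v hv => hv.2) hd)
      (ρ := fun v => ρ (fs v)) (fun v hv => hρ _ fun h => hv (Or.inl (by
        rw [mem_Ss]
        have := mem_rc.1 h
        push_cast at this ⊢
        omega)))
    rw [Nat.cast_zero, sub_zero] at h1
    exact h1

/-- **The strip with free ends against the strip with ends at height zero.** -/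
theorem strip_core (hJ : ∀ e ∈ SR w T, 0 ≤ J e) (hJb : ∀ e ∈ SR w T, J e ≤ b) (hb : 0 ≤ b)
    (hw : 1 ≤ w) (hm : 1 ≤ m) (hmT : m + 1 ≤ T) {ρ : Z2 → ℝ}
    (hρ : ∀ f, f ∉ rc w m (T - m) → ρ f = 0) :
    FF J (SR w T) (rc w 0 T) (fun h => ch (rc w 0 T) ρ h ^ 2) /
        FF J (SR w T) (rc w 0 T) (fun _ => 1) ≤
      FF J (SR w T) (rc w 1 (T - 1)) (fun h => ch (rc w 0 T) ρ h ^ 2) /
          FF J (SR w T) (rc w 1 (T - 1)) (fun _ => 1) +
        √(FF J (SR w T) (rc w 0 (T - 1)) (fun h => ch (rc w 0 T) ρ h ^ 4) /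
          FF J (SR w T) (rc w 0 (T - 1)) (fun _ => 1) *
            (4 * Real.exp (-(1 / (1 + 4 * b) * ((m : ℝ) / w))))) +
        √(FF J (SR w T) (rc w 0 T) (fun h => ch (rc w 0 T) ρ h ^ 4) /
          FF J (SR w T) (rc w 0 T) (fun _ => 1) *
            (4 * Real.exp (-(1 / (1 + 4 * b) * ((m : ℝ) / w))))) := by
  have h1 := strip_up hJ hJb hb hw hm (by omega : m ≤ T) (ρ := ρ) (fun f hf => hρ f fun h => hf (by
    rw [mem_rc] at h ⊢
    push_cast at h ⊢
    omega))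
  have h2 := strip_down hJ hJb hb hw hm hmT (ρ := ρ) (fun f hf => hρ f fun h => hf (by
    rw [mem_rc] at h ⊢
    omega))
  linarith

end strip

end Vale.Agent.P159.T1.H112
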