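import Vale.Agent.P159.T1.H112.QGeo
import Vale.Agent.P159.T1.H112.QCross
import Vale.Agent.P159.T1.H910.FF

/-!
The strip (P159, stage 2, row S.SQ): the graph with separate outer faces on the left and on the
right side.
-/

open MeasureTheory Filter Topology

namespace Vale.Agent.P159.T1.H112

open Vale.Agent.P159 Vale.Agent.P159.H353 Vale.Agent.P159.R2.H254 Vale.Agent.P159.R2.H729
  Vale.Agent.P159.T1.H934 Vale.Agent.P159.T1.D Vale.Agent.P159.T1.H532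

/-- faces in the columns `[0, w)` and the rows `[p, q)` -/
noncomputable def rc (w p q : ℕ) : Finset Z2 := Finset.Ico (0 : ℤ) w ×ˢ Finset.Ico (p : ℤ) q

/-- the bonds of the strip `[0, w) × [0, T)`: no bonds below the row `0` and above the row `T - 1` -/
noncomputable def SR (w T : ℕ) : Finset Bnd :=
  (Finset.Ico (0 : ℤ) (w + 1) ×ˢ Finset.Ico (0 : ℤ) T) ×ˢ {true} ∪
    (Finset.Ico (0 : ℤ) w ×ˢ Finset.Ico (1 : ℤ) T) ×ˢ {false}

lemma mem_rc {w p q : ℕ} {f : Z2} : f ∈ rc w p q ↔ 0 ≤ f.1 ∧ f.1 < w ∧ (p : ℤ) ≤ f.2 ∧ f.2 < q := by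
  unfold rc
  rw [Finset.mem_product, Finset.mem_Ico, Finset.mem_Ico]
  tauto

lemma mem_SR {w T : ℕ} {e : Bnd} : e ∈ SR w T ↔
    (e.2 = true ∧ 0 ≤ e.1.1 ∧ e.1.1 < w + 1 ∧ 0 ≤ e.1.2 ∧ e.1.2 < T) ∨
      (e.2 = false ∧ 0 ≤ e.1.1 ∧ e.1.1 < w ∧ 1 ≤ e.1.2 ∧ e.1.2 < T) := by
  unfold SR
  rw [Finset.mem_union, Finset.mem_product, Finset.mem_product, Finset.mem_product,
    Finset.mem_product, Finset.mem_Ico, Finset.mem_Ico, Finset.mem_Ico, Finset.mem_Ico,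
    Finset.mem_singleton, Finset.mem_singleton]
  tauto

/-- the vertices: the faces of `[-1, w] × [0, t]` -/
abbrev SV (w t : ℕ) : Type := Fin (w + 2) × Fin (t + 1)

/-- the face lies in `[-1, w] × [0, t]` -/
def InS (w t : ℕ) (f : Z2) : Prop := (-1 ≤ f.1 ∧ f.1 < w + 1) ∧ 0 ≤ f.2 ∧ f.2 < t + 1

instance (w t : ℕ) (f : Z2) : Decidable (InS w t f) := by unfold InS; infer_instance

lemma inS_mk {w t : ℕ} {x y : ℤ} (h1 : -1 ≤ x) (h2 : x < w + 1) (h3 : 0 ≤ y) (h4 : y < t + 1) :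
    InS w t (x, y) := ⟨⟨h1, h2⟩, h3, h4⟩

/-- the vertex of a face -/
def sv (w t : ℕ) (f : Z2) : SV w t :=
  if InS w t f then (⟨min (f.1 + 1).toNat (w + 1), by omega⟩, ⟨min f.2.toNat t, by omega⟩)
  else (0, 0)

/-- the face of a vertex -/
def fs {w t : ℕ} (v : SV w t) : Z2 := (((v.1 : ℕ) : ℤ) - 1, ((v.2 : ℕ) : ℤ))

lemma inS_fs {w t : ℕ} (v : SV w t) : InS w t (fs v) := by
  have h1 := v.1.2
  have h2 := v.2.2
  unfold InS fs
  constructor <;> constructor <;> simp only <;> omega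

lemma fs_sv {w t : ℕ} {f : Z2} (hf : InS w t f) : fs (sv w t f) = f := by
  unfold sv fs
  rw [if_pos hf]
  obtain ⟨⟨h1, h2⟩, h3, h4⟩ := hf
  refine Prod.ext ?_ ?_
  · show ((min (f.1 + 1).toNat (w + 1) : ℕ) : ℤ) - 1 = f.1
    omega
  · show ((min f.2.toNat t : ℕ) : ℤ) = f.2
    omega

lemma fs_inj {w t : ℕ} {v v' : SV w t} (h : fs v = fs v') : v = v' := by
  have h1 := congrArg Prod.fst h
  have h2 := congrArg Prod.snd h
  unfold fs at h1 h2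
  simp only at h1 h2
  refine Prod.ext (Fin.ext ?_) (Fin.ext ?_) <;> omega

lemma sv_fs {w t : ℕ} (v : SV w t) : sv w t (fs v) = v := fs_inj (fs_sv (inS_fs v))

lemma sv_not {w t : ℕ} {f : Z2} (hf : ¬ InS w t f) : fs (sv w t f) = (-1, 0) := by
  unfold sv fs
  rw [if_neg hf]
  simp

lemma sv_snd {w t : ℕ} {x y : ℤ} (h : InS w t (x, y)) : (((sv w t (x, y)).2 : ℕ) : ℤ) = y := by
  have := congrArg Prod.snd (fs_sv h)
  exact this

/-- first end point -/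
def ss (w t : ℕ) (e : {e : Bnd // e ∈ SR w (t + 1)}) : SV w t := sv w t (rt e.1)

/-- second end point -/
def st (w t : ℕ) (e : {e : Bnd // e ∈ SR w (t + 1)}) : SV w t := sv w t (lf e.1)

/-- the ends of a bond -/
lemma ends_s {w t : ℕ} {e : Bnd} (he : e ∈ SR w (t + 1)) :
    (InS w t (rt e) ∧ InS w t (lf e)) ∧
      ((lf e = ((rt e).1 - 1, (rt e).2) ∧ 0 ≤ (rt e).1) ∨
        (lf e = ((rt e).1, (rt e).2 + 1) ∧ 0 ≤ (rt e).1 ∧ (rt e).1 < w)) := by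
  obtain ⟨⟨x, y⟩, τ⟩ := e
  rcases mem_SR.1 he with ⟨h0, h1, h2, h3, h4⟩ | ⟨h0, h1, h2, h3, h4⟩
  · simp only at h0 h1 h2 h3 h4
    subst h0
    rw [rt_true, lf_true]
    push_cast at h4
    refine ⟨⟨?_, ?_⟩, Or.inl ⟨rfl, h1⟩⟩ <;> unfold InS <;>
      constructor <;> constructor <;> simp only <;> omega
  · simp only at h0 h1 h2 h3 h4
    subst h0
    rw [rt_false, lf_false]
    push_cast at h4
    refine ⟨⟨?_, ?_⟩, Or.inr ⟨by simp, h1, h2⟩⟩ <;> unfold InS <;>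
      constructor <;> constructor <;> simp only <;> omega

/-- adjacent vertices in coordinates -/
lemma adj_coord_s {w t : ℕ} {v v' : SV w t} (h : adjG (ss w t) (st w t) v v') :
    ((fs v' = ((fs v).1 - 1, (fs v).2)) ∨ (fs v = ((fs v').1 - 1, (fs v').2))) ∨
    ((fs v' = ((fs v).1, (fs v).2 + 1) ∧ 0 ≤ (fs v).1 ∧ (fs v).1 < w) ∨
      (fs v = ((fs v').1, (fs v').2 + 1) ∧ 0 ≤ (fs v').1 ∧ (fs v').1 < w)) := by
  obtain ⟨⟨e, he⟩, h⟩ := h
  obtain ⟨⟨h1, h2⟩, h3⟩ := ends_s he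
  have e1 : fs (ss w t ⟨e, he⟩) = rt e := fs_sv h1
  have e2 : fs (st w t ⟨e, he⟩) = lf e := fs_sv h2
  rcases h with ⟨rfl, rfl⟩ | ⟨rfl, rfl⟩
  · rw [e1, e2]
    rcases h3 with ⟨h3, -⟩ | h3
    · exact Or.inl (Or.inl h3)
    · exact Or.inr (Or.inl h3)
  · rw [e1, e2]
    rcases h3 with ⟨h3, -⟩ | h3
    · exact Or.inl (Or.inr h3)
    · exact Or.inr (Or.inr h3)

lemma adj4_of_fs {w t : ℕ} {v v' : SV w t}
    (h : |(fs v).1 - (fs v').1| + |(fs v).2 - (fs v').2| = 1) : adj4 v v' := by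
  unfold fs at h
  unfold adj4
  simp only at h
  rw [← h]
  congr 2
  ring

lemma adj4_of_s {w t : ℕ} {v v' : SV w t} (h : adjG (ss w t) (st w t) v v') : adj4 v v' := by
  refine adj4_of_fs ?_
  rcases adj_coord_s h with (h1 | h1) | (⟨h1, -⟩ | ⟨h1, -⟩) <;> rw [h1] <;> simp

lemma adj4_symm' {m n : ℕ} {v v' : Fin m × Fin n} (h : adj4 v v') : adj4 v' v := by
  unfold adj4 at h ⊢
  rw [abs_sub_comm, abs_sub_comm ((v'.2 : ℕ) : ℤ)]
  exact h

/-- the left neighbour -/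
lemma adj_left_s {w t : ℕ} {x y : ℤ} (hx : 0 ≤ x) (hx' : x < w + 1) (hy : 0 ≤ y)
    (hy' : y < t + 1) : adjG (ss w t) (st w t) (sv w t (x, y)) (sv w t (x - 1, y)) :=
  ⟨⟨((x, y), true), mem_SR.2 (Or.inl ⟨rfl, hx, hx', hy, by push_cast; exact hy'⟩)⟩,
    Or.inl ⟨rfl, rfl⟩⟩

/-- the lower neighbour -/
lemma adj_down_s {w t : ℕ} {x y : ℤ} (hx : 0 ≤ x) (hx' : x < w) (hy : 1 ≤ y) (hy' : y < t + 1) :
    adjG (ss w t) (st w t) (sv w t (x, y)) (sv w t (x, y - 1)) :=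
  ⟨⟨((x, y), false), mem_SR.2 (Or.inr ⟨rfl, hx, hx', hy, by push_cast; exact hy'⟩)⟩,
    Or.inr ⟨rfl, rfl⟩⟩

/-- a path to the left -/
lemma row_path_s {w t : ℕ} (P : SV w t → Prop) {y : ℤ} (hy : 0 ≤ y) (hy' : y < t + 1) (n : ℕ) :
    ∀ x : ℤ, -1 ≤ x → x + n < w + 1 → (∀ k : ℤ, x ≤ k → k ≤ x + n → P (sv w t (k, y))) →
      Relation.ReflTransGen (fun a b => adjG (ss w t) (st w t) a b ∧ P a ∧ P b)
        (sv w t (x + n, y)) (sv w t (x, y)) := by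
  induction n with
  | zero =>
    intro x _ _ _
    rw [Nat.cast_zero, add_zero]
  | succ n ih =>
    intro x hx hn hP
    push_cast at hn hP ⊢
    have h1 := ih x hx (by linarith) fun k hk hk' => hP k hk (by linarith)
    refine Relation.ReflTransGen.head ⟨?_, hP _ (by linarith) le_rfl,
      hP _ (by linarith) (by linarith)⟩ h1
    have h2 := adj_left_s (w := w) (t := t) (x := x + (n + 1)) (y := y) (by linarith) hn hy hy'
    rwa [show x + ((n : ℤ) + 1) - 1 = x + n by ring] at h2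

/-- a path downwards -/
lemma col_path_s {w t : ℕ} {x : ℤ} (hx : 0 ≤ x) (hx' : x < w) (n : ℕ) :
    ∀ y : ℤ, 0 ≤ y → y + n < t + 1 →
      Relation.ReflTransGen (adjG (ss w t) (st w t)) (sv w t (x, y + n)) (sv w t (x, y)) := by
  induction n with
  | zero =>
    intro y _ _
    rw [Nat.cast_zero, add_zero]
  | succ n ih =>
    intro y hy hn
    push_cast at hn ⊢
    have h1 := ih y hy (by linarith)
    refine Relation.ReflTransGen.head ?_ h1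
    have h2 := adj_down_s (w := w) (t := t) (x := x) (y := y + (n + 1)) hx hx' (by linarith) hn
    rwa [show y + ((n : ℤ) + 1) - 1 = y + n by ring] at h2

/-- the graph is connected -/
lemma conn_s {w t : ℕ} (hw : 1 ≤ w) : Conn (ss w t) (st w t) := by
  have key : ∀ v : SV w t,
      Relation.ReflTransGen (adjG (ss w t) (st w t)) v (sv w t (0, 0)) := by
    intro v
    obtain ⟨⟨h1, h2⟩, h3, h4⟩ := inS_fs v
    have hc : Relation.ReflTransGen (adjG (ss w t) (st w t)) (sv w t (0, (fs v).2))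
        (sv w t (0, 0)) := by
      have := col_path_s (w := w) (t := t) (x := 0) le_rfl (by omega) (fs v).2.toNat 0 le_rfl
        (by omega)
      rwa [show (0 : ℤ) + ((fs v).2.toNat : ℤ) = (fs v).2 by omega] at this
    refine Relation.ReflTransGen.trans ?_ hc
    by_cases c : (fs v).1 = -1
    · have h5 := adj_left_s (w := w) (t := t) (x := 0) (y := (fs v).2) le_rfl (by omega) h3 h4
      have h6 : sv w t (0 - 1, (fs v).2) = v := by
        rw [show ((0 : ℤ) - 1, (fs v).2) = fs v from Prod.ext (by rw [c]; norm_num) rfl, sv_fs]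
      rw [h6] at h5
      exact Relation.ReflTransGen.single (adjG_symm h5)
    · have h5 := row_path_s (w := w) (t := t) (fun _ => True) h3 h4 (fs v).1.toNat 0
        (by norm_num) (by omega) (fun _ _ _ => trivial)
      rw [show (0 : ℤ) + ((fs v).1.toNat : ℤ) = (fs v).1 by omega,
        show ((fs v).1, (fs v).2) = fs v from rfl, sv_fs] at h5
      exact Relation.ReflTransGen.mono (fun a b h => h.1) _ _ h5
  intro u v
  exact (key u).trans (rtg_flip (fun a b h => adjG_symm h) (key v))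

/-! ### the sets; the ring consists of the rows `[p, q)` -/

/-- the deleted vertices -/
def Ss (w t p q : ℕ) : Finset (SV w t) :=
  Finset.univ.filter fun v => ¬ (p ≤ (v.2 : ℕ) ∧ (v.2 : ℕ) < q)

lemma mem_Ss {w t p q : ℕ} {v : SV w t} :
    v ∈ Ss w t p q ↔ ¬ ((p : ℤ) ≤ (fs v).2 ∧ (fs v).2 < q) := by
  unfold Ss
  rw [Finset.mem_filter]
  unfold fs
  simp

/-- the region of the charges -/
def Bs (w t p q : ℕ) : Set (SV w t) :=
  {v | v ∈ Ss w t p q ∨ ∃ v' ∈ Ss w t p q, adjG (ss w t) (st w t) v v'}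

/-- the vertices whose face is not in `U` -/
def Ps (w t : ℕ) (U : Finset Z2) : Set (SV w t) := {v | fs v ∉ U}

/-- the left foot -/
def Ls (w t p q : ℕ) : Set (SV w t) := {v | (fs v).1 = -1 ∧ (p : ℤ) ≤ (fs v).2 ∧ (fs v).2 < q}

/-- the right foot -/
def Rs (w t p q : ℕ) : Set (SV w t) := {v | (fs v).1 = w ∧ (p : ℤ) ≤ (fs v).2 ∧ (fs v).2 < q}

lemma RS_s {w t p q : ℕ} {U : Finset Z2} (hU : ∀ f ∈ U, 0 ≤ f.1) :
    RS (ss w t) (st w t) (Ps w t U) (Ss w t p q) := by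
  intro v hv
  obtain ⟨⟨h1, h2⟩, h3, h4⟩ := inS_fs v
  have hs : ∀ x : ℤ, -1 ≤ x → x < w + 1 → sv w t (x, (fs v).2) ∉ Ss w t p q := by
    intro x hx hx'
    rw [mem_Ss, fs_sv (inS_mk hx hx' h3 h4)]
    rw [mem_Ss] at hv
    exact hv
  refine ⟨sv w t (-1, (fs v).2), ?_, hs _ le_rfl (by omega), ?_⟩
  · show fs (sv w t (-1, (fs v).2)) ∉ U
    rw [fs_sv (inS_mk le_rfl (by omega) h3 h4)]
    intro h
    have := hU _ h
    simp only at this
    omega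
  · have h5 := row_path_s (w := w) (t := t) (fun v' => v' ∉ Ss w t p q) (y := (fs v).2) h3 h4
      ((fs v).1 + 1).toNat (-1) le_rfl (by omega) (fun k hk hk' => hs k hk (by omega))
    rw [show (-1 : ℤ) + (((fs v).1 + 1).toNat : ℤ) = (fs v).1 by omega] at h5
    have h6 := rtg_flip (fun a' b' h => ⟨adjG_symm h.1, h.2.2, h.2.1⟩) h5
    rwa [show ((fs v).1, (fs v).2) = fs v from rfl, sv_fs] at h6

lemma RS_s0 {w t : ℕ} {U : Finset Z2} (hU : ∀ f ∈ U, 0 ≤ f.1) :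
    RS (ss w t) (st w t) (Ps w t U) ∅ := by
  have h1 := RS_s (w := w) (t := t) (p := 0) (q := t + 1) hU
  have h2 : Ss w t 0 (t + 1) = ∅ := by
    rw [Finset.eq_empty_iff_forall_notMem]
    intro v hv
    rw [mem_Ss] at hv
    have h3 := inS_fs v
    apply hv
    push_cast
    exact ⟨h3.2.1, h3.2.2⟩
  rwa [h2] at h1

lemma nb_s {w t p q : ℕ} : ∀ v ∈ Ss w t p q, v ∈ Bs w t p q ∧
    ∀ u, adjG (ss w t) (st w t) u v → u ∈ Bs w t p q :=
  fun v hv => ⟨Or.inl hv, fun _ hu => Or.inr ⟨v, hv, hu⟩⟩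

lemma Z1_s {w t p q : ℕ} {U : Finset Z2}
    (hU : ∀ f : Z2, (p : ℤ) ≤ f.2 → f.2 < (q : ℤ) → (f ∈ U ↔ 0 ≤ f.1 ∧ f.1 < (w : ℤ))) :
    Z1 (Ps w t U) (Ss w t p q) = Ls w t p q ∪ Rs w t p q ∪ {v | v ∈ Ss w t p q} := by
  ext v
  obtain ⟨⟨h1, h2⟩, h3, h4⟩ := inS_fs v
  show (fs v ∉ U ∨ v ∈ Ss w t p q) ↔ ((((fs v).1 = -1 ∧ (p : ℤ) ≤ (fs v).2 ∧ (fs v).2 < q) ∨
    ((fs v).1 = w ∧ (p : ℤ) ≤ (fs v).2 ∧ (fs v).2 < q)) ∨ v ∈ Ss w t p q)
  rw [mem_Ss]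
  by_cases c : (p : ℤ) ≤ (fs v).2 ∧ (fs v).2 < q
  · rw [hU (fs v) c.1 c.2]
    omega
  · simp only [c, not_false_eq_true, or_true]

lemma RS_disj_s {w t p q : ℕ} : Disjoint (Rs w t p q) {v | v ∈ Ss w t p q} := by
  rw [Set.disjoint_left]
  rintro v ⟨_, h1, h2⟩ hv
  exact mem_Ss.1 hv ⟨h1, h2⟩

/-- a column in the board -/
lemma col4_s {w t : ℕ} {P : Set (SV w t)} {x : ℤ} (hx : -1 ≤ x) (hx' : x < w + 1) (n : ℕ) :
    ∀ y : ℤ, 0 ≤ y → y + n < t + 1 → (∀ k : ℤ, y ≤ k → k ≤ y + n → sv w t (x, k) ∈ P) →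
      Relation.ReflTransGen (fun a b => adj4 a b ∧ a ∈ P ∧ b ∈ P)
        (sv w t (x, y)) (sv w t (x, y + n)) := by
  induction n with
  | zero =>
    intro y _ _ _
    rw [Nat.cast_zero, add_zero]
  | succ n ih =>
    intro y hy hn hP
    push_cast at hn hP ⊢
    have h1 := ih y hy (by linarith) fun k hk hk' => hP k hk (by linarith)
    refine h1.tail ⟨?_, hP _ (by linarith) (by linarith), hP _ (by linarith) le_rfl⟩
    refine adj4_of_fs ?_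
    rw [fs_sv (inS_mk hx hx' (by linarith) (by linarith)),
      fs_sv (inS_mk hx hx' (by linarith) (by linarith))]
    simp only [sub_self, abs_zero, zero_add]
    rw [show y + (n : ℤ) - (y + ((n : ℤ) + 1)) = -1 by ring]
    norm_num

/-- the reduction of the crossing property -/
lemma cross_aux {w t p q : ℕ} {M : Set (SV w t)} {x y : SV w t} (hyM : y ∈ M)
    (hxB : x ∉ Bs w t p q) (hyB : y ∈ Bs w t p q)
    (h : Relation.ReflTransGen (fun a b =>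
      adjG (s1 (ss w t) (st w t) (Ss w t p q)) (t1 (ss w t) (st w t) (Ss w t p q)) a b ∧
        a ∈ M ∧ b ∈ M) x y) :
    x ∉ Ss w t p q ∧ ∃ u ∈ Ss w t p q, y ∉ Ss w t p q ∧ adjG (ss w t) (st w t) y u ∧
      Relation.ReflTransGen (fun a b => adj4 a b ∧
        a ∈ {v | (v ∈ M ∧ v ∉ Ss w t p q) ∨ v ∈ Ss w t p q} ∧
        b ∈ {v | (v ∈ M ∧ v ∉ Ss w t p q) ∨ v ∈ Ss w t p q}) x u := by
  have hxS : x ∉ Ss w t p q := fun hh => hxB (Or.inl hh)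
  have key : ∀ z, Relation.ReflTransGen (fun a b =>
      adjG (s1 (ss w t) (st w t) (Ss w t p q)) (t1 (ss w t) (st w t) (Ss w t p q)) a b ∧
        a ∈ M ∧ b ∈ M) x z → z ∉ Ss w t p q ∧
      Relation.ReflTransGen (fun a b => adj4 a b ∧
        a ∈ {v | (v ∈ M ∧ v ∉ Ss w t p q) ∨ v ∈ Ss w t p q} ∧
        b ∈ {v | (v ∈ M ∧ v ∉ Ss w t p q) ∨ v ∈ Ss w t p q}) x z := by
    intro z hz
    induction hz with
    | refl => exact ⟨hxS, .refl⟩
    | @tail a b _ hab ih =>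
      obtain ⟨hadj, haS, hbS⟩ := adj_sub hab.1
      exact ⟨hbS, ih.2.tail ⟨adj4_of_s hadj, Or.inl ⟨hab.2.1, haS⟩, Or.inl ⟨hab.2.2, hbS⟩⟩⟩
  obtain ⟨hyS, hxy⟩ := key y h
  rcases hyB with hyB | ⟨u, huS, hyu⟩
  · exact absurd hyB hyS
  · exact ⟨hxS, u, huS, hyS, hyu, hxy.tail ⟨adj4_of_s hyu, Or.inl ⟨hyM, hyS⟩, Or.inr huS⟩⟩

/-- the chain between the feet -/
lemma cross_feet {w t p q : ℕ} {M' : Set (SV w t)} {l r : SV w t} (hlM : l ∈ M') (hrM : r ∈ M')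
    (hlL : l ∈ Ls w t p q) (hrR : r ∈ Rs w t p q)
    (h : Relation.ReflTransGen (fun a b =>
      adjG (s1 (ss w t) (st w t) (Ss w t p q)) (t1 (ss w t) (st w t) (Ss w t p q)) a b ∧
        a ∈ M' ∧ b ∈ M') l r) :
    Cn adj4 {v | v ∈ M' ∧ v ∉ Ss w t p q} P198.PlanarTop.lft P198.PlanarTop.rgt := by
  obtain ⟨hl1, hl2, hl3⟩ := hlL
  obtain ⟨hr1, hr2, hr3⟩ := hrR
  have hlS : l ∉ Ss w t p q := fun hh => mem_Ss.1 hh ⟨hl2, hl3⟩
  have hrS : r ∉ Ss w t p q := fun hh => mem_Ss.1 hh ⟨hr2, hr3⟩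
  refine ⟨l, ⟨⟨hlM, hlS⟩, ?_⟩, r, ⟨⟨hrM, hrS⟩, ?_⟩, ?_⟩
  · show (l.1 : ℕ) = 0
    unfold fs at hl1
    simp only at hl1
    omega
  · show (r.1 : ℕ) + 1 = w + 2
    unfold fs at hr1
    simp only at hr1
    omega
  · refine Relation.ReflTransGen.mono (fun a b hab => ?_) _ _ h
    obtain ⟨hadj, haS, hbS⟩ := adj_sub hab.1
    exact ⟨adj4_of_s hadj, ⟨hab.2.1, haS⟩, ⟨hab.2.2, hbS⟩⟩

/-- the common vertex -/
lemma cross_end {w t p q : ℕ} {M M' : Set (SV w t)}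
    (c1 : Cn adj4 {v | (v ∈ M ∧ v ∉ Ss w t p q) ∨ v ∈ Ss w t p q} P198.PlanarTop.bot
      P198.PlanarTop.top')
    (c2 : Cn adj4 {v | v ∈ M' ∧ v ∉ Ss w t p q} P198.PlanarTop.lft P198.PlanarTop.rgt) :
    (M ∩ M').Nonempty := by
  obtain ⟨v, ⟨hv1, hv2⟩, hv3⟩ := cross4 (w + 2) (t + 1) _ _ c2 c1
  rcases hv3 with hv3 | hv3
  · exact ⟨v, hv3.1, hv1⟩
  · exact absurd hv3 hv2

/-- **the crossing property, upper end** -/
theorem cross_up {w t p : ℕ} {A : Set (SV w t)} (hA : ∀ v ∈ A, (fs v).2 = t)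
    (hAB : Disjoint A (Bs w t p (t + 1))) :
    Cross (adjG (s1 (ss w t) (st w t) (Ss w t p (t + 1))) (t1 (ss w t) (st w t) (Ss w t p (t + 1))))
      A (Bs w t p (t + 1)) (Ls w t p (t + 1)) (Rs w t p (t + 1)) := by
  rintro M M' ⟨x, ⟨hxM, hxA⟩, y, ⟨hyM, hyB⟩, h1⟩ ⟨l, ⟨hlM, hlL⟩, r, ⟨hrM, hrR⟩, h2⟩
  obtain ⟨hxS, u, huS, hyS, hyu, hxu⟩ := cross_aux hyM (Set.disjoint_left.1 hAB hxA) hyB h1
  obtain ⟨⟨hu1, hu2⟩, hu3, hu4⟩ := inS_fs u
  obtain ⟨⟨hy1, hy2⟩, hy3, hy4⟩ := inS_fs y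
  have huS' := mem_Ss.1 huS
  rw [mem_Ss, not_not] at hyS
  have hup : (fs u).2 < p := by
    push_cast at huS'
    omega
  have hp := col4_s (w := w) (t := t)
    (P := {v | (v ∈ M ∧ v ∉ Ss w t p (t + 1)) ∨ v ∈ Ss w t p (t + 1)}) hu1 hu2 (fs u).2.toNat 0
    le_rfl (by omega) (fun k hk hk' => Or.inr (mem_Ss.2 (by
      rw [fs_sv (inS_mk hu1 hu2 hk (by omega))]
      simp only
      omega)))
  rw [show (0 : ℤ) + ((fs u).2.toNat : ℤ) = (fs u).2 by omega,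
    show ((fs u).1, (fs u).2) = fs u from rfl, sv_fs] at hp
  refine cross_end ⟨sv w t ((fs u).1, 0), ⟨Or.inr (mem_Ss.2 ?_), ?_⟩, x,
    ⟨Or.inl ⟨hxM, hxS⟩, ?_⟩, hp.trans (rtg_flip (fun a b h => ⟨adj4_symm' h.1, h.2.2, h.2.1⟩) hxu)⟩
    (cross_feet hlM hrM hlL hrR h2)
  · rw [fs_sv (inS_mk hu1 hu2 le_rfl (by omega))]
    simp only
    omega
  · show ((sv w t ((fs u).1, 0)).2 : ℕ) = 0
    have := sv_snd (inS_mk (w := w) (t := t) hu1 hu2 le_rfl (by omega))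
    exact_mod_cast this
  · show (x.2 : ℕ) + 1 = t + 1
    have := hA x hxA
    unfold fs at this
    simp only at this
    omega

/-- **the crossing property, lower end** -/
theorem cross_down {w t q : ℕ} {A : Set (SV w t)} (hA : ∀ v ∈ A, (fs v).2 = 0)
    (hAB : Disjoint A (Bs w t 0 q)) :
    Cross (adjG (s1 (ss w t) (st w t) (Ss w t 0 q)) (t1 (ss w t) (st w t) (Ss w t 0 q)))
      A (Bs w t 0 q) (Ls w t 0 q) (Rs w t 0 q) := by
  rintro M M' ⟨x, ⟨hxM, hxA⟩, y, ⟨hyM, hyB⟩, h1⟩ ⟨l, ⟨hlM, hlL⟩, r, ⟨hrM, hrR⟩, h2⟩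
  obtain ⟨hxS, u, huS, hyS, hyu, hxu⟩ := cross_aux hyM (Set.disjoint_left.1 hAB hxA) hyB h1
  obtain ⟨⟨hu1, hu2⟩, hu3, hu4⟩ := inS_fs u
  have huS' := mem_Ss.1 huS
  have hup : (q : ℤ) ≤ (fs u).2 := by
    push_cast at huS'
    omega
  have hp := col4_s (w := w) (t := t)
    (P := {v | (v ∈ M ∧ v ∉ Ss w t 0 q) ∨ v ∈ Ss w t 0 q}) hu1 hu2
    (t - (fs u).2).toNat (fs u).2 hu3 (by omega) (fun k hk hk' => Or.inr (mem_Ss.2 (by
      rw [fs_sv (inS_mk hu1 hu2 (by omega) (by omega))]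
      simp only
      omega)))
  rw [show (fs u).2 + (((t : ℤ) - (fs u).2).toNat : ℤ) = t by omega,
    show ((fs u).1, (fs u).2) = fs u from rfl, sv_fs] at hp
  refine cross_end ⟨x, ⟨Or.inl ⟨hxM, hxS⟩, ?_⟩, sv w t ((fs u).1, (t : ℤ)),
    ⟨Or.inr (mem_Ss.2 ?_), ?_⟩, hxu.trans hp⟩ (cross_feet hlM hrM hlL hrR h2)
  · show (x.2 : ℕ) = 0
    have := hA x hxA
    unfold fs at this
    simp only at this
    omega
  · rw [fs_sv (inS_mk hu1 hu2 (by omega) (by omega))]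
    simp only
    omega
  · show ((sv w t ((fs u).1, (t : ℤ))).2 : ℕ) + 1 = t + 1
    have := sv_snd (inS_mk (w := w) (t := t) (y := (t : ℤ)) hu1 hu2 (by omega) (by omega))
    omega

end Vale.Agent.P159.T1.H112
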